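import Vale.Agent.P290.H436.Sard

/-!
# P298 (helper752): generic top forms and generic Kummer coverings (Bertini type statements)
-/

namespace Vale.Agent.P298.H752

open Filter Topology Set
open scoped ContDiff

/-- generic choice of a number outside a countable set -/
theorem exists_notMem_countable {S : Set ℂ} (hS : S.Countable) : ∃ a : ℂ, a ≠ 0 ∧ a ∉ S := by
  have h1 : (S ∪ {0}).Countable := hS.union (countable_singleton 0)
  obtain ⟨a, ha⟩ : ((S ∪ {0})ᶜ).Nonempty := by
    by_contra hcon
    rw [not_nonempty_iff_eq_empty, compl_empty_iff] at hcon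
    rw [hcon] at h1
    exact not_countable_complex h1
  rw [mem_compl_iff, mem_union, not_or] at ha
  exact ⟨a, fun h => ha.2 (by simp [h]), ha.1⟩

/-- **Generic top form**: for a generic choice of the constants `c i` the hypersurface
`f + ∑ c i * x i ^ d = 0` is smooth outside of the origin. -/
theorem exists_top (d : ℕ) (hd : 1 ≤ d) : ∀ (n : ℕ) (f : (Fin n → ℂ) → ℂ),
    Differentiable ℂ f → ∃ c : Fin n → ℂ, (∀ i, c i ≠ 0) ∧ ∀ x : Fin n → ℂ, x ≠ 0 →
      f x + ∑ i, c i * x i ^ d = 0 → fderiv ℂ (fun y => f y + ∑ i, c i * y i ^ d) x ≠ 0 := by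
  intro n
  induction n with
  | zero =>
    intro f _
    exact ⟨fun i => i.elim0, fun i => i.elim0, fun x hx => absurd (Subsingleton.elim x 0) hx⟩
  | succ n ih =>
    intro f hf
    have hι : Differentiable ℂ (fun y : Fin n → ℂ => (Fin.cons 0 y : Fin (n + 1) → ℂ)) := by
      rw [differentiable_pi]
      intro i
      refine Fin.cases ?_ (fun j => ?_) i
      · simp
      · simp only [Fin.cons_succ]
        fun_prop
    obtain ⟨c', hc', hc'2⟩ := ih (fun y => f (Fin.cons 0 y : Fin (n + 1) → ℂ)) (hf.comp hι)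
    set h : (Fin (n + 1) → ℂ) → ℂ := fun x => f x + ∑ i : Fin n, c' i * x i.succ ^ d with hh
    have hhd : Differentiable ℂ h := by
      refine hf.add ?_
      fun_prop
    set U : Set (Fin (n + 1) → ℂ) := {x | x 0 ≠ 0} with hU
    have hUo : IsOpen U := isOpen_ne_fun (continuous_apply 0) continuous_const
    set g : (Fin (n + 1) → ℂ) → ℂ := fun x => -h x * (x 0 ^ d)⁻¹ with hg
    have hgd : DifferentiableOn ℂ g U := by
      refine DifferentiableOn.fun_mul hhd.fun_neg.differentiableOn ?_
      refine DifferentiableOn.inv (by fun_prop) ?_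
      intro x hx
      exact pow_ne_zero _ hx
    have hcount := Vale.Agent.P290.H436.countable_critVal (n + 1) (Fin (n + 1) → ℂ)
      (by simp) g U hUo hgd
    obtain ⟨c₀, hc₀, hc₀2⟩ := exists_notMem_countable hcount
    refine ⟨Fin.cons c₀ c', fun i => ?_, fun x hx hx0 hdx => ?_⟩
    · refine Fin.cases ?_ (fun j => ?_) i
      · simpa using hc₀
      · simpa using hc' j
    set G : (Fin (n + 1) → ℂ) → ℂ := fun y => f y + ∑ i, (Fin.cons c₀ c' : Fin (n + 1) → ℂ) i *
      y i ^ d with hG
    have hGh : ∀ y, G y = h y + c₀ * y 0 ^ d := by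
      intro y
      simp only [hG, hh]
      rw [Fin.sum_univ_succ]
      simp only [Fin.cons_zero, Fin.cons_succ]
      ring
    have hGd : Differentiable ℂ G := by
      have : G = fun y => h y + c₀ * y 0 ^ d := funext hGh
      rw [this]
      refine hhd.add ?_
      fun_prop
    have hGx : G x = 0 := hx0
    have hGf : HasFDerivAt G (0 : (Fin (n + 1) → ℂ) →L[ℂ] ℂ) x := by
      have := (hGd x).hasFDerivAt
      rwa [show fderiv ℂ G x = 0 from hdx] at this
    by_cases hx00 : x 0 = 0
    · -- the point lies on the hyperplane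
      set x' : Fin n → ℂ := fun i => x i.succ with hx'
      have hxx : (Fin.cons 0 x' : Fin (n + 1) → ℂ) = x := by
        funext i
        refine Fin.cases ?_ (fun j => ?_) i
        · simp [hx00]
        · simp [hx']
      have hx'0 : x' ≠ 0 := by
        intro h0
        apply hx
        rw [← hxx, h0]
        funext i
        refine Fin.cases ?_ (fun j => ?_) i <;> simp
      have heq : (fun y : Fin n → ℂ => f (Fin.cons 0 y : Fin (n + 1) → ℂ) +
          ∑ i, c' i * y i ^ d) = fun y : Fin n → ℂ => G (Fin.cons 0 y : Fin (n + 1) → ℂ) := by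
        funext y
        rw [hGh]
        simp only [hh, Fin.cons_succ, Fin.cons_zero]
        rw [zero_pow (by omega), mul_zero, add_zero]
      refine hc'2 x' hx'0 ?_ ?_
      · have := congrFun heq x'
        have h9 : G (Fin.cons 0 x' : Fin (n + 1) → ℂ) = 0 := by rw [hxx]; exact hGx
        exact this.trans h9
      · rw [heq]
        have h2 : HasFDerivAt G (0 : (Fin (n + 1) → ℂ) →L[ℂ] ℂ)
            ((fun y : Fin n → ℂ => (Fin.cons 0 y : Fin (n + 1) → ℂ)) x') := by
          simp only [hxx]
          exact hGf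
        have h3 := h2.comp x' (hι x').hasFDerivAt
        rw [ContinuousLinearMap.zero_comp] at h3
        exact h3.fderiv
    · apply hc₀2
      refine ⟨x, ⟨hx00, ?_⟩, ?_⟩
      · have h2 : ∀ᶠ y in 𝓝 x, g y = c₀ - G y * (y 0 ^ d)⁻¹ := by
          filter_upwards [hUo.mem_nhds (show x ∈ U from hx00)] with y hy
          have hy0 : y 0 ^ d ≠ 0 := pow_ne_zero _ hy
          rw [hGh]
          simp only [hg]
          field_simp
          ring
        have h3 : DifferentiableAt ℂ (fun y : Fin (n + 1) → ℂ => (y 0 ^ d)⁻¹) x := by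
          refine DifferentiableAt.inv (by fun_prop) (pow_ne_zero _ hx00)
        have h4 : HasFDerivAt (fun y => G y * (y 0 ^ d)⁻¹)
            (G x • fderiv ℂ (fun y : Fin (n + 1) → ℂ => (y 0 ^ d)⁻¹) x +
              (x 0 ^ d)⁻¹ • (0 : (Fin (n + 1) → ℂ) →L[ℂ] ℂ)) x := hGf.mul h3.hasFDerivAt
        have h5 : G x • fderiv ℂ (fun y : Fin (n + 1) → ℂ => (y 0 ^ d)⁻¹) x +
              (x 0 ^ d)⁻¹ • (0 : (Fin (n + 1) → ℂ) →L[ℂ] ℂ) = 0 := by
          rw [hGx]
          ext v
          simp
        rw [h5] at h4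
        have h6 := (h4.const_sub c₀).congr_of_eventuallyEq h2
        rw [neg_zero] at h6
        exact h6.fderiv
      · have h7 := hGh x
        rw [hGx] at h7
        simp only [hg]
        have hy0 : x 0 ^ d ≠ 0 := pow_ne_zero _ hx00
        rw [mul_inv_eq_iff_eq_mul₀ hy0]
        linear_combination h7

end Vale.Agent.P298.H752
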