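import Vale.Agent.P298.H752.Transfer

/-!
# P298 (helper752): polynomial families with a fixed top form: behaviour at infinity
-/

namespace Vale.Agent.P298.H752

open Filter Topology Metric

variable {n : ℕ}

/-- growth of a polynomial -/
theorem eval_bound (p : MvPolynomial (Fin n) ℂ) (m : ℕ) (hp : p.totalDegree ≤ m) :
    ∃ C : ℝ, 0 ≤ C ∧ ∀ x : Fin n → ℂ, 1 ≤ ‖x‖ → ‖MvPolynomial.eval x p‖ ≤ C * ‖x‖ ^ m := by
  refine ⟨∑ s ∈ p.support, ‖p.coeff s‖, Finset.sum_nonneg fun _ _ => norm_nonneg _,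
    fun x hx => ?_⟩
  rw [MvPolynomial.eval_eq', Finset.sum_mul]
  refine (norm_sum_le _ _).trans (Finset.sum_le_sum fun s hs => ?_)
  rw [norm_mul, norm_prod]
  refine mul_le_mul_of_nonneg_left ?_ (norm_nonneg _)
  calc ∏ i, ‖x i ^ s i‖ ≤ ∏ i, ‖x‖ ^ s i := by
        refine Finset.prod_le_prod (fun i _ => norm_nonneg _) fun i _ => ?_
        rw [norm_pow]
        exact pow_le_pow_left₀ (norm_nonneg _) (norm_le_pi_norm x i) _
    _ = ‖x‖ ^ ∑ i, s i := by rw [Finset.prod_pow_eq_pow_sum]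
    _ ≤ ‖x‖ ^ m := by
        refine pow_le_pow_right₀ hx ?_
        refine le_trans ?_ hp
        have h1 := MvPolynomial.le_totalDegree hs
        rwa [Finsupp.sum_fintype _ _ (fun _ => rfl)] at h1

theorem totalDegree_pderiv (p : MvPolynomial (Fin n) ℂ) (k : Fin n) (d : ℕ)
    (hp : p.totalDegree < d) : (MvPolynomial.pderiv k p).totalDegree ≤ d - 2 := by
  rw [MvPolynomial.totalDegree]
  refine Finset.sup_le fun s hs => ?_
  rw [MvPolynomial.mem_support_iff, MvPolynomial.coeff_pderiv] at hs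
  have h1 : s + Finsupp.single k 1 ∈ p.support := by
    rw [MvPolynomial.mem_support_iff]
    exact left_ne_zero_of_mul hs
  have h2 := MvPolynomial.le_totalDegree h1
  rw [Finsupp.sum_fintype _ _ (fun _ => rfl)] at h2 ⊢
  have h3 : ∑ i, (s + Finsupp.single k 1 : Fin n →₀ ℕ) i = ∑ i, s i + 1 := by
    simp only [Finsupp.add_apply, Finset.sum_add_distrib]
    congr 1
    rw [Finset.sum_eq_single k] <;> simp +contextual [eq_comm]
  rw [h3] at h2
  change ∑ i, s i ≤ d - 2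
  omega

/-- a family of polynomials with fixed top form `∑ c i * x i ^ d` -/
noncomputable def PF {ι : Type} [Fintype ι] (a : ι → ℂ → ℂ) (β : ι → MvPolynomial (Fin n) ℂ)
    (c : Fin n → ℂ) (d : ℕ) (x : Fin n → ℂ) (t : ℂ) : ℂ :=
  ∑ i, a i t * MvPolynomial.eval x (β i) + ∑ i, c i * x i ^ d

section

variable {ι : Type} [Fintype ι] {a : ι → ℂ → ℂ} {β : ι → MvPolynomial (Fin n) ℂ}
  {c : Fin n → ℂ} {d : ℕ}

theorem hasFDerivAt_eval (p : MvPolynomial (Fin n) ℂ) (x : Fin n → ℂ) :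
    ∃ D : (Fin n → ℂ) →L[ℂ] ℂ, HasFDerivAt (fun y => MvPolynomial.eval y p) D x ∧
      ∀ k, D (Pi.single k 1) = MvPolynomial.eval x (MvPolynomial.pderiv k p) := by
  induction p using MvPolynomial.induction_on with
  | C b =>
    refine ⟨0, ?_, fun k => by simp⟩
    simp only [MvPolynomial.eval_C]
    exact hasFDerivAt_const _ _
  | add p q hp hq =>
    obtain ⟨D, hD, hD2⟩ := hp
    obtain ⟨D', hD', hD'2⟩ := hq
    refine ⟨D + D', ?_, fun k => ?_⟩
    · simp only [map_add]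
      exact hD.add hD'
    · rw [add_apply, hD2, hD'2, map_add, map_add]
  | mul_X p i hp =>
    obtain ⟨D, hD, hD2⟩ := hp
    have h1 : HasFDerivAt (fun y : Fin n → ℂ => y i)
        (ContinuousLinearMap.proj (R := ℂ) (φ := fun _ : Fin n => ℂ) i) x :=
      (ContinuousLinearMap.proj (R := ℂ) (φ := fun _ : Fin n => ℂ) i).hasFDerivAt
    refine ⟨MvPolynomial.eval x p • (ContinuousLinearMap.proj (R := ℂ)
      (φ := fun _ : Fin n => ℂ) i) + x i • D, ?_, fun k => ?_⟩
    · simp only [map_mul, MvPolynomial.eval_X]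
      exact hD.mul h1
    · have h2 : (MvPolynomial.eval x p • (ContinuousLinearMap.proj (R := ℂ)
          (φ := fun _ : Fin n => ℂ) i) + x i • D) (Pi.single k 1) =
          MvPolynomial.eval x p * (Pi.single k (1 : ℂ) : Fin n → ℂ) i +
            x i * D (Pi.single k 1) := rfl
      rw [h2, hD2, Derivation.leibniz, MvPolynomial.pderiv_X]
      simp only [smul_eq_mul, map_add, map_mul, MvPolynomial.eval_X]
      by_cases hk : k = i
      · subst hk
        simp
      · rw [Pi.single_eq_of_ne (Ne.symm hk), Pi.single_eq_of_ne (Ne.symm hk)]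
        simp

/-- partial derivatives of the polynomial family -/
theorem PF_pd (x : Fin n → ℂ) (t : ℂ) :
    DifferentiableAt ℂ (fun y => PF a β c d y t) x ∧ ∀ k, pd k (fun y => PF a β c d y t) x =
      ∑ i, a i t * MvPolynomial.eval x (MvPolynomial.pderiv k (β i)) +
        d * c k * x k ^ (d - 1) := by
  choose D hD hD2 using fun i => hasFDerivAt_eval (β i) x
  have h1 : HasFDerivAt (fun y => ∑ i, a i t * MvPolynomial.eval y (β i))
      (∑ i, a i t • D i) x :=
    HasFDerivAt.fun_sum fun i _ => (hD i).const_mul (a i t)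
  have h2 : HasFDerivAt (fun y : Fin n → ℂ => ∑ i, c i * y i ^ d)
      (∑ i, c i • ((d * x i ^ (d - 1)) •
        (ContinuousLinearMap.proj (R := ℂ) (φ := fun _ : Fin n => ℂ) i))) x := by
    refine HasFDerivAt.fun_sum fun i _ => ?_
    have h3 : HasFDerivAt (fun y : Fin n → ℂ => y i)
        (ContinuousLinearMap.proj (R := ℂ) (φ := fun _ : Fin n => ℂ) i) x :=
      (ContinuousLinearMap.proj (R := ℂ) (φ := fun _ : Fin n => ℂ) i).hasFDerivAt
    exact ((hasDerivAt_pow d (x i)).comp_hasFDerivAt x h3).const_mul (c i)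
  have h3 := h1.add h2
  refine ⟨h3.differentiableAt, fun k => ?_⟩
  have h4 : fderiv ℂ (fun y => PF a β c d y t) x = _ := h3.fderiv
  unfold pd
  rw [h4]
  simp only [add_apply, sum_apply, smul_apply,
    ContinuousLinearMap.proj_apply, hD2, smul_eq_mul]
  congr 1
  rw [Finset.sum_eq_single k]
  · simp; ring
  · intro i _ hi
    rw [Pi.single_eq_of_ne hi]; simp
  · intro h; exact absurd (Finset.mem_univ _) h

theorem PF_analytic {t : ℂ} (ha : ∀ i, AnalyticAt ℂ (a i) t) (x : Fin n → ℂ) :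
    AnalyticAt ℂ (fun p : (Fin n → ℂ) × ℂ => PF a β c d p.1 p.2) (x, t) := by
  refine AnalyticAt.fun_add ?_ ?_
  · refine Finset.analyticAt_fun_sum _ fun i _ => ?_
    have h1 : AnalyticAt ℂ (a i) ((x, t) : (Fin n → ℂ) × ℂ).2 := ha i
    have h2 : AnalyticAt ℂ (fun x : Fin n → ℂ => MvPolynomial.eval x (β i))
        ((x, t) : (Fin n → ℂ) × ℂ).1 := AnalyticOnNhd.eval_mvPolynomial (β i) x (Set.mem_univ _)
    exact (h1.comp analyticAt_snd).fun_mul (h2.comp analyticAt_fst)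
  · exact Finset.analyticAt_fun_sum _ fun i _ =>
      analyticAt_const.fun_mul ((analyticAt_coord _ i).fun_pow d)

/-- lower bound for the gradient near infinity -/
theorem PF_infinity (hβ : ∀ i, (β i).totalDegree < d) (hd : 2 ≤ d) (hc : ∀ k, c k ≠ 0)
    {A : ℝ} (T : Set ℂ) (ha : ∀ i, ∀ t ∈ T, ‖a i t‖ ≤ A) :
    ∃ R κ : ℝ, 0 < R ∧ 0 < κ ∧ ∀ t ∈ T, ∀ x : Fin n → ℂ, R ≤ ‖x‖ → ∀ k, ‖x k‖ = ‖x‖ →
      κ * ‖x‖ ^ (d - 1) ≤ ‖pd k (fun y => PF a β c d y t) x‖ := by
  classical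
  choose C hC0 hC using fun (k : Fin n) (i : ι) =>
    eval_bound (MvPolynomial.pderiv k (β i)) (d - 2) (totalDegree_pderiv (β i) k d (hβ i))
  obtain ⟨δ, hδ0, hδ⟩ : ∃ δ : ℝ, 0 < δ ∧ ∀ k, δ ≤ ‖c k‖ := by
    rcases isEmpty_or_nonempty (Fin n) with h | h
    · exact ⟨1, one_pos, fun k => (h.false k).elim⟩
    · obtain ⟨k₀, hk₀⟩ := Finite.exists_min fun k => ‖c k‖
      exact ⟨‖c k₀‖, norm_pos_iff.2 (hc k₀), hk₀⟩
  set B : ℝ := ∑ k, ∑ i, |A| * C k i with hB
  have hB0 : 0 ≤ B := Finset.sum_nonneg fun k _ => Finset.sum_nonneg fun i _ =>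
    mul_nonneg (abs_nonneg _) (hC0 k i)
  refine ⟨max 1 (2 * B / δ), δ / 2, lt_max_of_lt_left one_pos, by positivity, ?_⟩
  intro t ht x hx k hk
  have hx1 : 1 ≤ ‖x‖ := (le_max_left _ _).trans hx
  have hx2 : 2 * B / δ ≤ ‖x‖ := (le_max_right _ _).trans hx
  rw [(PF_pd x t).2 k]
  have h1 : ‖∑ i, a i t * MvPolynomial.eval x (MvPolynomial.pderiv k (β i))‖ ≤
      B * ‖x‖ ^ (d - 2) := by
    calc ‖∑ i, a i t * MvPolynomial.eval x (MvPolynomial.pderiv k (β i))‖
        ≤ ∑ i, ‖a i t * MvPolynomial.eval x (MvPolynomial.pderiv k (β i))‖ := norm_sum_le _ _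
      _ ≤ ∑ i, |A| * C k i * ‖x‖ ^ (d - 2) := by
          refine Finset.sum_le_sum fun i _ => ?_
          rw [norm_mul, mul_assoc]
          exact mul_le_mul ((ha i t ht).trans (le_abs_self A)) (hC k i x hx1)
            (norm_nonneg _) (abs_nonneg _)
      _ = (∑ i, |A| * C k i) * ‖x‖ ^ (d - 2) := by rw [Finset.sum_mul]
      _ ≤ B * ‖x‖ ^ (d - 2) := by
          refine mul_le_mul_of_nonneg_right ?_ (by positivity)
          exact Finset.single_le_sum (f := fun k => ∑ i, |A| * C k i)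
            (fun k _ => Finset.sum_nonneg fun i _ => mul_nonneg (abs_nonneg _) (hC0 k i))
            (Finset.mem_univ k)
  have h2 : B * ‖x‖ ^ (d - 2) ≤ δ / 2 * ‖x‖ ^ (d - 1) := by
    have h3 : ‖x‖ ^ (d - 1) = ‖x‖ * ‖x‖ ^ (d - 2) := by
      rw [← pow_succ']
      congr 1
      omega
    rw [h3, ← mul_assoc]
    refine mul_le_mul_of_nonneg_right ?_ (by positivity)
    rw [div_le_iff₀ hδ0] at hx2
    linarith
  have h4 : δ * ‖x‖ ^ (d - 1) ≤ ‖(d : ℂ) * c k * x k ^ (d - 1)‖ := by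
    rw [norm_mul, norm_mul, norm_pow, hk, Complex.norm_natCast]
    refine mul_le_mul_of_nonneg_right ?_ (by positivity)
    have h5 : (1 : ℝ) ≤ d := by exact_mod_cast (by omega : 1 ≤ d)
    calc δ ≤ ‖c k‖ := hδ k
      _ ≤ d * ‖c k‖ := le_mul_of_one_le_left (norm_nonneg _) h5
  have h6 := norm_sub_norm_le ((d : ℂ) * c k * x k ^ (d - 1))
    (-∑ i, a i t * MvPolynomial.eval x (MvPolynomial.pderiv k (β i)))
  rw [norm_neg, sub_neg_eq_add, add_comm ((d : ℂ) * c k * x k ^ (d - 1))] at h6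
  linarith

end

end Vale.Agent.P298.H752
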