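import Vale.Agent.P298.H752.Bertini

/-!
# P298 (helper752): generic Kummer coverings of smooth hypersurfaces are smooth
-/

namespace Vale.Agent.P298.H752

open Filter Topology Set
open scoped ContDiff

/-- Sard theorem for a function restricted to a smooth hypersurface. -/
theorem countable_tangent (E : Type) [NormedAddCommGroup E] [NormedSpace ℂ E]
    [FiniteDimensional ℂ E] (g ℓ : E → ℂ) (hg : Differentiable ℂ g) (hℓ : Differentiable ℂ ℓ) :
    (ℓ '' {x | g x = 0 ∧ fderiv ℂ g x ≠ 0 ∧
      ∀ v, fderiv ℂ g x v = 0 → fderiv ℂ ℓ x v = 0}).Countable := by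
  refine Vale.Agent.P290.H436.countable_image_of_locally fun x hx => ?_
  obtain ⟨hx0, hxne, -⟩ := hx
  have hE' : ProperSpace E := FiniteDimensional.proper ℂ E
  have hgan : AnalyticAt ℂ g x :=
    Vale.Agent.P268.analyticOnNhd_of_differentiableOn isOpen_univ hg.differentiableOn x
      (mem_univ x)
  have hgc : ContDiffAt ℂ ω g x := hgan.contDiffAt
  have hgd : HasStrictFDerivAt g (fderiv ℂ g x) x := hgc.hasStrictFDerivAt (by simp)
  have hrange : (fderiv ℂ g x).range = ⊤ :=
    LinearMap.range_eq_top.2 (LinearMap.surjective (f := (fderiv ℂ g x : E →ₗ[ℂ] ℂ))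
      (fun hcon => hxne (ContinuousLinearMap.coe_injective hcon)))
  have hker : (fderiv ℂ g x).ker.ClosedComplemented :=
    Submodule.ClosedComplemented.of_finiteDimensional _
  set Φ := HasStrictFDerivAt.implicitFunctionDataOfComplemented g (fderiv ℂ g x) hgd hrange hker
    with hΦ
  set P := Classical.choose hker with hP
  have hγc : ContDiffAt ℂ ω Φ.implicitFunction.uncurry (Φ.prodFun Φ.pt) := by
    refine ImplicitFunctionData.contDiffAt_implicitFunction (φ := Φ) hgc ?_ (by simp)
    have h1 : ContDiff ℂ ω fun y : E => P (y - x) :=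
      P.contDiff.comp (contDiff_id.sub contDiff_const)
    exact h1.contDiffAt
  have hpt : Φ.prodFun Φ.pt = (0, 0) := by
    change (g x, P (x - x)) = (0, 0)
    rw [hx0, sub_self, map_zero]
  rw [hpt] at hγc
  set γ : (fderiv ℂ g x).ker → E := fun s => Φ.implicitFunction 0 s with hγ
  have hγd : ContDiffAt ℂ ω γ 0 :=
    hγc.comp (0 : (fderiv ℂ g x).ker) (contDiffAt_const.prodMk contDiffAt_id)
  have hev1 : ∀ᶠ s in 𝓝 (0 : (fderiv ℂ g x).ker), ContDiffAt ℂ 1 γ s :=
    (hγd.of_le le_top).eventually (by simp)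
  have hev2 : ∀ᶠ s in 𝓝 (0 : (fderiv ℂ g x).ker), g (γ s) = 0 := by
    have h1 := Φ.leftFun_implicitFunction
    rw [hpt] at h1
    have h2 : Tendsto (fun s : (fderiv ℂ g x).ker => ((0 : ℂ), s)) (𝓝 0) (𝓝 (0, 0)) :=
      Continuous.tendsto (by fun_prop) 0
    filter_upwards [h2.eventually h1] with s hs
    exact hs
  obtain ⟨W, hW, hWo, h0W⟩ := eventually_nhds_iff.1 (hev1.and hev2)
  have hcount := Vale.Agent.P290.H436.countable_critVal
    (Module.finrank ℂ (fderiv ℂ g x).ker) (fderiv ℂ g x).ker rfl (ℓ ∘ γ) W hWo (by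
    intro s hs
    exact ((hℓ _).comp s ((hW s hs).1.differentiableAt one_ne_zero)).differentiableWithinAt)
  have hback : ∀ᶠ y in 𝓝 x, Φ.implicitFunction (g y) (P (y - x)) = y :=
    Φ.implicitFunction_apply_image
  have hPc : ∀ᶠ y in 𝓝 x, P (y - x) ∈ W := by
    have h1 : ContinuousAt (fun y => P (y - x)) x := by fun_prop
    have h2 : W ∈ 𝓝 (P (x - x)) := by
      rw [sub_self, map_zero]
      exact hWo.mem_nhds h0W
    exact h1 h2
  refine ⟨{y | Φ.implicitFunction (g y) (P (y - x)) = y ∧ P (y - x) ∈ W}, hback.and hPc, ?_⟩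
  refine hcount.mono ?_
  rintro _ ⟨y, ⟨⟨hgy, hyne, hyt⟩, hy1, hy2⟩, rfl⟩
  rw [hgy] at hy1
  have h5 : γ (P (y - x)) = y := hy1
  refine ⟨P (y - x), ⟨hy2, ?_⟩, congrArg ℓ hy1⟩
  have hdγ := (hW _ hy2).1.differentiableAt one_ne_zero
  have h4 : fderiv ℂ (ℓ ∘ γ) (P (y - x)) =
      (fderiv ℂ ℓ (γ (P (y - x)))).comp (fderiv ℂ γ (P (y - x))) :=
    fderiv_comp _ (hℓ _) hdγ
  have h6 : (fderiv ℂ g (γ (P (y - x)))).comp (fderiv ℂ γ (P (y - x))) = 0 := by
    rw [← fderiv_comp _ (hg _) hdγ]
    have h7 : g ∘ γ =ᶠ[𝓝 (P (y - x))] fun _ => (0 : ℂ) := by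
      filter_upwards [hWo.mem_nhds hy2] with s hs
      exact (hW s hs).2
    rw [h7.fderiv_eq]
    simp
  rw [h4]
  rw [h5] at h6 ⊢
  ext v
  have h8 : fderiv ℂ g y (fderiv ℂ γ (P (y - x)) v) = 0 :=
    congrArg (fun T : (fderiv ℂ g x).ker →L[ℂ] ℂ => T v) h6
  exact hyt _ h8

/-- one coordinate -/
theorem kummer_step {n : ℕ} (G : (Fin n → ℂ) → ℂ) (hG : Differentiable ℂ G) (k : Fin n) (M : ℕ)
    (hM : 1 ≤ M) : ∃ S : Set ℂ, S.Countable ∧ ∀ a ∉ S, ∀ x : Fin n → ℂ,
      G (Function.update x k (a + x k ^ M)) = 0 →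
      fderiv ℂ (fun x => G (Function.update x k (a + x k ^ M))) x = 0 →
      fderiv ℂ G (Function.update x k (a + x k ^ M)) = 0 := by
  classical
  refine ⟨_, countable_tangent (Fin n → ℂ) G (fun x => x k) hG (by fun_prop), ?_⟩
  intro a ha x hx0 hdx
  set y := Function.update x k (a + x k ^ M) with hy
  set D := fderiv ℂ G y with hD
  -- derivatives in the directions of the other coordinates
  have hσ : ∀ v : Fin n → ℂ, HasDerivAt (fun s : ℂ => Function.update (x + s • v) k
      (a + (x + s • v) k ^ M)) (Function.update v k (M * x k ^ (M - 1) * v k)) 0 := by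
    intro v
    rw [hasDerivAt_pi]
    intro i
    by_cases hi : i = k
    · subst hi
      simp only [Function.update_self]
      have h1 : HasDerivAt (fun s : ℂ => (x + s • v) i) (v i) 0 := by
        have := ((hasDerivAt_id (0 : ℂ)).mul_const (v i)).const_add (x i)
        simpa using this
      have h2 := (h1.pow M).const_add a
      have h3 : (x + (0 : ℂ) • v) i = x i := by simp
      rw [h3] at h2
      exact h2
    · simp only [Function.update_of_ne hi]
      have := ((hasDerivAt_id (0 : ℂ)).mul_const (v i)).const_add (x i)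
      simpa using this
  have hzero : ∀ v : Fin n → ℂ, D (Function.update v k (M * x k ^ (M - 1) * v k)) = 0 := by
    intro v
    have h1 : HasFDerivAt G D ((fun s : ℂ => Function.update (x + s • v) k
        (a + (x + s • v) k ^ M)) 0) := by
      have : (fun s : ℂ => Function.update (x + s • v) k (a + (x + s • v) k ^ M)) 0 = y := by
        simp [hy]
      rw [this]
      exact (hG y).hasFDerivAt
    have h2 := h1.comp_hasDerivAt (0 : ℂ) (hσ v)
    have hcd : Differentiable ℂ (fun x : Fin n → ℂ => G (Function.update x k (a + x k ^ M))) := by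
      refine hG.comp ?_
      rw [differentiable_pi]
      intro i
      by_cases hi : i = k
      · subst hi
        simp only [Function.update_self]
        fun_prop
      · simp only [Function.update_of_ne hi]
        fun_prop
    have h3 : HasFDerivAt (fun x : Fin n → ℂ => G (Function.update x k (a + x k ^ M)))
        (0 : (Fin n → ℂ) →L[ℂ] ℂ) ((fun s : ℂ => x + s • v) 0) := by
      have : (fun s : ℂ => x + s • v) 0 = x := by simp
      rw [this, ← hdx]
      exact (hcd x).hasFDerivAt
    have h4 : HasDerivAt (fun s : ℂ => x + s • v) v 0 := by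
      have := ((hasDerivAt_id (0 : ℂ)).smul_const v).const_add x
      simpa using this
    have h5 := h3.comp_hasDerivAt (0 : ℂ) h4
    have h6 := h2.unique h5
    rw [h6]
    simp
  by_contra hne
  have hD0 : ∀ v : Fin n → ℂ, v k = 0 → D v = 0 := by
    intro v hv
    have h1 := hzero v
    rw [hv, mul_zero] at h1
    have h2 : Function.update v k 0 = v := by
      rw [← hv]
      exact Function.update_eq_self k v
    rwa [h2] at h1
  have hsplit : ∀ v : Fin n → ℂ, D v = v k * D (Pi.single k 1) := by
    intro v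
    have h1 := hD0 (v - v k • Pi.single k 1) (by simp)
    rw [map_sub, map_smul, smul_eq_mul, sub_eq_zero] at h1
    exact h1
  have hDk : D (Pi.single k 1) ≠ 0 := by
    intro h0
    apply hne
    ext v
    rw [hsplit v, h0]
    simp
  have hxk : (M : ℂ) * x k ^ (M - 1) = 0 := by
    have h1 := hzero (Pi.single k 1)
    rw [hsplit] at h1
    simp only [Function.update_self, Pi.single_eq_same, mul_one] at h1
    exact (mul_eq_zero.1 h1).resolve_right hDk
  have hxk0 : x k ^ (M - 1) = 0 := by
    refine (mul_eq_zero.1 hxk).resolve_left ?_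
    exact_mod_cast (by omega : M ≠ 0)
  have hM1 : M - 1 ≠ 0 := by
    intro h0
    rw [h0, pow_zero] at hxk0
    exact one_ne_zero hxk0
  have hxk1 : x k = 0 := (pow_eq_zero_iff hM1).1 hxk0
  apply ha
  refine ⟨y, ⟨hx0, hne, fun v hv => ?_⟩, ?_⟩
  · have h1 : D v = 0 := hv
    rw [hsplit v] at h1
    have h2 : v k = 0 := (mul_eq_zero.1 h1).resolve_right hDk
    have h3 : fderiv ℂ (fun x : Fin n → ℂ => x k) y =
        ContinuousLinearMap.proj (R := ℂ) (φ := fun _ : Fin n => ℂ) k :=
      (ContinuousLinearMap.proj (R := ℂ) (φ := fun _ : Fin n => ℂ) k).fderiv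
    rw [h3]
    exact h2
  · simp only [hy, Function.update_self, hxk1]
    rw [zero_pow (by omega), add_zero]

/-- **Generic Kummer covering**: for a generic choice of the `a i ≠ 0` the hypersurface
`G (a i + x i ^ M) = 0` has singular points only over the singular points of `G = 0`. -/
theorem kummer {n : ℕ} (G : (Fin n → ℂ) → ℂ) (hG : Differentiable ℂ G) (M : ℕ) (hM : 1 ≤ M) :
    ∃ a : Fin n → ℂ, (∀ i, a i ≠ 0) ∧ ∀ x : Fin n → ℂ, G (fun i => a i + x i ^ M) = 0 →
      fderiv ℂ (fun x : Fin n → ℂ => G (fun i => a i + x i ^ M)) x = 0 →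
      fderiv ℂ G (fun i => a i + x i ^ M) = 0 := by
  classical
  have key : ∀ s : Finset (Fin n), ∃ a : Fin n → ℂ, (∀ i, a i ≠ 0) ∧ ∀ x : Fin n → ℂ,
      G (fun i => if i ∈ s then a i + x i ^ M else x i) = 0 →
      fderiv ℂ (fun x : Fin n → ℂ => G (fun i => if i ∈ s then a i + x i ^ M else x i)) x = 0 →
      fderiv ℂ G (fun i => if i ∈ s then a i + x i ^ M else x i) = 0 := by
    intro s
    induction s using Finset.induction_on with
    | empty =>
      refine ⟨fun _ => 1, fun _ => one_ne_zero, fun x _ h => ?_⟩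
      simpa using h
    | insert k s hk ih =>
      obtain ⟨a, ha, h1⟩ := ih
      set Gs : (Fin n → ℂ) → ℂ := fun x => G (fun i => if i ∈ s then a i + x i ^ M else x i)
        with hGs
      have hGsd : Differentiable ℂ Gs := by
        refine hG.comp ?_
        rw [differentiable_pi]
        intro i
        by_cases hi : i ∈ s
        · simp only [hi, if_true]
          fun_prop
        · simp only [hi, if_false]
          fun_prop
      obtain ⟨S, hS, h2⟩ := kummer_step Gs hGsd k M hM
      obtain ⟨b, hb, hbS⟩ := exists_notMem_countable hS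
      have heq : ∀ x : Fin n → ℂ, (fun i => if i ∈ insert k s then
          Function.update a k b i + x i ^ M else x i) = fun i => if i ∈ s then a i +
            Function.update x k (b + x k ^ M) i ^ M else Function.update x k (b + x k ^ M) i := by
        intro x
        funext i
        by_cases hi : i = k
        · subst hi
          simp [hk]
        · by_cases his : i ∈ s
          · simp [his, Function.update_of_ne hi]
          · simp [his, hi]
      refine ⟨Function.update a k b, fun i => ?_, fun x hx hdx => ?_⟩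
      · by_cases hi : i = k
        · subst hi
          simpa using hb
        · rw [Function.update_of_ne hi]
          exact ha i
      · rw [heq x] at hx ⊢
        simp only [heq] at hdx
        refine h1 (Function.update x k (b + x k ^ M)) hx ?_
        exact h2 b hbS x hx hdx
  obtain ⟨a, ha, h⟩ := key Finset.univ
  refine ⟨a, ha, fun x hx hdx => ?_⟩
  have := h x (by simpa using hx) (by simpa using hdx)
  simpa using this

end Vale.Agent.P298.H752
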