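import Vale.Agent.P298.Bdl.B1

/-!
# P298 (helper752): analytic solutions of linear systems with analytic coefficients
-/

namespace Vale.Agent.P298.H752

open Filter Topology Module

/-- evaluation of an analytic family of linear maps at an analytic family of vectors -/
theorem an_clm_apply {P E F : Type*} [NormedAddCommGroup P] [NormedSpace ℂ P]
    [NormedAddCommGroup E] [NormedSpace ℂ E] [NormedAddCommGroup F] [NormedSpace ℂ F]
    {f : P → E →L[ℂ] F} {g : P → E} {p : P} (hf : AnalyticAt ℂ f p) (hg : AnalyticAt ℂ g p) :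
    AnalyticAt ℂ (fun q => f q (g q)) p := by
  have h1 := (ContinuousLinearMap.id ℂ (E →L[ℂ] F)).analyticAt_bilinear (f p, g p)
  exact h1.comp₂ hf hg

/-- a unit of the algebra of endomorphisms is injective -/
theorem unit_injective {E : Type*} [NormedAddCommGroup E] [NormedSpace ℂ E]
    {S : E →L[ℂ] E} (h : IsUnit S) (z : E) : Ring.inverse S (S z) = z := by
  have := congrArg (fun f : E →L[ℂ] E => f z) (Ring.inverse_mul_cancel _ h)
  exact this

/-- If the span of an analytic finite family of vectors has constant dimension, then an analytic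
vector in the span has analytic coefficients. -/
theorem analytic_coeffs {V : Type*} [NormedAddCommGroup V] [NormedSpace ℂ V]
    [FiniteDimensional ℂ V] {A : Type} [Fintype A] {Λ : Type*} [NormedAddCommGroup Λ]
    [NormedSpace ℂ Λ] {l₀ : Λ}
    (u : Λ → A → V) (hu : ∀ a, AnalyticAt ℂ (fun l => u l a) l₀) (m : ℕ)
    (hm : ∀ᶠ l in 𝓝 l₀, finrank ℂ (Submodule.span ℂ (Set.range (u l))) = m)
    (w : Λ → V) (hw : AnalyticAt ℂ w l₀)
    (hws : ∀ᶠ l in 𝓝 l₀, w l ∈ Submodule.span ℂ (Set.range (u l))) :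
    ∃ c : A → Λ → ℂ, (∀ a, AnalyticAt ℂ (c a) l₀) ∧ ∀ᶠ l in 𝓝 l₀, w l = ∑ a, c a l • u l a := by
  classical
  obtain ⟨κ, a, ha, hspan, hli⟩ := exists_linearIndependent' ℂ (u l₀)
  have : Finite κ := Finite.of_injective a ha
  have := Fintype.ofFinite κ
  let T : Λ → ((κ → ℂ) →L[ℂ] V) := fun l =>
    ∑ k, (ContinuousLinearMap.proj (R := ℂ) (φ := fun _ : κ => ℂ) k).smulRight (u l (a k))
  have hT : ∀ l c, T l c = ∑ k, c k • u l (a k) := fun l c => by
    simp [T]
  have hTa : AnalyticAt ℂ T l₀ := by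
    refine Finset.analyticAt_fun_sum _ fun k _ => ?_
    exact ((ContinuousLinearMap.smulRightL ℂ (κ → ℂ) V
      (ContinuousLinearMap.proj (R := ℂ) (φ := fun _ : κ => ℂ) k)).analyticAt _).comp (hu (a k))
  have hinj : Function.Injective (T l₀) := by
    have h1 := linearIndependent_iff_injective_fintypeLinearCombination.mp hli
    intro c c' hcc
    apply h1
    rw [hT, hT] at hcc
    simpa [Fintype.linearCombination_apply] using hcc
  obtain ⟨P, hP⟩ := LinearMap.exists_leftInverse_of_injective (T l₀ : (κ → ℂ) →ₗ[ℂ] V)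
    (LinearMap.ker_eq_bot.2 hinj)
  let P' : V →L[ℂ] (κ → ℂ) := LinearMap.toContinuousLinearMap P
  let S : Λ → ((κ → ℂ) →L[ℂ] (κ → ℂ)) := fun l => P'.comp (T l)
  have hS0 : S l₀ = 1 := by
    ext1 c
    have := LinearMap.congr_fun hP c
    simpa [S, P'] using this
  have hSa : AnalyticAt ℂ S l₀ :=
    ((ContinuousLinearMap.compL ℂ (κ → ℂ) V (κ → ℂ) P').analyticAt _).comp hTa
  have hinv : AnalyticAt ℂ (fun l => Ring.inverse (S l)) l₀ := by
    have h1 : AnalyticAt ℂ Ring.inverse (S l₀) := by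
      rw [hS0]
      exact analyticAt_inverse (𝕜 := ℂ) (1 : ((κ → ℂ) →L[ℂ] (κ → ℂ))ˣ)
    exact h1.comp hSa
  have hunit : ∀ᶠ l in 𝓝 l₀, IsUnit (S l) := by
    have h1 : {x : (κ → ℂ) →L[ℂ] (κ → ℂ) | IsUnit x} ∈ 𝓝 (S l₀) := by
      rw [hS0]
      exact Units.isOpen.mem_nhds isUnit_one
    exact hSa.continuousAt h1
  let c0 : Λ → κ → ℂ := fun l => Ring.inverse (S l) (P' (w l))
  have hc0 : AnalyticAt ℂ c0 l₀ := by
    have h1 : AnalyticAt ℂ (fun l => P' (w l)) l₀ := (P'.analyticAt _).comp hw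
    exact an_clm_apply hinv h1
  have hm0 : m = Fintype.card κ := by
    rw [← hm.self_of_nhds, ← hspan, finrank_span_eq_card hli]
  have hmain : ∀ᶠ l in 𝓝 l₀, w l = ∑ k, c0 l k • u l (a k) := by
    filter_upwards [hm, hunit, hws] with l hl hul hwl
    have hinjl : Function.Injective (T l) := by
      intro c c' hcc
      have h1 : S l c = S l c' := by
        change P' (T l c) = P' (T l c')
        rw [hcc]
      rw [← unit_injective hul c, h1, unit_injective hul c']
    have hrange : (T l : (κ → ℂ) →ₗ[ℂ] V).range = Submodule.span ℂ (Set.range (u l)) := by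
      have hle : (T l : (κ → ℂ) →ₗ[ℂ] V).range ≤ Submodule.span ℂ (Set.range (u l)) := by
        rintro _ ⟨c, rfl⟩
        change T l c ∈ _
        rw [hT]
        exact Submodule.sum_mem _ fun k _ => Submodule.smul_mem _ _
          (Submodule.subset_span ⟨a k, rfl⟩)
      refine Submodule.eq_of_le_of_finrank_eq hle ?_
      rw [LinearMap.finrank_range_of_inj hinjl, hl, hm0]
      simp
    rw [← hrange] at hwl
    obtain ⟨d, hd⟩ := hwl
    have hd' : T l d = w l := hd
    have h4 : S l d = P' (w l) := by rw [← hd']; rfl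
    have h5 : c0 l = d := by
      change Ring.inverse (S l) (P' (w l)) = d
      rw [← h4]
      exact unit_injective hul d
    rw [h5, ← hd', hT]
  refine ⟨fun x l => ∑ k, if a k = x then c0 l k else 0, ?_, ?_⟩
  · intro x
    refine Finset.analyticAt_fun_sum _ fun k _ => ?_
    by_cases h : a k = x
    · simp only [h, if_true]
      exact (analyticAt_pi_iff.1 hc0) k
    · simp only [h, if_false]
      exact analyticAt_const
  · filter_upwards [hmain] with l hl
    rw [hl]
    simp_rw [Finset.sum_smul]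
    rw [Finset.sum_comm]
    refine Finset.sum_congr rfl fun k _ => ?_
    rw [Finset.sum_eq_single (a k)]
    · simp
    · intro b _ hb
      rw [if_neg (Ne.symm hb), zero_smul]
    · intro h; exact absurd (Finset.mem_univ _) h

/-- A linear system `v = B v + c φ` with analytic coefficients and `B = 0` at the base point
has a solution `v = d φ` with analytic coefficients. -/
theorem solve_system {P : Type*} [NormedAddCommGroup P] [NormedSpace ℂ P] {p₀ : P}
    {ι J : Type} [Fintype ι] [Fintype J] (v : ι → P → ℂ) (φ : J → P → ℂ)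
    (B : ι → ι → P → ℂ) (hB : ∀ i k, AnalyticAt ℂ (B i k) p₀) (hB0 : ∀ i k, B i k p₀ = 0)
    (c : ι → J → P → ℂ) (hc : ∀ i j, AnalyticAt ℂ (c i j) p₀)
    (hv : ∀ᶠ p in 𝓝 p₀, ∀ i, v i p = ∑ k, B i k p * v k p + ∑ j, c i j p * φ j p) :
    ∃ d : ι → J → P → ℂ, (∀ i j, AnalyticAt ℂ (d i j) p₀) ∧
      ∀ᶠ p in 𝓝 p₀, ∀ i, v i p = ∑ j, d i j p * φ j p := by
  classical
  -- the operator `1 - B`
  let Mc : P → ((ι → ℂ) →L[ℂ] (ι → ℂ)) := fun p =>
    ContinuousLinearMap.pi fun i =>
      ∑ k, B i k p • (ContinuousLinearMap.proj (R := ℂ) (φ := fun _ : ι => ℂ) k)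
  have hMc : ∀ p y i, Mc p y i = ∑ k, B i k p * y k := fun p y i => by
    simp [Mc]
  have hMa : AnalyticAt ℂ Mc p₀ := by
    have h2 : Mc = fun p => ∑ i, ∑ k, B i k p •
        ((ContinuousLinearMap.proj (R := ℂ) (φ := fun _ : ι => ℂ) k).smulRight
          (Pi.single i (1 : ℂ) : ι → ℂ)) := by
      funext p
      ext1 y
      funext i
      rw [hMc]
      simp [Finset.sum_apply, Pi.single_apply]
    rw [h2]
    refine Finset.analyticAt_fun_sum _ fun i _ => Finset.analyticAt_fun_sum _ fun k _ => ?_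
    exact (hB i k).smul analyticAt_const
  let S : P → ((ι → ℂ) →L[ℂ] (ι → ℂ)) := fun p => 1 - Mc p
  have hS0 : S p₀ = 1 := by
    ext1 y
    funext i
    change ((1 : (ι → ℂ) →L[ℂ] (ι → ℂ)) y - Mc p₀ y) i = _
    rw [Pi.sub_apply, hMc]
    simp [hB0]
  have hSa : AnalyticAt ℂ S p₀ := analyticAt_const.sub hMa
  have hinv : AnalyticAt ℂ (fun p => Ring.inverse (S p)) p₀ := by
    have h1 : AnalyticAt ℂ Ring.inverse (S p₀) := by
      rw [hS0]
      exact analyticAt_inverse (𝕜 := ℂ) (1 : ((ι → ℂ) →L[ℂ] (ι → ℂ))ˣ)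
    exact h1.comp hSa
  have hunit : ∀ᶠ p in 𝓝 p₀, IsUnit (S p) := by
    have h1 : {x : (ι → ℂ) →L[ℂ] (ι → ℂ) | IsUnit x} ∈ 𝓝 (S p₀) := by
      rw [hS0]
      exact Units.isOpen.mem_nhds isUnit_one
    exact hSa.continuousAt h1
  refine ⟨fun i j p => ∑ k, Ring.inverse (S p) (Pi.single k 1) i * c k j p, ?_, ?_⟩
  · intro i j
    refine Finset.analyticAt_fun_sum _ fun k _ => ?_
    refine AnalyticAt.mul ?_ (hc k j)
    have h1 : AnalyticAt ℂ (fun p => Ring.inverse (S p) (Pi.single k (1 : ℂ) : ι → ℂ)) p₀ :=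
      an_clm_apply hinv analyticAt_const
    exact (analyticAt_pi_iff.1 h1) i
  · filter_upwards [hv, hunit] with p hp hup i
    have h1 : S p (fun k => v k p) = fun k => ∑ j, c k j p * φ j p := by
      funext k
      change ((1 : (ι → ℂ) →L[ℂ] (ι → ℂ)) (fun k => v k p) - Mc p (fun k => v k p)) k = _
      rw [Pi.sub_apply, hMc]
      change v k p - _ = _
      rw [sub_eq_iff_eq_add, add_comm]
      exact hp k
    have h2 : (fun k => v k p) = Ring.inverse (S p) (fun k => ∑ j, c k j p * φ j p) := by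
      rw [← h1, unit_injective hup]
    have h3 : (fun k => ∑ j, c k j p * φ j p : ι → ℂ) =
        ∑ k, (∑ j, c k j p * φ j p) • (Pi.single k (1 : ℂ) : ι → ℂ) := by
      funext i
      simp [Finset.sum_apply, Pi.single_apply]
    have h4 : v i p = (Ring.inverse (S p) (fun k => ∑ j, c k j p * φ j p)) i :=
      congrFun h2 i
    rw [h4, h3, map_sum]
    simp only [map_smul, Finset.sum_apply, Pi.smul_apply, smul_eq_mul, Finset.sum_mul]
    rw [Finset.sum_comm]
    refine Finset.sum_congr rfl fun j _ => Finset.sum_congr rfl fun k _ => ?_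
    ring

end Vale.Agent.P298.H752
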