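import Vale.Agent.P298.H752.XPow
import Mathlib.Analysis.Analytic.Polynomial

/-!
# P298 (helper752): division with parameters for families of ideals of constant colength
-/

namespace Vale.Agent.P298.H752

open Filter Topology Module

variable {n : ℕ} {Λ : Type*} [NormedAddCommGroup Λ] [NormedSpace ℂ Λ]

/-- `f` lies in the ideal generated by the `φ j` in the ring of germs at `p₀` -/
def InId {P J : Type*} [NormedAddCommGroup P] [NormedSpace ℂ P] [Fintype J]
    (φ : J → P → ℂ) (p₀ : P) (f : P → ℂ) : Prop :=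
  ∃ c : J → P → ℂ, (∀ j, AnalyticAt ℂ (c j) p₀) ∧ ∀ᶠ p in 𝓝 p₀, f p = ∑ j, c j p * φ j p

section InId

variable {P J : Type*} [NormedAddCommGroup P] [NormedSpace ℂ P] [Fintype J]
  {φ : J → P → ℂ} {p₀ : P}

theorem InId.congr {f g : P → ℂ} (h : InId φ p₀ f) (hg : ∀ᶠ p in 𝓝 p₀, g p = f p) :
    InId φ p₀ g := by
  obtain ⟨c, hc, h1⟩ := h
  refine ⟨c, hc, ?_⟩
  filter_upwards [h1, hg] with p h2 h3
  rw [h3, h2]

theorem InId.zero : InId φ p₀ (fun _ => 0) :=
  ⟨fun _ _ => 0, fun _ => analyticAt_const, Eventually.of_forall fun p => by simp⟩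

theorem InId.add {f g : P → ℂ} (h : InId φ p₀ f) (h' : InId φ p₀ g) :
    InId φ p₀ (fun p => f p + g p) := by
  obtain ⟨c, hc, h1⟩ := h
  obtain ⟨c', hc', h1'⟩ := h'
  refine ⟨fun j p => c j p + c' j p, fun j => (hc j).fun_add (hc' j), ?_⟩
  filter_upwards [h1, h1'] with p h2 h3
  rw [h2, h3, ← Finset.sum_add_distrib]
  exact Finset.sum_congr rfl fun j _ => by ring

theorem InId.mul_left {f a : P → ℂ} (h : InId φ p₀ f) (ha : AnalyticAt ℂ a p₀) :
    InId φ p₀ (fun p => a p * f p) := by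
  obtain ⟨c, hc, h1⟩ := h
  refine ⟨fun j p => a p * c j p, fun j => ha.fun_mul (hc j), ?_⟩
  filter_upwards [h1] with p h2
  rw [h2, Finset.mul_sum]
  exact Finset.sum_congr rfl fun j _ => by ring

theorem InId.sum {ι : Type*} (s : Finset ι) {f : ι → P → ℂ} (h : ∀ i ∈ s, InId φ p₀ (f i)) :
    InId φ p₀ (fun p => ∑ i ∈ s, f i p) := by
  classical
  induction s using Finset.induction_on with
  | empty => simpa using InId.zero
  | insert a s ha ih =>
    simp only [Finset.sum_insert ha]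
    exact (h a (Finset.mem_insert_self _ _)).add
      (ih fun i hi => h i (Finset.mem_insert_of_mem hi))

theorem InId.trans {K : Type*} [Fintype K] {ψ : K → P → ℂ} (hφ : ∀ j, InId ψ p₀ (φ j))
    {f : P → ℂ} (h : InId φ p₀ f) : InId ψ p₀ f := by
  obtain ⟨c, hc, h1⟩ := h
  exact (InId.sum Finset.univ (f := fun j p => c j p * φ j p)
    fun j _ => (hφ j).mul_left (hc j)).congr h1

theorem InId.self (j : J) : InId φ p₀ (φ j) := by
  classical
  refine ⟨fun i _ => if i = j then 1 else 0, fun i => analyticAt_const,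
    Eventually.of_forall fun p => ?_⟩
  simp

end InId

/-- if powers of the coordinates are in an ideal then so is a power of the ideal `(x)` -/
theorem pigeon {J : Type*} [Fintype J] {l₀ : Λ} {φ : J → (Fin n → ℂ) × Λ → ℂ} {m : ℕ}
    (hm : ∀ i, InId φ (0, l₀) (fun p => p.1 i ^ m)) :
    ∀ (K : ℕ) (β : Fin n → ℕ) (R : (Fin n → ℂ) × Λ → ℂ), n * m + 1 ≤ ∑ i, β i + K →
      XPow l₀ K R → InId φ (0, l₀) (fun p => (∏ i, p.1 i ^ β i) * R p) := by
  classical
  intro K
  induction K with
  | zero =>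
    intro β R hK hR
    have h1 : ∃ i, m ≤ β i := by
      by_contra hcon
      push Not at hcon
      have h2 : ∑ i, β i ≤ ∑ _i : Fin n, m := Finset.sum_le_sum fun i _ => (hcon i).le
      simp only [Finset.sum_const, Finset.card_univ, Fintype.card_fin, smul_eq_mul] at h2
      omega
    obtain ⟨i, hi⟩ := h1
    have h3 : AnalyticAt ℂ (fun p : (Fin n → ℂ) × Λ =>
        (∏ k, p.1 k ^ (Function.update β i (β i - m) k)) * R p) (0, l₀) := by
      refine AnalyticAt.fun_mul ?_ hR
      exact Finset.analyticAt_fun_prod _ fun k _ => (analyticAt_coord _ k).fun_pow _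
    refine ((hm i).mul_left h3).congr (Eventually.of_forall fun p => ?_)
    rw [← Finset.mul_prod_erase Finset.univ (fun k => p.1 k ^ β k) (Finset.mem_univ i),
      ← Finset.mul_prod_erase Finset.univ
        (fun k => p.1 k ^ (Function.update β i (β i - m) k)) (Finset.mem_univ i)]
    rw [Function.update_self]
    have h4 : ∏ k ∈ Finset.univ.erase i, p.1 k ^ (Function.update β i (β i - m) k) =
        ∏ k ∈ Finset.univ.erase i, p.1 k ^ β k := by
      refine Finset.prod_congr rfl fun k hk => ?_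
      rw [Function.update_of_ne (Finset.ne_of_mem_erase hk)]
    rw [h4]
    have h5 : p.1 i ^ β i = p.1 i ^ (β i - m) * p.1 i ^ m := by
      rw [← pow_add, Nat.sub_add_cancel hi]
    rw [h5]
    ring
  | succ K ih =>
    intro β R hK hR
    obtain ⟨ψ, hψ, h1⟩ := hR
    have h2 : ∀ i, InId φ (0, l₀)
        (fun p => (∏ k, p.1 k ^ (β k + if k = i then 1 else 0)) * ψ i p) := by
      intro i
      refine ih (fun k => β k + if k = i then 1 else 0) (ψ i) ?_ (hψ i)
      rw [Finset.sum_add_distrib]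
      simp only [Finset.sum_ite_eq', Finset.mem_univ, if_true]
      omega
    refine (InId.sum Finset.univ fun i _ => h2 i).congr ?_
    filter_upwards [h1] with p hp
    rw [hp, Finset.mul_sum]
    refine Finset.sum_congr rfl fun i _ => ?_
    have h3 : ∏ k, p.1 k ^ (β k + if k = i then 1 else 0) = (∏ k, p.1 k ^ β k) * p.1 i := by
      simp only [pow_add, Finset.prod_mul_distrib]
      congr 1
      rw [Finset.prod_eq_single i]
      · simp
      · intro k _ hk
        simp [hk]
      · intro h; exact absurd (Finset.mem_univ _) h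
    rw [h3]
    ring

theorem pigeon' {J : Type*} [Fintype J] {l₀ : Λ} {φ : J → (Fin n → ℂ) × Λ → ℂ} {m : ℕ}
    (hm : ∀ i, InId φ (0, l₀) (fun p => p.1 i ^ m)) (R : (Fin n → ℂ) × Λ → ℂ)
    (hR : XPow l₀ (n * m + 1) R) : InId φ (0, l₀) R := by
  refine (pigeon hm (n * m + 1) (fun _ => 0) R (by simp) hR).congr
    (Eventually.of_forall fun p => by simp)

/-- **Division with parameters**: if the colength of an analytic family of ideals is constant
then a fixed power of the ideal `(x)` is contained in the ideal, with analytic coefficients. -/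
theorem param_division {J : Type} [Fintype J] (l₀ : Λ) (φ : J → (Fin n → ℂ) × Λ → ℂ)
    (hφ : ∀ j, AnalyticAt ℂ (φ j) (0, l₀)) (N : ℕ)
    (hN : ∀ᶠ l in 𝓝 l₀, HasColength (Set.range fun j => fun x => φ j (x, l)) N) :
    ∃ L : ℕ, ∀ R, XPow l₀ L R → InId φ (0, l₀) R := by
  classical
  obtain ⟨M₀, hM₀⟩ := qM_le n N
  set m := max M₀ N with hm
  set M := n * m + 1 + 1 + M₀ with hM
  have hMM : M₀ ≤ M := by omega
  have hmN : N ≤ m := le_max_right _ _
  obtain ⟨ι, hι, β, hβ, hT⟩ := exists_taylorPoly n M Λ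
  have hban : ∀ i, AnalyticAt ℂ (fun x : Fin n → ℂ => MvPolynomial.eval x (β i)) 0 := fun i =>
    AnalyticOnNhd.eval_mvPolynomial (β i) 0 (Set.mem_univ _)
  let b : ι → AnFun n := fun i => ⟨fun x => MvPolynomial.eval x (β i), hban i⟩
  have hcombo : ∀ (c : ι → ℂ) (x : Fin n → ℂ), (combo b c : (Fin n → ℂ) → ℂ) x =
      ∑ i, c i * MvPolynomial.eval x (β i) := fun c x => combo_apply b c x
  have hT' : ∀ (φ : (Fin n → ℂ) × Λ → ℂ), AnalyticAt ℂ φ (0, l₀) →
      ∃ a : Λ → ι → ℂ, (∀ i, AnalyticAt ℂ (fun l => a l i) l₀) ∧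
        XPow l₀ M (fun p => φ p - (combo b (a p.2) : (Fin n → ℂ) → ℂ) p.1) := by
    intro φ hφ
    obtain ⟨a, ha, h1⟩ := hT l₀ φ hφ
    exact ⟨fun l i => a i l, ha, h1.congr (Eventually.of_forall fun p => by rw [hcombo])⟩
  -- the Taylor basis in the sense of the first file
  have hb : IsTaylorBasis n M Λ b := by
    intro l₁ φ hφ
    obtain ⟨a, ha, h1⟩ := hT l₁ φ hφ
    have h1' : XPow l₁ M
        (fun p => φ p - (combo b (fun i => a i p.2) : (Fin n → ℂ) → ℂ) p.1) :=
      h1.congr (Eventually.of_forall fun p => by rw [hcombo])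
    refine ⟨fun l i => a i l, ha, h1'.bound, ?_⟩
    filter_upwards [h1'.slice, slice_analytic hφ] with l hl h2
    obtain ⟨h3, h4⟩ := hl
    exact ⟨h2, h4⟩
  -- expansions of `b β * φ j`
  have h1 : ∀ q : J × ι, AnalyticAt ℂ
      (fun p : (Fin n → ℂ) × Λ => (b q.2 : (Fin n → ℂ) → ℂ) p.1 * φ q.1 p) (0, l₀) := by
    intro q
    have h2 : AnalyticAt ℂ (b q.2 : (Fin n → ℂ) → ℂ) ((0 : Fin n → ℂ), l₀).1 := (b q.2).2
    exact (h2.comp analyticAt_fst).mul (hφ q.1)
  choose u hu hur using fun q : J × ι => hT' _ (h1 q)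
  -- expansions of powers of the coordinates
  have h3 : ∀ i : Fin n, AnalyticAt ℂ (fun p : (Fin n → ℂ) × Λ => p.1 i ^ m) (0, l₀) :=
    fun i => (analyticAt_coord _ i).fun_pow m
  choose w hw hwr using fun i : Fin n => hT' _ (h3 i)
  -- the kernel modulo `qM`
  set Z := (toQuot b (qM n M)).ker with hZ
  let z : Fin (finrank ℂ Z) → (ι → ℂ) := fun k => (finBasis ℂ Z k : ι → ℂ)
  have hz : ∀ k, combo b (z k) ∈ qM n M := fun k => (toQuot_ker b _ _).mp (finBasis ℂ Z k).2
  let U : Λ → (J × ι) ⊕ Fin (finrank ℂ Z) → (ι → ℂ) := fun l => Sum.elim (fun q => u q l) z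
  have hUa : ∀ a, AnalyticAt ℂ (fun l => U l a) l₀ := by
    rintro (q | k)
    · exact analyticAt_pi_iff.2 fun i => hu q i
    · exact analyticAt_const
  have hmem : ∀ q : J × ι, ∀ᶠ l in 𝓝 l₀, SliceMem (qM n M)
      (fun x => (b q.2 : (Fin n → ℂ) → ℂ) x * φ q.1 (x, l) -
        (combo b (u q l) : (Fin n → ℂ) → ℂ) x) := fun q => (hur q).slice
  have hwmem : ∀ i : Fin n, ∀ᶠ l in 𝓝 l₀, SliceMem (qM n M)
      (fun x => x i ^ m - (combo b (w i l) : (Fin n → ℂ) → ℂ) x) := fun i => (hwr i).slice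
  -- span of `U l` is the kernel
  have hφs : ∀ᶠ l in 𝓝 l₀, ∀ j, AnalyticAt ℂ (fun x : Fin n → ℂ => φ j (x, l)) 0 :=
    eventually_all.mpr fun j => slice_analytic (hφ j)
  have hspan : ∀ᶠ l in 𝓝 l₀, Submodule.span ℂ (Set.range (U l)) =
      (toQuot b (locIdeal (Set.range fun j => fun x => φ j (x, l)))).ker := by
    filter_upwards [hN, hφs, eventually_all.mpr hmem] with l hl1 hl2 hl3
    have hq := hM₀ M hMM _ hl1
    set S := Set.range fun j => fun x => φ j (x, l) with hS
    -- each generator function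
    have hgen : ∀ j, (⟨fun x => φ j (x, l), hl2 j⟩ : AnFun n) ∈ locIdeal S := fun j =>
      Ideal.subset_span (Or.inr ⟨j, rfl⟩)
    have hprod : ∀ q : J × ι, b q.2 * (⟨fun x => φ q.1 (x, l), hl2 q.1⟩ : AnFun n) -
        combo b (u q l) ∈ qM n M := by
      intro q
      obtain ⟨h, h'⟩ := hl3 q
      exact h'
    apply le_antisymm
    · refine Submodule.span_le.mpr ?_
      rintro _ ⟨q | k, rfl⟩
      · change u q l ∈ (toQuot b (locIdeal S)).ker
        rw [toQuot_ker]
        have h6 := (locIdeal S).sub_mem (Ideal.mul_mem_left _ (b q.2) (hgen q.1)) (hq (hprod q))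
        rwa [sub_sub_cancel] at h6
      · change z k ∈ (toQuot b (locIdeal S)).ker
        rw [toQuot_ker]
        exact hq (hz k)
    · intro c hc
      rw [toQuot_ker, hS, locIdeal_range _ hl2, Submodule.mem_sup] at hc
      obtain ⟨y, hy, y', hy', hyy⟩ := hc
      obtain ⟨h, hh⟩ := (Ideal.mem_span_range_iff_exists_fun).mp hy'
      -- approximate the coefficients
      choose d hd using fun j => taylor_surj l₀ hb (h j)
      set c' : ι → ℂ := ∑ j, ∑ β, d j β • u (j, β) l with hc'
      have hc'1 : combo b c - combo b c' ∈ qM n M := by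
        have e1 : combo b c' = ∑ j, ∑ β, d j β • combo b (u (j, β) l) := by
          rw [hc', map_sum]
          refine Finset.sum_congr rfl fun j _ => ?_
          rw [map_sum]
          refine Finset.sum_congr rfl fun β _ => ?_
          rw [map_smul]
        have e2 : ∀ j, combo b (d j) = ∑ β, d j β • b β := fun j => rfl
        have e3 : ∑ j, combo b (d j) * (⟨fun x => φ j (x, l), hl2 j⟩ : AnFun n) -
            combo b c' ∈ qM n M := by
          rw [e1, ← Finset.sum_sub_distrib]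
          refine Ideal.sum_mem _ fun j _ => ?_
          rw [e2, Finset.sum_mul, ← Finset.sum_sub_distrib]
          refine Ideal.sum_mem _ fun β _ => ?_
          rw [smul_mul_assoc, ← smul_sub]
          exact Submodule.smul_of_tower_mem _ _ (hprod (j, β))
        have e4 : ∑ j, h j * (⟨fun x => φ j (x, l), hl2 j⟩ : AnFun n) -
            ∑ j, combo b (d j) * (⟨fun x => φ j (x, l), hl2 j⟩ : AnFun n) ∈ qM n M := by
          rw [← Finset.sum_sub_distrib]
          refine Ideal.sum_mem _ fun j _ => ?_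
          rw [← sub_mul]
          exact Ideal.mul_mem_right _ _ (hd j)
        have e5 := (qM n M).add_mem (Ideal.mem_sup_left hy : y ∈ qM n M)
          ((qM n M).add_mem e4 e3)
        have e6 : y + (∑ j, h j * (⟨fun x => φ j (x, l), hl2 j⟩ : AnFun n) -
            ∑ j, combo b (d j) * (⟨fun x => φ j (x, l), hl2 j⟩ : AnFun n) +
            (∑ j, combo b (d j) * (⟨fun x => φ j (x, l), hl2 j⟩ : AnFun n) - combo b c')) =
            combo b c - combo b c' := by
          rw [← hyy, ← hh]; ring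
        rwa [e6] at e5
      have hc'2 : c - c' ∈ Z := by
        rw [hZ, toQuot_ker, map_sub]; exact hc'1
      have hc'3 : c - c' ∈ Submodule.span ℂ (Set.range (U l)) := by
        have h7 : c - c' = ∑ k, (finBasis ℂ Z).repr ⟨c - c', hc'2⟩ k • z k := by
          have := (finBasis ℂ Z).sum_repr ⟨c - c', hc'2⟩
          have h8 := congrArg (Subtype.val) this
          rw [AddSubmonoidClass.coe_finsetSum] at h8
          exact h8.symm
        rw [h7]
        exact Submodule.sum_mem _ fun k _ => Submodule.smul_mem _ _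
          (Submodule.subset_span ⟨Sum.inr k, rfl⟩)
      have hc'4 : c' ∈ Submodule.span ℂ (Set.range (U l)) := by
        rw [hc']
        exact Submodule.sum_mem _ fun j _ => Submodule.sum_mem _ fun β _ =>
          Submodule.smul_mem _ _ (Submodule.subset_span ⟨Sum.inl (j, β), rfl⟩)
      have := Submodule.add_mem _ hc'3 hc'4
      rwa [sub_add_cancel] at this
  have hrank : ∀ᶠ l in 𝓝 l₀, finrank ℂ (Submodule.span ℂ (Set.range (U l))) =
      Fintype.card ι - N := by
    filter_upwards [hspan, hN] with l hl1 hl2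
    rw [hl1]
    have := finrank_ker l₀ hb _ hl2 (hM₀ M hMM _ hl2)
    omega
  have hwspan : ∀ i, ∀ᶠ l in 𝓝 l₀, w i l ∈ Submodule.span ℂ (Set.range (U l)) := by
    intro i
    filter_upwards [hspan, hN, hwmem i] with l hl1 hl2 hl3
    rw [hl1, toQuot_ker]
    obtain ⟨h, h'⟩ := hl3
    set S := Set.range fun j => fun x => φ j (x, l) with hS
    obtain ⟨hfin, hrk⟩ := hl2
    have h4 := coord_pow_mem (locIdeal S) (nul_le_locIdeal S) hfin (coordF n i) (ev0_coordF i)
    rw [hrk] at h4
    have h5 : coordF n i ^ m ∈ locIdeal S := by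
      rw [← Nat.add_sub_cancel' hmN, pow_add]
      exact Ideal.mul_mem_right _ _ h4
    have h6 : (⟨fun x => x i ^ m - (combo b (w i l) : (Fin n → ℂ) → ℂ) x, h⟩ : AnFun n) =
        coordF n i ^ m - combo b (w i l) := by
      apply Subtype.ext
      funext x
      rfl
    rw [h6] at h'
    have h7 := (locIdeal S).sub_mem h5 (hM₀ M hMM _ ⟨hfin, hrk⟩ h')
    rwa [sub_sub_cancel] at h7
  choose c hc hcw using fun i => analytic_coeffs U hUa _ hrank (w i)
    (analyticAt_pi_iff.2 fun j => hw i j) (hwspan i)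
  have tl : Tendsto (fun p : (Fin n → ℂ) × Λ => p.2) (𝓝 (0, l₀)) (𝓝 l₀) := by
    have := (continuous_snd (X := Fin n → ℂ) (Y := Λ)).tendsto (0, l₀)
    simpa using this
  have hc2 : ∀ i a, AnalyticAt ℂ (fun p : (Fin n → ℂ) × Λ => c i a p.2) (0, l₀) := fun i a => by
    have h4 : AnalyticAt ℂ (c i a) ((0 : Fin n → ℂ), l₀).2 := hc i a
    exact h4.comp analyticAt_snd
  -- the remainder
  set T : Fin n → (Fin n → ℂ) × Λ → ℂ := fun i p =>
    (p.1 i ^ m - (combo b (w i p.2) : (Fin n → ℂ) → ℂ) p.1) -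
      ∑ q : J × ι, c i (Sum.inl q) p.2 * ((b q.2 : (Fin n → ℂ) → ℂ) p.1 * φ q.1 p -
        (combo b (u q p.2) : (Fin n → ℂ) → ℂ) p.1) +
      ∑ k, c i (Sum.inr k) p.2 * (combo b (z k) : (Fin n → ℂ) → ℂ) p.1 with hTdef
  have hTX : ∀ i, XPow l₀ M (T i) := by
    intro i
    refine ((hwr i).sub (XPow.sum _ fun q _ => (hur q).mul_left (hc2 i (Sum.inl q)))).add
      (XPow.sum _ fun k _ => (XPow.of_qM l₀ (hz k)).mul_left (hc2 i (Sum.inr k)))
  have hTeq : ∀ᶠ p in 𝓝 ((0 : Fin n → ℂ), l₀), ∀ i, p.1 i ^ m =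
      T i p + ∑ q : J × ι, c i (Sum.inl q) p.2 * (b q.2 : (Fin n → ℂ) → ℂ) p.1 * φ q.1 p := by
    filter_upwards [tl (eventually_all.2 hcw)] with p hp i
    have hp' : w i p.2 = ∑ a, c i a p.2 • U p.2 a := hp i
    have e1 : (combo b (w i p.2) : (Fin n → ℂ) → ℂ) p.1 =
        ∑ q, c i (Sum.inl q) p.2 * (combo b (u q p.2) : (Fin n → ℂ) → ℂ) p.1 +
        ∑ k, c i (Sum.inr k) p.2 * (combo b (z k) : (Fin n → ℂ) → ℂ) p.1 := by
      rw [hp', map_sum, Fintype.sum_sum_type]
      simp only [map_smul]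
      change (∑ q, c i (Sum.inl q) p.2 • combo b (u q p.2) +
        ∑ k, c i (Sum.inr k) p.2 • combo b (z k) : AnFun n).1 p.1 = _
      rw [AddMemClass.coe_add, Pi.add_apply, AddSubmonoidClass.coe_finsetSum,
        AddSubmonoidClass.coe_finsetSum, Finset.sum_apply, Finset.sum_apply]
      rfl
    simp only [hTdef, e1, mul_sub, Finset.sum_sub_distrib]
    simp only [mul_assoc]
    ring
  -- the remainder in terms of the powers of the coordinates
  set v : Fin n → (Fin n → ℂ) × Λ → ℂ := fun i p => p.1 i ^ m with hvdef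
  have hTB : ∀ i, ∃ B : Fin n → (Fin n → ℂ) × Λ → ℂ, (∀ k, AnalyticAt ℂ (B k) (0, l₀)) ∧
      (∀ k, B k (0, l₀) = 0) ∧ ∀ᶠ p in 𝓝 ((0 : Fin n → ℂ), l₀), T i p = ∑ k, B k p * v k p := by
    intro i
    have h4 : XPow l₀ (n * m + 1 + 1) (T i) := (hTX i).mono (by omega)
    obtain ⟨ψ, hψ, h5⟩ := h4
    choose e he he2 using fun j => pigeon' (φ := v) (l₀ := l₀) (fun i => InId.self i) (ψ j) (hψ j)
    refine ⟨fun k p => ∑ j, p.1 j * e j k p, fun k => ?_, fun k => ?_, ?_⟩
    · exact Finset.analyticAt_fun_sum _ fun j _ => (analyticAt_coord _ j).fun_mul (he j k)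
    · simp
    · filter_upwards [h5, eventually_all.2 he2] with p h6 h7
      rw [h6]
      simp only [Finset.sum_mul]
      rw [Finset.sum_comm]
      refine Finset.sum_congr rfl fun j _ => ?_
      rw [h7 j, Finset.mul_sum]
      exact Finset.sum_congr rfl fun k _ => by ring
  choose B hB hB0 hBT using hTB
  obtain ⟨d, hd, hd2⟩ := solve_system v φ B hB hB0
    (fun i j p => ∑ β, c i (Sum.inl (j, β)) p.2 * (b β : (Fin n → ℂ) → ℂ) p.1)
    (fun i j => Finset.analyticAt_fun_sum _ fun β _ => by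
      have h4 : AnalyticAt ℂ (b β : (Fin n → ℂ) → ℂ) ((0 : Fin n → ℂ), l₀).1 := (b β).2
      exact (hc2 i _).fun_mul (h4.comp analyticAt_fst))
    (by
      filter_upwards [hTeq, eventually_all.2 hBT] with p h4 h5 i
      change p.1 i ^ m = _
      rw [h4 i, h5 i, Fintype.sum_prod_type]
      congr 1
      refine Finset.sum_congr rfl fun j _ => ?_
      rw [Finset.sum_mul])
  refine ⟨n * m + 1, fun R hR => pigeon' (m := m) (fun i => ⟨d i, hd i, ?_⟩) R hR⟩
  filter_upwards [hd2] with p hp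
  exact hp i

end Vale.Agent.P298.H752
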