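import Vale.Agent.P298.H752.Infinity
import Vale.Agent.P298.H752.Kummer

/-!
# P298 (helper752): reduction of a family with constant Milnor number to a polynomial family
-/

namespace Vale.Agent.P298.H752

open Filter Topology Metric

variable {n : ℕ}

/-- Critical points with small critical value lie in a given open set if this is true at `t = 0`. -/
theorem crit_small {P : (Fin n → ℂ) → ℂ → ℂ}
    (han : ∀ x, AnalyticAt ℂ (fun p : (Fin n → ℂ) × ℂ => P p.1 p.2) (x, 0)) (R : ℝ)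
    (hinf : ∀ᶠ t in 𝓝 (0 : ℂ), ∀ x, R ≤ ‖x‖ → fderiv ℂ (fun y => P y t) x ≠ 0)
    (U : Set (Fin n → ℂ)) (hU : IsOpen U)
    (h0 : ∀ x, P x 0 = 0 → fderiv ℂ (fun y => P y 0) x = 0 → x ∈ U) :
    ∃ ε > 0, ∀ t : ℂ, ‖t‖ < ε → ∀ x, fderiv ℂ (fun y => P y t) x = 0 → ‖P x t‖ < ε → x ∈ U := by
  set K : Set (Fin n → ℂ) := closedBall 0 R ∩ Uᶜ with hK
  have hKc : IsCompact K := (isCompact_closedBall _ _).inter_right hU.isClosed_compl
  have hcont1 : ∀ x, Tendsto (fun z : (ℂ × ℂ) × (Fin n → ℂ) => (z.2, z.1.1))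
      (𝓝 (((0 : ℂ), (0 : ℂ)), x)) (𝓝 (x, 0)) := fun x =>
    Continuous.tendsto (f := fun z : (ℂ × ℂ) × (Fin n → ℂ) => (z.2, z.1.1)) (by fun_prop)
      (((0 : ℂ), (0 : ℂ)), x)
  have h1 : ∀ᶠ q in 𝓝 ((0 : ℂ), (0 : ℂ)), ∀ x ∈ K,
      ¬ (fderiv ℂ (fun y => P y q.1) x = 0 ∧ P x q.1 = q.2) := by
    refine hKc.eventually_forall_of_forall_eventually fun x hx => ?_
    by_cases hPx : P x 0 = 0
    · have hd : fderiv ℂ (fun y => P y 0) x ≠ 0 := fun hd => hx.2 (h0 x hPx hd)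
      have h2 : ∀ᶠ p in 𝓝 ((x, (0 : ℂ)) : (Fin n → ℂ) × ℂ), fderiv ℂ (fun y => P y p.2) p.1 =
          (fderiv ℂ (fun q : (Fin n → ℂ) × ℂ => P q.1 q.2) p).comp
            (ContinuousLinearMap.inl ℂ _ ℂ) := by
        filter_upwards [(han x).eventually_analyticAt] with p hp
        have e1 : HasFDerivAt (fun x : Fin n → ℂ => (x, p.2)) (ContinuousLinearMap.inl ℂ _ ℂ) p.1 :=
          hasFDerivAt_prodMk_left p.1 p.2
        have e2 : HasFDerivAt (fun q : (Fin n → ℂ) × ℂ => P q.1 q.2)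
            (fderiv ℂ (fun q : (Fin n → ℂ) × ℂ => P q.1 q.2) p) (p.1, p.2) :=
          hp.differentiableAt.hasFDerivAt
        exact (e2.comp p.1 e1).fderiv
      have h3 : ContinuousAt (fun p : (Fin n → ℂ) × ℂ =>
          (fderiv ℂ (fun q : (Fin n → ℂ) × ℂ => P q.1 q.2) p).comp
            (ContinuousLinearMap.inl ℂ (Fin n → ℂ) ℂ)) (x, 0) :=
        (han x).fderiv.continuousAt.clm_comp continuousAt_const
      have h4 : ∀ᶠ p in 𝓝 ((x, (0 : ℂ)) : (Fin n → ℂ) × ℂ),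
          fderiv ℂ (fun y => P y p.2) p.1 ≠ 0 := by
        have h5 : (fderiv ℂ (fun q : (Fin n → ℂ) × ℂ => P q.1 q.2) (x, 0)).comp
            (ContinuousLinearMap.inl ℂ (Fin n → ℂ) ℂ) ≠ 0 := by
          rw [← h2.self_of_nhds]
          exact hd
        filter_upwards [h2, h3.eventually_ne h5] with p e1 e2
        rw [e1]
        exact e2
      filter_upwards [(hcont1 x).eventually h4] with z hz
      exact fun hcon => hz hcon.1
    · have h2 : ContinuousAt (fun z : (ℂ × ℂ) × (Fin n → ℂ) => P z.2 z.1.1 - z.1.2)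
          (((0 : ℂ), (0 : ℂ)), x) := by
        have h3 : ContinuousAt (fun p : (Fin n → ℂ) × ℂ => P p.1 p.2) (x, 0) :=
          (han x).continuousAt
        have h4 : ContinuousAt (fun z : (ℂ × ℂ) × (Fin n → ℂ) => P z.2 z.1.1)
            (((0 : ℂ), (0 : ℂ)), x) :=
          Tendsto.comp (g := fun p : (Fin n → ℂ) × ℂ => P p.1 p.2) h3 (hcont1 x)
        exact h4.sub (by fun_prop)
      have h3 : P x 0 - 0 ≠ 0 := by rwa [sub_zero]
      filter_upwards [h2.eventually_ne h3] with z hz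
      exact fun hcon => hz (sub_eq_zero.2 hcon.2)
  obtain ⟨ε₁, hε₁, h2⟩ := Metric.eventually_nhds_iff_ball.1 h1
  obtain ⟨ε₂, hε₂, h3⟩ := Metric.eventually_nhds_iff_ball.1 hinf
  refine ⟨min ε₁ ε₂, lt_min hε₁ hε₂, fun t ht x hx hPx => ?_⟩
  by_contra hxU
  have hR : ‖x‖ < R := by
    by_contra hcon
    push Not at hcon
    exact h3 t (by simpa using ht.trans_le (min_le_right _ _)) x hcon hx
  refine h2 (t, P x t) ?_ x ⟨by simpa using hR.le, hxU⟩ ⟨hx, rfl⟩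
  rw [mem_ball, dist_eq_norm, Prod.norm_def, max_lt_iff]
  simp only [Prod.fst_sub, Prod.snd_sub, sub_zero]
  exact ⟨ht.trans_le (min_le_left _ _), hPx.trans_le (min_le_left _ _)⟩

theorem XPow.coord_pow {Λ : Type*} [NormedAddCommGroup Λ] [NormedSpace ℂ Λ] (l₀ : Λ) (i : Fin n)
    (L : ℕ) : XPow l₀ L (fun p : (Fin n → ℂ) × Λ => p.1 i ^ L) := by
  induction L with
  | zero =>
    have h1 : AnalyticAt ℂ (fun p : (Fin n → ℂ) × Λ => p.1 i ^ 0) (0, l₀) := by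
      simpa using (analyticAt_const : AnalyticAt ℂ (fun _ : (Fin n → ℂ) × Λ => (1 : ℂ)) _)
    exact h1
  | succ L ih => exact (ih.coord_mul i).congr (Eventually.of_forall fun p => by rw [pow_succ'])

/-- the only critical point near the origin is the origin -/
theorem crit_axis {f : (Fin n → ℂ) × ℂ → ℂ} {L : ℕ}
    (hL : ∀ R, XPow 0 L R → InId (PD f) (0, 0) R) :
    ∀ᶠ p in 𝓝 ((0 : Fin n → ℂ), (0 : ℂ)), (∀ k, PD f k p = 0) → p.1 = 0 := by
  choose c hc hc2 using fun i => hL _ (XPow.coord_pow 0 i L)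
  filter_upwards [eventually_all.2 hc2] with p hp h
  funext i
  have h1 := hp i
  rw [Finset.sum_eq_zero fun j _ => by rw [h j, mul_zero]] at h1
  exact eq_zero_of_pow_eq_zero h1

/-- uniform Lojasiewicz inequality -/
theorem loj {f : (Fin n → ℂ) × ℂ → ℂ} {L : ℕ}
    (hL : ∀ R, XPow 0 L R → InId (PD f) (0, 0) R) (hn : n ≠ 0) :
    ∃ C : ℝ, 0 ≤ C ∧ ∀ᶠ p in 𝓝 ((0 : Fin n → ℂ), (0 : ℂ)), ‖p.1‖ ^ L ≤ C * ∑ k, ‖PD f k p‖ := by
  choose c hc hc2 using fun i => hL _ (XPow.coord_pow 0 i L)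
  have hb : ∀ i k, ∀ᶠ p in 𝓝 ((0 : Fin n → ℂ), (0 : ℂ)), ‖c i k p‖ ≤ ‖c i k (0, 0)‖ + 1 := by
    intro i k
    have := (hc i k).continuousAt.norm.eventually_lt
      (continuousAt_const (y := ‖c i k (0, 0)‖ + 1)) (by simp)
    filter_upwards [this] with p hp using hp.le
  set C : ℝ := ∑ i, ∑ k, (‖c i k (0, 0)‖ + 1) with hC
  have hC0 : 0 ≤ C := Finset.sum_nonneg fun i _ => Finset.sum_nonneg fun k _ => by positivity
  refine ⟨C, hC0, ?_⟩
  filter_upwards [eventually_all.2 hc2, eventually_all.2 fun i => eventually_all.2 (hb i)]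
    with p h1 h2
  have : Nonempty (Fin n) := ⟨⟨0, Nat.pos_of_ne_zero hn⟩⟩
  obtain ⟨i, hi⟩ := Finite.exists_max fun i => ‖p.1 i‖
  have h3 : ‖p.1‖ = ‖p.1 i‖ := le_antisymm ((pi_norm_le_iff_of_nonneg (norm_nonneg _)).2 hi)
    (norm_le_pi_norm _ _)
  rw [h3, ← norm_pow, h1 i, Finset.mul_sum]
  refine (norm_sum_le _ _).trans (Finset.sum_le_sum fun k _ => ?_)
  rw [norm_mul]
  refine mul_le_mul_of_nonneg_right ((h2 i k).trans ?_) (norm_nonneg _)
  calc ‖c i k (0, 0)‖ + 1 ≤ ∑ k, (‖c i k (0, 0)‖ + 1) :=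
        Finset.single_le_sum (f := fun k => ‖c i k (0, 0)‖ + 1) (fun k _ => by positivity)
          (Finset.mem_univ k)
    _ ≤ C := Finset.single_le_sum (f := fun i => ∑ k, (‖c i k (0, 0)‖ + 1))
          (fun i _ => Finset.sum_nonneg fun k _ => by positivity) (Finset.mem_univ i)

/-- A family of functions on `ℂⁿ` with the properties obtained in the reduction: the Milnor
number is constant, `(x)^L` is in the ideal of the partial derivatives, the only critical point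
with small critical value is the origin, the gradient grows like `|x|^(d-1)`. -/
structure GoodFam (μ L d : ℕ) (ε : ℝ) (G : (Fin n → ℂ) → ℂ → ℂ) : Prop where
  pos : 0 < ε
  analytic : ∀ x, ∀ t ∈ ball (0 : ℂ) ε,
    AnalyticAt ℂ (fun p : (Fin n → ℂ) × ℂ => G p.1 p.2) (x, t)
  hol : IsHolFamily ε G
  milnor : ∀ t ∈ ball (0 : ℂ) ε, Milnor (fun x => G x t) μ
  ideal : ∀ R, XPow 0 L R → InId (PD fun q => G q.1 q.2) (0, 0) R
  crit : ∀ t ∈ ball (0 : ℂ) ε, ∀ x, fderiv ℂ (fun y => G y t) x = 0 → ‖G x t‖ < ε → x = 0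
  inf : ∃ R κ : ℝ, 0 < R ∧ 0 < κ ∧ ∀ t ∈ ball (0 : ℂ) ε, ∀ x : Fin n → ℂ, R ≤ ‖x‖ →
    ∀ k, ‖x k‖ = ‖x‖ → κ * ‖x‖ ^ (d - 1) ≤ ‖pd k (fun y => G y t) x‖
  kummer : ∀ M : ℕ, 1 ≤ M → ∃ b : Fin n → ℂ, (∀ i, b i ≠ 0) ∧ ∃ ε' > 0, ∀ t ∈ ball (0 : ℂ) ε',
    ∀ X : Fin n → ℂ, fderiv ℂ (fun X => G (fun i => b i + X i ^ M) t) X = 0 →
      ‖G (fun i => b i + X i ^ M) t‖ < ε' → (fun i => b i + X i ^ M) = 0

end Vale.Agent.P298.H752
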