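import Vale.Agent.P298.H752.Red

/-!
# P298 (helper752): reduction of a family with constant Milnor number to a polynomial family
-/

namespace Vale.Agent.P298.H752

open Filter Topology Metric

variable {n : ℕ}

theorem hasColength_PD {r : ℝ} (hr : 0 < r) {F : (Fin n → ℂ) → ℂ → ℂ} (hF : IsHolFamily r F)
    {μ : ℕ} (hμ : ∀ t ∈ ball (0 : ℂ) r, Milnor (fun x => F x t) μ) :
    ∀ᶠ t in 𝓝 (0 : ℂ), HasColength
      (Set.range fun j => fun x => PD (fun q : (Fin n → ℂ) × ℂ => F q.1 q.2) j (x, t)) μ := by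
  filter_upwards [ball_mem_nhds (0 : ℂ) hr] with t ht
  have h1 := (hF t ht).1
  have h2 : ∀ᶠ x in 𝓝 (0 : Fin n → ℂ), ∀ k,
      PD (fun q : (Fin n → ℂ) × ℂ => F q.1 q.2) k (x, t) = pd k (fun x => F x t) x := by
    have ht : Tendsto (fun x : Fin n → ℂ => (x, t)) (𝓝 0) (𝓝 (0, t)) :=
      Continuous.tendsto (by fun_prop) 0
    filter_upwards [ht.eventually h1.eventually_analyticAt] with x hx k
    exact PD_eq_pd hx k
  have h3 : ∀ j, AnalyticAt ℂ
      (fun x => PD (fun q : (Fin n → ℂ) × ℂ => F q.1 q.2) j (x, t)) 0 := by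
    intro j
    have h4 : AnalyticAt ℂ (PD (fun q : (Fin n → ℂ) × ℂ => F q.1 q.2) j)
        ((0 : Fin n → ℂ), t) := an_clm_apply h1.fderiv analyticAt_const
    exact h4.comp₂ analyticAt_id analyticAt_const
  refine hasColength_of_colength (fun j => h3 j) ?_
  refine colength_congr (fun j => ?_) (fun j => ?_) (hμ t ht)
  · exact (InId.self (φ := fun k x => PD (fun q : (Fin n → ℂ) × ℂ => F q.1 q.2) k (x, t)) j).congr
      (h2.mono fun x hx => (hx j).symm)
  · exact (InId.self (φ := fun k => pd k (fun x => F x t)) j).congr (h2.mono fun x hx => hx j)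

/-- the Kummer covering `X ↦ b + X ^ M` -/
def kum (b : Fin n → ℂ) (M : ℕ) (X : Fin n → ℂ) : Fin n → ℂ := fun i => b i + X i ^ M

theorem kum_analytic (b : Fin n → ℂ) (M : ℕ) (X : Fin n → ℂ) : AnalyticAt ℂ (kum b M) X := by
  refine analyticAt_pi_iff.2 fun i => ?_
  exact analyticAt_const.fun_add
    (((ContinuousLinearMap.proj (R := ℂ) (φ := fun _ : Fin n => ℂ) i).analyticAt _).fun_pow M)

theorem kum_fderiv (b : Fin n → ℂ) (M : ℕ) (X : Fin n → ℂ) (k : Fin n) :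
    fderiv ℂ (kum b M) X (Pi.single k 1) = (M * X k ^ (M - 1)) • Pi.single k (1 : ℂ) := by
  have e2 : HasFDerivAt (kum b M) (fderiv ℂ (kum b M) X) X :=
    (kum_analytic b M X).differentiableAt.hasFDerivAt
  have e5 : HasDerivAt ((kum b M) ∘ fun s : ℂ => X + s • (Pi.single k (1 : ℂ) : Fin n → ℂ))
      ((M * X k ^ (M - 1)) • (Pi.single k (1 : ℂ) : Fin n → ℂ)) 0 := by
    rw [hasDerivAt_pi]
    intro i
    by_cases hi : i = k
    · subst hi
      have h1 : HasDerivAt (fun s : ℂ => (X + s • (Pi.single i (1 : ℂ) : Fin n → ℂ)) i) 1 0 := by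
        have := ((hasDerivAt_id (0 : ℂ)).mul_const (1 : ℂ)).const_add (X i)
        simpa using this
      have h2 := (h1.pow M).const_add (b i)
      have h3 : (X + (0 : ℂ) • (Pi.single i (1 : ℂ) : Fin n → ℂ)) i = X i := by simp
      rw [h3] at h2
      have h4 : ((M * X i ^ (M - 1)) • (Pi.single i (1 : ℂ) : Fin n → ℂ)) i =
          M * X i ^ (M - 1) * 1 := by simp
      rw [h4]
      exact h2
    · have h4 : ((M * X k ^ (M - 1)) • (Pi.single k (1 : ℂ) : Fin n → ℂ)) i = 0 := by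
        simp [hi]
      rw [h4]
      have h5 : (fun s : ℂ => ((kum b M) ∘ fun s : ℂ =>
          X + s • (Pi.single k (1 : ℂ) : Fin n → ℂ)) s i) = fun _ => kum b M X i := by
        funext s
        simp [kum, hi]
      rw [h5]
      exact hasDerivAt_const _ _
  have e6 : HasDerivAt (fun s : ℂ => X + s • (Pi.single k (1 : ℂ) : Fin n → ℂ))
      (Pi.single k 1) 0 := by
    have := ((hasDerivAt_id (0 : ℂ)).smul_const (Pi.single k (1 : ℂ) : Fin n → ℂ)).const_add X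
    simpa using this
  have e7 : HasFDerivAt (kum b M) (fderiv ℂ (kum b M) X)
      ((fun s : ℂ => X + s • (Pi.single k (1 : ℂ) : Fin n → ℂ)) 0) := by
    simpa using e2
  exact (e7.comp_hasDerivAt (0 : ℂ) e6).unique e5

theorem kum_comp {P : (Fin n → ℂ) → ℂ} (b : Fin n → ℂ) (M : ℕ) (X : Fin n → ℂ)
    (hP : DifferentiableAt ℂ P (kum b M X)) (k : Fin n) :
    fderiv ℂ (fun X => P (kum b M X)) X (Pi.single k 1) =
      (M * X k ^ (M - 1)) * pd k P (kum b M X) := by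
  have e2 : HasFDerivAt (kum b M) (fderiv ℂ (kum b M) X) X :=
    (kum_analytic b M X).differentiableAt.hasFDerivAt
  have e3 : fderiv ℂ (fun X => P (kum b M X)) X =
      (fderiv ℂ P (kum b M X)).comp (fderiv ℂ (kum b M) X) := (hP.hasFDerivAt.comp X e2).fderiv
  rw [e3, ContinuousLinearMap.comp_apply, kum_fderiv, map_smul, smul_eq_mul]
  rfl

theorem kum_zero {b : Fin n → ℂ} {M : ℕ} (hM : 1 ≤ M) {X : Fin n → ℂ} {k : Fin n}
    (h : X k = 0) : kum b M X k = b k := by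
  simp [kum, h, show M ≠ 0 by omega]

theorem kum_large (b : Fin n → ℂ) {M : ℕ} (hM : 1 ≤ M) (X : Fin n → ℂ) (hX : 1 ≤ ‖X‖) :
    ‖X‖ ≤ ‖kum b M X‖ + ‖b‖ := by
  rcases isEmpty_or_nonempty (Fin n) with hn | hn
  · have : X = 0 := Subsingleton.elim _ _
    rw [this, norm_zero] at hX
    exact absurd hX (by norm_num)
  obtain ⟨j, hj⟩ := Finite.exists_max fun i => ‖X i‖
  have hXj : ‖X‖ = ‖X j‖ := le_antisymm ((pi_norm_le_iff_of_nonneg (norm_nonneg _)).2 hj)
    (norm_le_pi_norm _ _)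
  have e1 : ‖X j ^ M‖ ≤ ‖kum b M X j‖ + ‖b j‖ := by
    have : X j ^ M = kum b M X j - b j := by simp [kum]
    rw [this]
    exact norm_sub_le _ _
  have e2 : ‖X j‖ ≤ ‖X j ^ M‖ := by
    rw [norm_pow]
    rw [hXj] at hX
    exact le_self_pow₀ hX (by omega)
  have e3 := norm_le_pi_norm (kum b M X) j
  have e4 := norm_le_pi_norm b j
  rw [hXj]
  linarith

/-- the Kummer coverings of a polynomial family -/
theorem kummer_fam {P : (Fin n → ℂ) → ℂ → ℂ} {d : ℕ}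
    (ha : ∀ x, AnalyticAt ℂ (fun p : (Fin n → ℂ) × ℂ => P p.1 p.2) (x, 0))
    (hd : ∀ x t, DifferentiableAt ℂ (fun y => P y t) x) {ρ : ℝ} (hρ : 0 < ρ)
    (hloc : ∀ t ∈ ball (0 : ℂ) ρ, ∀ x ∈ ball (0 : Fin n → ℂ) ρ,
      (∀ k, pd k (fun y => P y t) x = 0) → x = 0)
    (h0 : ∀ x, P x 0 = 0 → fderiv ℂ (fun y => P y 0) x = 0 → x = 0)
    {R κ : ℝ} (hR : 0 < R) (hκ : 0 < κ)
    (hinf : ∀ t ∈ ball (0 : ℂ) ρ, ∀ x : Fin n → ℂ, R ≤ ‖x‖ → ∀ k, ‖x k‖ = ‖x‖ →
      κ * ‖x‖ ^ (d - 1) ≤ ‖pd k (fun y => P y t) x‖) (M : ℕ) (hM : 1 ≤ M) :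
    ∃ b : Fin n → ℂ, (∀ i, b i ≠ 0) ∧ ∃ ε' > 0, ∀ t ∈ ball (0 : ℂ) ε',
      ∀ X : Fin n → ℂ, fderiv ℂ (fun X => P (fun i => b i + X i ^ M) t) X = 0 →
        ‖P (fun i => b i + X i ^ M) t‖ < ε' → (fun i => b i + X i ^ M) = 0 := by
  have hdiff0 : Differentiable ℂ (fun y => P y 0) := fun x => hd x 0
  obtain ⟨b, hb, hb2⟩ := kummer _ hdiff0 M hM
  have hM0 : (M : ℂ) ≠ 0 := by exact_mod_cast (by omega : M ≠ 0)
  -- the derivative of the composition
  have hcomp : ∀ (t : ℂ) (X : Fin n → ℂ) (k : Fin n),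
      fderiv ℂ (fun X => P (kum b M X) t) X (Pi.single k 1) =
        (M * X k ^ (M - 1)) * pd k (fun y => P y t) (kum b M X) :=
    fun t X k => kum_comp (P := fun y => P y t) b M X (hd _ t) k
  -- the open set
  obtain ⟨δ, hδ0, hδ⟩ : ∃ δ : ℝ, 0 < δ ∧ ∀ k, δ ≤ ‖b k‖ := by
    rcases isEmpty_or_nonempty (Fin n) with h | h
    · exact ⟨1, one_pos, fun k => (h.false k).elim⟩
    · obtain ⟨k₀, hk₀⟩ := Finite.exists_min fun k => ‖b k‖
      exact ⟨‖b k₀‖, norm_pos_iff.2 (hb k₀), hk₀⟩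
  set ρ' := min ρ δ with hρ'
  have hρ'0 : 0 < ρ' := lt_min hρ hδ0
  have hσc : Continuous (kum b M) := by
    refine continuous_pi fun i => ?_
    unfold kum
    fun_prop
  have hana : ∀ X, AnalyticAt ℂ
      (fun p : (Fin n → ℂ) × ℂ => P (kum b M p.1) p.2) (X, 0) := by
    intro X
    have e1 : AnalyticAt ℂ (fun p : (Fin n → ℂ) × ℂ => (kum b M p.1, p.2)) (X, 0) := by
      have e2 : AnalyticAt ℂ (kum b M) ((X, (0 : ℂ)) : (Fin n → ℂ) × ℂ).1 := kum_analytic b M X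
      exact (e2.comp analyticAt_fst).prod analyticAt_snd
    have e3 : AnalyticAt ℂ (fun p : (Fin n → ℂ) × ℂ => P p.1 p.2)
        ((fun p : (Fin n → ℂ) × ℂ => (kum b M p.1, p.2)) (X, 0)) := ha (kum b M X)
    exact AnalyticAt.comp (g := fun p : (Fin n → ℂ) × ℂ => P p.1 p.2)
      (f := fun p : (Fin n → ℂ) × ℂ => (kum b M p.1, p.2)) e3 e1
  have hinf2 : ∀ᶠ t in 𝓝 (0 : ℂ), ∀ X : Fin n → ℂ, max 1 (2 * ‖b‖ + R + 1) ≤ ‖X‖ →
      fderiv ℂ (fun X => P (kum b M X) t) X ≠ 0 := by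
    filter_upwards [ball_mem_nhds (0 : ℂ) hρ] with t ht X hX hfd
    have hX1 : 1 ≤ ‖X‖ := (le_max_left _ _).trans hX
    have h5 := kum_large b hM X hX1
    have h5' : 2 * ‖b‖ + R + 1 ≤ ‖X‖ := (le_max_right _ _).trans hX
    have h6 : R + ‖b‖ < ‖kum b M X‖ := by linarith
    have hb0 := norm_nonneg b
    have hn : Nonempty (Fin n) := by
      by_contra hn
      rw [not_nonempty_iff] at hn
      have : kum b M X = 0 := Subsingleton.elim _ _
      rw [this, norm_zero] at h6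
      linarith
    obtain ⟨k, hk⟩ := Finite.exists_max fun i => ‖kum b M X i‖
    have hk' : ‖kum b M X k‖ = ‖kum b M X‖ := le_antisymm (norm_le_pi_norm _ _)
      ((pi_norm_le_iff_of_nonneg (norm_nonneg _)).2 hk)
    have h7 := hinf t ht (kum b M X) (by linarith) k hk'
    have h8 : (M * X k ^ (M - 1)) * pd k (fun y => P y t) (kum b M X) = 0 := by
      rw [← hcomp t X k, hfd]
      rfl
    have h9 : pd k (fun y => P y t) (kum b M X) ≠ 0 := by
      intro h0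
      rw [h0, norm_zero] at h7
      have h10 : 0 < ‖kum b M X‖ := by linarith
      have : 0 < κ * ‖kum b M X‖ ^ (d - 1) := by positivity
      linarith
    have h10 : X k ^ (M - 1) = 0 :=
      (mul_eq_zero.1 ((mul_eq_zero.1 h8).resolve_right h9)).resolve_left hM0
    have h11 : X k = 0 := eq_zero_of_pow_eq_zero h10
    rw [kum_zero hM h11] at hk'
    have := norm_le_pi_norm b k
    linarith
  obtain ⟨ε, hε, hε2⟩ := crit_small (P := fun X t => P (kum b M X) t) hana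
    (max 1 (2 * ‖b‖ + R + 1)) hinf2 ((kum b M) ⁻¹' ball 0 ρ') (isOpen_ball.preimage hσc)
    (fun X hX hdX => by
      have h1 := hb2 X hX hdX
      have h2 := h0 (kum b M X) hX h1
      change kum b M X ∈ ball 0 ρ'
      rw [h2]
      exact mem_ball_self hρ'0)
  refine ⟨b, hb, min ε ρ, lt_min hε hρ, fun t ht X hfd hP => ?_⟩
  have ht' : ‖t‖ < min ε ρ := by simpa using ht
  have h1 := hε2 t (ht'.trans_le (min_le_left _ _)) X hfd (hP.trans_le (min_le_left _ _))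
  have h2 : kum b M X ∈ ball (0 : Fin n → ℂ) ρ' := h1
  refine hloc t (by simpa using ht'.trans_le (min_le_right _ _)) (kum b M X)
    (ball_subset_ball (min_le_left _ _) h2) fun k => ?_
  have h3 : (M * X k ^ (M - 1)) * pd k (fun y => P y t) (kum b M X) = 0 := by
    rw [← hcomp t X k]
    change fderiv ℂ (fun X => P (fun i => b i + X i ^ M) t) X (Pi.single k 1) = 0
    rw [hfd]
    rfl
  refine (mul_eq_zero.1 h3).resolve_left ?_
  refine mul_ne_zero hM0 (pow_ne_zero _ ?_)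
  intro h4
  have h5 : ‖kum b M X k‖ < δ := by
    have := (norm_le_pi_norm (kum b M X) k).trans_lt (mem_ball_zero_iff.1 h2)
    exact this.trans_le (min_le_right _ _)
  rw [kum_zero hM h4] at h5
  exact absurd (hδ k) (not_le.2 h5)

/-- **Reduction to polynomial families**: a family of holomorphic functions with constant Milnor
number is, after a holomorphic change of the coordinates `x`, a family of polynomials
`∑ a i t * β i x + ∑ c k * x k ^ d` of degree `d`, for every sufficiently large `d`, with the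
properties collected in `GoodFam`. -/
theorem red {r : ℝ} (hr : 0 < r) {F : (Fin n → ℂ) → ℂ → ℂ} (hF : IsHolFamily r F) {μ : ℕ}
    (hμ : ∀ t ∈ ball (0 : ℂ) r, Milnor (fun x => F x t) μ) :
    ∃ (L d₀ : ℕ) (ι : Type) (_ : Fintype ι) (β : ι → MvPolynomial (Fin n) ℂ) (a : ι → ℂ → ℂ)
      (r₀ : ℝ), 0 < r₀ ∧ 2 ≤ d₀ ∧ (∀ i, (β i).totalDegree < d₀) ∧
      (∀ i, ∀ t ∈ ball (0 : ℂ) r₀, AnalyticAt ℂ (a i) t) ∧
      ∀ d, d₀ ≤ d → ∃ (c : Fin n → ℂ) (ε : ℝ), (∀ k, c k ≠ 0) ∧ ε ≤ r ∧ ε ≤ r₀ ∧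
        GoodFam μ L d ε (PF a β c d) ∧
        ∀ r', TopRightTrivial r' (PF a β c d) → TopRightTrivial r F := by
  set f : (Fin n → ℂ) × ℂ → ℂ := fun q => F q.1 q.2 with hf
  have hfa : AnalyticAt ℂ f (0, 0) := (hF 0 (mem_ball_self hr)).1
  have hPDa : ∀ k, AnalyticAt ℂ (PD f k) ((0 : Fin n → ℂ), (0 : ℂ)) := fun k =>
    an_clm_apply hfa.fderiv analyticAt_const
  obtain ⟨L, hL⟩ := param_division (0 : ℂ) (PD f) hPDa μ (hasColength_PD hr hF hμ)
  obtain ⟨ι, hι, β, hβ, hT⟩ := exists_taylorPoly n (2 + (L + L)) ℂ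
  obtain ⟨a, ha, hX⟩ := hT 0 f hfa
  obtain ⟨r₀, hr₀, hr₀a⟩ : ∃ r₀ > 0, ∀ i, ∀ t ∈ ball (0 : ℂ) r₀, AnalyticAt ℂ (a i) t := by
    have h1 : ∀ᶠ t in 𝓝 (0 : ℂ), ∀ i, AnalyticAt ℂ (a i) t :=
      eventually_all.2 fun i => (ha i).eventually_analyticAt
    obtain ⟨r₀, hr₀, h2⟩ := Metric.eventually_nhds_iff_ball.1 h1
    exact ⟨r₀, hr₀, fun i t ht => h2 t ht i⟩
  refine ⟨L, 2 + (L + L), ι, hι, β, a, r₀, hr₀, by omega, hβ, hr₀a, fun d hd => ?_⟩
  -- the top form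
  have hd1 : 1 ≤ d := by omega
  have hd2 : 2 ≤ d := by omega
  have hT0 : Differentiable ℂ fun x : Fin n → ℂ => ∑ i, a i 0 * MvPolynomial.eval x (β i) := by
    intro x
    refine DifferentiableAt.fun_sum fun i _ => ?_
    obtain ⟨D, hD, -⟩ := hasFDerivAt_eval (β i) x
    exact hD.differentiableAt.const_mul _
  obtain ⟨c, hc, hc2⟩ := exists_top d hd1 n _ hT0
  -- abstract the family
  obtain ⟨P, hP⟩ : ∃ P : (Fin n → ℂ) → ℂ → ℂ, P = PF a β c d := ⟨_, rfl⟩
  have hPa : ∀ x, ∀ t ∈ ball (0 : ℂ) r₀,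
      AnalyticAt ℂ (fun p : (Fin n → ℂ) × ℂ => P p.1 p.2) (x, t) := by
    intro x t ht
    rw [hP]
    exact PF_analytic (fun i => hr₀a i t ht) x
  have hPd : ∀ x t, DifferentiableAt ℂ (fun y => P y t) x := by
    intro x t
    rw [hP]
    exact (PF_pd x t).1
  have hP0 : ∀ x, P x 0 = 0 → fderiv ℂ (fun y => P y 0) x = 0 → x = 0 := by
    intro x h1 h2
    by_contra hx
    rw [hP] at h1 h2
    exact hc2 x hx h1 h2
  have hPX : XPow 0 (2 + (L + L)) (fun p : (Fin n → ℂ) × ℂ => P p.1 p.2 - f p) := by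
    have h1 : XPow (0 : ℂ) (2 + (L + L)) (fun p : (Fin n → ℂ) × ℂ => ∑ i, c i * p.1 i ^ d) :=
      XPow.sum _ fun i _ => ((XPow.coord_pow 0 i d).mono hd).mul_left analyticAt_const
    refine (h1.sub hX).congr (Eventually.of_forall fun p => ?_)
    rw [hP]
    simp only [PF]
    ring
  have hPinf : ∃ R κ : ℝ, 0 < R ∧ 0 < κ ∧ ∀ t ∈ ball (0 : ℂ) (r₀ / 2), ∀ x : Fin n → ℂ,
      R ≤ ‖x‖ → ∀ k, ‖x k‖ = ‖x‖ → κ * ‖x‖ ^ (d - 1) ≤ ‖pd k (fun y => P y t) x‖ := by
    have h1 : ∀ i, ∃ A : ℝ, ∀ t ∈ closedBall (0 : ℂ) (r₀ / 2), ‖a i t‖ ≤ A := fun i =>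
      (isCompact_closedBall _ _).exists_bound_of_continuousOn fun t ht =>
        (hr₀a i t (closedBall_subset_ball (by linarith) ht)).continuousAt.continuousWithinAt
    choose A hA using h1
    rw [hP]
    refine PF_infinity (A := ∑ i, |A i|) (fun i => (hβ i).trans_le hd) hd2 hc _ ?_
    intro i t ht
    refine (hA i t (ball_subset_closedBall ht)).trans ((le_abs_self _).trans ?_)
    exact Finset.single_le_sum (f := fun i => |A i|) (fun i _ => abs_nonneg _)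
      (Finset.mem_univ i)
  suffices hmain : ∃ ε : ℝ, ε ≤ r ∧ ε ≤ r₀ ∧ GoodFam μ L d ε P ∧
      ∀ r', TopRightTrivial r' P → TopRightTrivial r F by
    obtain ⟨ε, h1, h2, h3⟩ := hmain
    rw [hP] at h3
    exact ⟨c, ε, hc, h1, h2, h3⟩
  clear hP hc2 hT0 hX hT hβ
  have hPa0 := fun x => hPa x 0 (mem_ball_self hr₀)
  set g : (Fin n → ℂ) × ℂ → ℂ := fun q => P q.1 q.2 with hg
  obtain ⟨-, hgf⟩ := same_ideal hfa (hPa0 0) hL (hPX.mono (by omega))
  have hLg : ∀ R, XPow 0 L R → InId (PD g) (0, 0) R := fun R hR => InId.trans hgf (hL R hR)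
  -- critical points near the origin
  obtain ⟨ρ₁, hρ₁, hcrit⟩ : ∃ ρ₁ > 0, ∀ t ∈ ball (0 : ℂ) ρ₁, ∀ x ∈ ball (0 : Fin n → ℂ) ρ₁,
      (∀ k, pd k (fun y => P y t) x = 0) → x = 0 := by
    have h1 : ∀ᶠ p in 𝓝 ((0 : Fin n → ℂ), (0 : ℂ)), (∀ k, pd k (fun y => P y p.2) p.1 = 0) →
        p.1 = 0 := by
      filter_upwards [crit_axis hLg, (hPa0 0).eventually_analyticAt] with p h2 h3 h4
      refine h2 fun k => ?_
      rw [hg, PD_eq_pd h3 k]
      exact h4 k
    obtain ⟨ρ₁, hρ₁, h2⟩ := Metric.eventually_nhds_iff_ball.1 h1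
    refine ⟨ρ₁, hρ₁, fun t ht x hx h3 => h2 (x, t) ?_ h3⟩
    rw [mem_ball_zero_iff] at hx ht
    rw [mem_ball, dist_eq_norm, Prod.norm_def, max_lt_iff]
    simp only [Prod.fst_sub, Prod.snd_sub, sub_zero]
    exact ⟨hx, ht⟩
  obtain ⟨R, κ, hR, hκ, hRκ⟩ := hPinf
  obtain ⟨ε₁, hε₁, hcs⟩ := crit_small hPa0 R (by
    filter_upwards [ball_mem_nhds (0 : ℂ) (half_pos hr₀)] with t ht x hx hfd
    have hn : Nonempty (Fin n) := by
      by_contra hn
      rw [not_nonempty_iff] at hn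
      have : x = 0 := Subsingleton.elim _ _
      rw [this, norm_zero] at hx
      linarith
    obtain ⟨k, hk⟩ := Finite.exists_max fun i => ‖x i‖
    have hk' : ‖x k‖ = ‖x‖ := le_antisymm (norm_le_pi_norm _ _)
      ((pi_norm_le_iff_of_nonneg (norm_nonneg _)).2 hk)
    have h1 := hRκ t ht x hx k hk'
    have h2 : pd k (fun y => P y t) x = 0 := by
      unfold pd
      rw [hfd]
      rfl
    rw [h2, norm_zero] at h1
    have h3 : 0 < ‖x‖ := hR.trans_le hx
    have h4 : 0 < κ * ‖x‖ ^ (d - 1) := by positivity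
    linarith) (ball 0 ρ₁) isOpen_ball (fun x h1 h2 => by
      rw [hP0 x h1 h2]
      exact mem_ball_self hρ₁)
  -- the Milnor numbers and the value at the origin
  obtain ⟨ε₂, hε₂, hmil⟩ := Metric.eventually_nhds_iff_ball.1
    (milnor_transfer (F := F) (G := P) (t₀ := 0) (L := L) (by rw [hf] at hfa; exact hfa)
      (hPa0 0) (by rw [hf] at hL; exact hL) (by rw [hf] at hPX; exact hPX.mono (by omega)))
  obtain ⟨ε₃, hε₃, hval⟩ := Metric.eventually_nhds_iff_ball.1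
    (XPow.eq_zero_axis (K := 1 + (L + L)) (by
      have : 1 + (L + L) + 1 = 2 + (L + L) := by omega
      rw [this]; exact hPX))
  set ε := min (min (min r (r₀ / 2)) (min ρ₁ ε₁)) (min ε₂ ε₃) with hε
  have hε0 : 0 < ε := by positivity
  have e1 : ε ≤ r := (min_le_left _ _).trans ((min_le_left _ _).trans (min_le_left _ _))
  have e2 : ε ≤ r₀ / 2 := (min_le_left _ _).trans ((min_le_left _ _).trans (min_le_right _ _))
  have e3 : ε ≤ ρ₁ := (min_le_left _ _).trans ((min_le_right _ _).trans (min_le_left _ _))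
  have e4 : ε ≤ ε₁ := (min_le_left _ _).trans ((min_le_right _ _).trans (min_le_right _ _))
  have e5 : ε ≤ ε₂ := (min_le_right _ _).trans (min_le_left _ _)
  have e6 : ε ≤ ε₃ := (min_le_right _ _).trans (min_le_right _ _)
  refine ⟨ε, e1, e2.trans (by linarith), ?_, ?_⟩
  · refine ⟨hε0, fun x t ht => hPa x t (ball_subset_ball (by linarith) ht), fun t ht => ⟨?_, ?_⟩,
      fun t ht => ?_, hLg, fun t ht x hx hPx => ?_, ?_, ?_⟩
    · exact hPa 0 t (ball_subset_ball (by linarith) ht)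
    · have h1 := hval t (ball_subset_ball e6 ht)
      have h2 := (hF t (ball_subset_ball e1 ht)).2
      rw [hf] at h1
      simp only [h2, sub_zero] at h1
      exact h1
    · exact hmil t (ball_subset_ball e5 ht) μ (hμ t (ball_subset_ball e1 ht))
    · have ht' : ‖t‖ < ε := by simpa using ht
      have h1 := hcs t (ht'.trans_le e4) x hx (hPx.trans_le e4)
      refine hcrit t (ball_subset_ball e3 ht) x h1 fun k => ?_
      unfold pd
      rw [hx]
      rfl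
    · exact ⟨R, κ, hR, hκ, fun t ht => hRκ t (ball_subset_ball e2 ht)⟩
    · intro M hM
      refine kummer_fam (d := d) hPa0 hPd (ρ := min ρ₁ (r₀ / 2)) (by positivity)
        (fun t ht x hx h => hcrit t (ball_subset_ball (min_le_left _ _) ht) x
          (ball_subset_ball (min_le_left _ _) hx) h) hP0 hR hκ
        (fun t ht => hRκ t (ball_subset_ball (min_le_right _ _) ht)) M hM
  · intro r' htriv
    obtain ⟨Ψ, h0, hΨ⟩ := tougeron hfa hL hPX (fun _ => True) (Eventually.of_forall fun _ => trivial)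
    refine topRight_transfer (F := F) (G := P) hr Ψ h0 (fun q hq => ?_) htriv
    obtain ⟨h1, h2, h3, -⟩ := hΨ q hq
    refine ⟨h1, h2, ?_⟩
    rw [hf] at h3
    exact h3

/-- The reduction as an implication: if, for every polynomial datum, the theorem holds for the
good families of one sufficiently large degree `d`, then it holds for all families. -/
theorem reduction {n : ℕ}
    (H : ∀ (μ L d₀ : ℕ) (ι : Type) [Fintype ι] (β : ι → MvPolynomial (Fin n) ℂ)
      (a : ι → ℂ → ℂ) (r₀ : ℝ), 0 < r₀ → 2 ≤ d₀ → (∀ i, (β i).totalDegree < d₀) →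
      (∀ i, ∀ t ∈ ball (0 : ℂ) r₀, AnalyticAt ℂ (a i) t) →
      ∃ d, d₀ ≤ d ∧ ∀ (c : Fin n → ℂ) (ε : ℝ), (∀ k, c k ≠ 0) → ε ≤ r₀ →
        GoodFam μ L d ε (PF a β c d) → ∃ r', TopRightTrivial r' (PF a β c d))
    {r : ℝ} (hr : 0 < r) {F : (Fin n → ℂ) → ℂ → ℂ} (hF : IsHolFamily r F) {μ : ℕ}
    (hμ : ∀ t ∈ ball (0 : ℂ) r, Milnor (fun x => F x t) μ) : TopRightTrivial r F := by
  obtain ⟨L, d₀, ι, hι, β, a, r₀, hr₀, hd₀, hβ, ha, h⟩ := red hr hF hμ
  obtain ⟨d, hd, h2⟩ := H μ L d₀ ι β a r₀ hr₀ hd₀ hβ ha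
  obtain ⟨c, ε, hc, -, hε, h3, h4⟩ := h d hd
  obtain ⟨r', h5⟩ := h2 c ε hc hε h3
  exact h4 r' h5

end Vale.Agent.P298.H752
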