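import Vale.Agent.P298.H752.Top

/-!
# P298 (helper752): the reduction to polynomial families, with the change of coordinates
-/

namespace Vale.Agent.P298.H752

open Filter Topology Metric

open Vale.Agent.P298.H379 (Mon Q ev PFam)

variable {n : ℕ}

/-- `G` is obtained from `F` by a holomorphic change of the coordinates `x` depending on `t` -/
def Straight (F G : (Fin n → ℂ) → ℂ → ℂ) : Prop :=
  ∃ Ψ : OpenPartialHomeomorph ((Fin n → ℂ) × ℂ) ((Fin n → ℂ) × ℂ), (0, 0) ∈ Ψ.source ∧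
    ∀ q ∈ Ψ.source, (Ψ q).2 = q.2 ∧ (q.1 = 0 → Ψ q = q) ∧ F (Ψ q).1 (Ψ q).2 = G q.1 q.2 ∧
      AnalyticAt ℂ Ψ q ∧ AnalyticAt ℂ Ψ.symm (Ψ q)

theorem Straight.trans_triv {r : ℝ} (hr : 0 < r) {F G : (Fin n → ℂ) → ℂ → ℂ} (h : Straight F G)
    {r' : ℝ} (h' : TopRightTrivial r' G) : TopRightTrivial r F := by
  obtain ⟨Ψ, h0, hΨ⟩ := h
  exact topRight_transfer hr Ψ h0 (fun q hq => ⟨(hΨ q hq).1, (hΨ q hq).2.1, (hΨ q hq).2.2.1⟩) h'

/-- the change of coordinates at `t = 0` -/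
theorem Straight.germ {F G : (Fin n → ℂ) → ℂ → ℂ} (h : Straight F G) :
    ∃ ψ φ : (Fin n → ℂ) → (Fin n → ℂ), AnalyticAt ℂ ψ 0 ∧ ψ 0 = 0 ∧ AnalyticAt ℂ φ 0 ∧ φ 0 = 0 ∧
      (∀ᶠ x in 𝓝 0, φ (ψ x) = x) ∧ (∀ᶠ x in 𝓝 0, ψ (φ x) = x) ∧
      (∃ A : (Fin n → ℂ) ≃L[ℂ] (Fin n → ℂ), HasFDerivAt ψ (A : (Fin n → ℂ) →L[ℂ] (Fin n → ℂ)) 0) ∧
      ∀ᶠ x in 𝓝 0, F (ψ x) 0 = G x 0 := by
  obtain ⟨Ψ, h0, hΨ⟩ := h
  have hi : AnalyticAt ℂ (fun x : Fin n → ℂ => (x, (0 : ℂ))) 0 := analyticAt_id.prod analyticAt_const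
  have hi' : Tendsto (fun x : Fin n → ℂ => (x, (0 : ℂ))) (𝓝 0) (𝓝 (0, 0)) := hi.continuousAt
  have hΨ0 : Ψ ((0 : Fin n → ℂ), (0 : ℂ)) = (0, 0) := (hΨ _ h0).2.1 rfl
  have ht0 : ((0 : Fin n → ℂ), (0 : ℂ)) ∈ Ψ.target := by
    have := Ψ.map_source h0
    rwa [hΨ0] at this
  have hs0 : Ψ.symm ((0 : Fin n → ℂ), (0 : ℂ)) = (0, 0) := by
    have := Ψ.left_inv h0
    rwa [hΨ0] at this
  have hψa : AnalyticAt ℂ (fun x : Fin n → ℂ => (Ψ (x, 0)).1) 0 := by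
    have h1 : AnalyticAt ℂ Ψ ((fun x : Fin n → ℂ => (x, (0 : ℂ))) 0) := (hΨ _ h0).2.2.2.1
    exact analyticAt_fst.comp (AnalyticAt.comp (g := Ψ) h1 hi)
  have hφa : AnalyticAt ℂ (fun x : Fin n → ℂ => (Ψ.symm (x, 0)).1) 0 := by
    have h1 : AnalyticAt ℂ Ψ.symm ((fun x : Fin n → ℂ => (x, (0 : ℂ))) 0) := by
      have := (hΨ _ h0).2.2.2.2
      rwa [hΨ0] at this
    exact analyticAt_fst.comp (AnalyticAt.comp (g := Ψ.symm) h1 hi)
  have e1 : ∀ᶠ x in 𝓝 (0 : Fin n → ℂ), (Ψ.symm ((Ψ (x, 0)).1, 0)).1 = x := by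
    filter_upwards [hi'.eventually (Ψ.open_source.mem_nhds h0)] with x hx
    have h1 : ((Ψ (x, 0)).1, (0 : ℂ)) = Ψ (x, 0) := Prod.ext rfl (hΨ _ hx).1.symm
    rw [h1, Ψ.left_inv hx]
  have e2 : ∀ᶠ x in 𝓝 (0 : Fin n → ℂ), (Ψ ((Ψ.symm (x, 0)).1, 0)).1 = x := by
    filter_upwards [hi'.eventually (Ψ.open_target.mem_nhds ht0)] with x hx
    have h2 : (Ψ.symm (x, 0)).2 = 0 := by
      have h3 := (hΨ _ (Ψ.map_target hx)).1
      rw [Ψ.right_inv hx] at h3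
      exact h3.symm
    have h1 : ((Ψ.symm (x, 0)).1, (0 : ℂ)) = Ψ.symm (x, 0) := Prod.ext rfl h2.symm
    rw [h1, Ψ.right_inv hx]
  have hψ0 : (Ψ ((0 : Fin n → ℂ), (0 : ℂ))).1 = 0 := by rw [hΨ0]
  have hφ0 : (Ψ.symm ((0 : Fin n → ℂ), (0 : ℂ))).1 = 0 := by rw [hs0]
  refine ⟨fun x => (Ψ (x, 0)).1, fun x => (Ψ.symm (x, 0)).1, hψa, hψ0, hφa, hφ0, e1, e2, ?_, ?_⟩
  · have d1 := hψa.differentiableAt.hasFDerivAt
    have d2 := hφa.differentiableAt.hasFDerivAt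
    set A := fderiv ℂ (fun x : Fin n → ℂ => (Ψ (x, 0)).1) 0 with hA
    set B := fderiv ℂ (fun x : Fin n → ℂ => (Ψ.symm (x, 0)).1) 0 with hB
    have c1 : HasFDerivAt (fun x : Fin n → ℂ => (Ψ.symm ((Ψ (x, 0)).1, 0)).1) (B.comp A) 0 := by
      have d3 : HasFDerivAt (fun x : Fin n → ℂ => (Ψ.symm (x, 0)).1) B
          ((fun x : Fin n → ℂ => (Ψ (x, 0)).1) 0) := by
        change HasFDerivAt _ B (Ψ ((0 : Fin n → ℂ), (0 : ℂ))).1
        rw [hψ0]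
        exact d2
      exact HasFDerivAt.comp (0 : Fin n → ℂ) d3 d1
    have c2 : HasFDerivAt (fun x : Fin n → ℂ => (Ψ ((Ψ.symm (x, 0)).1, 0)).1) (A.comp B) 0 := by
      have d3 : HasFDerivAt (fun x : Fin n → ℂ => (Ψ (x, 0)).1) A
          ((fun x : Fin n → ℂ => (Ψ.symm (x, 0)).1) 0) := by
        change HasFDerivAt _ A (Ψ.symm ((0 : Fin n → ℂ), (0 : ℂ))).1
        rw [hφ0]
        exact d1
      exact HasFDerivAt.comp (0 : Fin n → ℂ) d3 d2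
    have i1 : B.comp A = ContinuousLinearMap.id ℂ (Fin n → ℂ) :=
      c1.unique ((hasFDerivAt_id (0 : Fin n → ℂ)).congr_of_eventuallyEq e1)
    have i2 : A.comp B = ContinuousLinearMap.id ℂ (Fin n → ℂ) :=
      c2.unique ((hasFDerivAt_id (0 : Fin n → ℂ)).congr_of_eventuallyEq e2)
    refine ⟨ContinuousLinearEquiv.equivOfInverse A B (fun x => ?_) (fun x => ?_), ?_⟩
    · have := congrArg (fun T : (Fin n → ℂ) →L[ℂ] (Fin n → ℂ) => T x) i1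
      simpa using this
    · have := congrArg (fun T : (Fin n → ℂ) →L[ℂ] (Fin n → ℂ) => T x) i2
      simpa using this
    · exact d1
  · filter_upwards [hi'.eventually (Ψ.open_source.mem_nhds h0)] with x hx
    have h1 := (hΨ _ hx).2.2.1
    have h2 : (Ψ (x, 0)).2 = 0 := (hΨ _ hx).1
    rw [h2] at h1
    exact h1

/-- the uniform Lojasiewicz inequality of a good family; the exponent does not depend on `d` -/
theorem GoodFam.loj {μ L d : ℕ} {ε : ℝ} {G : (Fin n → ℂ) → ℂ → ℂ} (hG : GoodFam μ L d ε G)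
    (hn : n ≠ 0) :
    ∃ C R : ℝ, 0 ≤ C ∧ 0 < R ∧ ∀ t ∈ ball (0 : ℂ) R, ∀ x ∈ ball (0 : Fin n → ℂ) R,
      ‖x‖ ^ L ≤ C * ∑ k, ‖pd k (fun y => G y t) x‖ := by
  obtain ⟨C, hC, h⟩ := H752.loj hG.ideal hn
  have h1 : ∀ᶠ p in 𝓝 ((0 : Fin n → ℂ), (0 : ℂ)),
      ‖p.1‖ ^ L ≤ C * ∑ k, ‖pd k (fun y => G y p.2) p.1‖ := by
    filter_upwards [h, (hG.analytic 0 0 (mem_ball_self hG.pos)).eventually_analyticAt] with p h1 h2
    refine h1.trans (le_of_eq ?_)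
    refine congrArg _ (Finset.sum_congr rfl fun k _ => ?_)
    rw [PD_eq_pd (F := G) h2 k]
  obtain ⟨R, hR, h2⟩ := Metric.eventually_nhds_iff_ball.1 h1
  refine ⟨C, R, hC, hR, fun t ht x hx => ?_⟩
  refine h2 (x, t) ?_
  rw [mem_ball_zero_iff] at ht hx
  rw [mem_ball, dist_eq_norm, Prod.norm_def, max_lt_iff]
  simp only [Prod.fst_sub, Prod.snd_sub, sub_zero]
  exact ⟨hx, ht⟩

/-- **Reduction to polynomial families**, with the change of coordinates. -/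
theorem red' {r : ℝ} (hr : 0 < r) {F : (Fin n → ℂ) → ℂ → ℂ} (hF : IsHolFamily r F) {μ : ℕ}
    (hμ : ∀ t ∈ ball (0 : ℂ) r, Milnor (fun x => F x t) μ) :
    ∃ (L d₀ : ℕ) (ι : Type) (_ : Fintype ι) (β : ι → MvPolynomial (Fin n) ℂ) (a : ι → ℂ → ℂ)
      (r₀ : ℝ), 0 < r₀ ∧ 2 ≤ d₀ ∧ (∀ i, (β i).totalDegree < d₀) ∧
      (∀ i, ∀ t ∈ ball (0 : ℂ) r₀, AnalyticAt ℂ (a i) t) ∧
      ∀ d, d₀ ≤ d → ∃ (c : Fin n → ℂ) (ε : ℝ), (∀ k, c k ≠ 0) ∧ ε ≤ r ∧ ε ≤ r₀ ∧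
        GoodFam μ L d ε (PF a β c d) ∧
        Straight F (PF a β c d) := by
  set f : (Fin n → ℂ) × ℂ → ℂ := fun q => F q.1 q.2 with hf
  have hfa : AnalyticAt ℂ f (0, 0) := (hF 0 (mem_ball_self hr)).1
  have hPDa : ∀ k, AnalyticAt ℂ (PD f k) ((0 : Fin n → ℂ), (0 : ℂ)) := fun k =>
    an_clm_apply hfa.fderiv analyticAt_const
  obtain ⟨L, hL⟩ := param_division (0 : ℂ) (PD f) hPDa μ (hasColength_PD hr hF hμ)
  obtain ⟨ι, hι, β, hβ, hT⟩ := exists_taylorPoly n (2 + (L + L)) ℂ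
  obtain ⟨a, ha, hX⟩ := hT 0 f hfa
  obtain ⟨r₀, hr₀, hr₀a⟩ : ∃ r₀ > 0, ∀ i, ∀ t ∈ ball (0 : ℂ) r₀, AnalyticAt ℂ (a i) t := by
    have h1 : ∀ᶠ t in 𝓝 (0 : ℂ), ∀ i, AnalyticAt ℂ (a i) t :=
      eventually_all.2 fun i => (ha i).eventually_analyticAt
    obtain ⟨r₀, hr₀, h2⟩ := Metric.eventually_nhds_iff_ball.1 h1
    exact ⟨r₀, hr₀, fun i t ht => h2 t ht i⟩
  refine ⟨L, 2 + (L + L), ι, hι, β, a, r₀, hr₀, by omega, hβ, hr₀a, fun d hd => ?_⟩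
  -- the top form
  have hd1 : 1 ≤ d := by omega
  have hd2 : 2 ≤ d := by omega
  have hT0 : Differentiable ℂ fun x : Fin n → ℂ => ∑ i, a i 0 * MvPolynomial.eval x (β i) := by
    intro x
    refine DifferentiableAt.fun_sum fun i _ => ?_
    obtain ⟨D, hD, -⟩ := hasFDerivAt_eval (β i) x
    exact hD.differentiableAt.const_mul _
  obtain ⟨c, hc, hc2⟩ := exists_top d hd1 n _ hT0
  -- abstract the family
  obtain ⟨P, hP⟩ : ∃ P : (Fin n → ℂ) → ℂ → ℂ, P = PF a β c d := ⟨_, rfl⟩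
  have hPa : ∀ x, ∀ t ∈ ball (0 : ℂ) r₀,
      AnalyticAt ℂ (fun p : (Fin n → ℂ) × ℂ => P p.1 p.2) (x, t) := by
    intro x t ht
    rw [hP]
    exact PF_analytic (fun i => hr₀a i t ht) x
  have hPd : ∀ x t, DifferentiableAt ℂ (fun y => P y t) x := by
    intro x t
    rw [hP]
    exact (PF_pd x t).1
  have hP0 : ∀ x, P x 0 = 0 → fderiv ℂ (fun y => P y 0) x = 0 → x = 0 := by
    intro x h1 h2
    by_contra hx
    rw [hP] at h1 h2
    exact hc2 x hx h1 h2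
  have hPX : XPow 0 (2 + (L + L)) (fun p : (Fin n → ℂ) × ℂ => P p.1 p.2 - f p) := by
    have h1 : XPow (0 : ℂ) (2 + (L + L)) (fun p : (Fin n → ℂ) × ℂ => ∑ i, c i * p.1 i ^ d) :=
      XPow.sum _ fun i _ => ((XPow.coord_pow 0 i d).mono hd).mul_left analyticAt_const
    refine (h1.sub hX).congr (Eventually.of_forall fun p => ?_)
    rw [hP]
    simp only [PF]
    ring
  have hPinf : ∃ R κ : ℝ, 0 < R ∧ 0 < κ ∧ ∀ t ∈ ball (0 : ℂ) (r₀ / 2), ∀ x : Fin n → ℂ,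
      R ≤ ‖x‖ → ∀ k, ‖x k‖ = ‖x‖ → κ * ‖x‖ ^ (d - 1) ≤ ‖pd k (fun y => P y t) x‖ := by
    have h1 : ∀ i, ∃ A : ℝ, ∀ t ∈ closedBall (0 : ℂ) (r₀ / 2), ‖a i t‖ ≤ A := fun i =>
      (isCompact_closedBall _ _).exists_bound_of_continuousOn fun t ht =>
        (hr₀a i t (closedBall_subset_ball (by linarith) ht)).continuousAt.continuousWithinAt
    choose A hA using h1
    rw [hP]
    refine PF_infinity (A := ∑ i, |A i|) (fun i => (hβ i).trans_le hd) hd2 hc _ ?_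
    intro i t ht
    refine (hA i t (ball_subset_closedBall ht)).trans ((le_abs_self _).trans ?_)
    exact Finset.single_le_sum (f := fun i => |A i|) (fun i _ => abs_nonneg _)
      (Finset.mem_univ i)
  suffices hmain : ∃ ε : ℝ, ε ≤ r ∧ ε ≤ r₀ ∧ GoodFam μ L d ε P ∧ Straight F P by
    obtain ⟨ε, h1, h2, h3⟩ := hmain
    rw [hP] at h3
    exact ⟨c, ε, hc, h1, h2, h3⟩
  clear hP hc2 hT0 hX hT hβ
  have hPa0 := fun x => hPa x 0 (mem_ball_self hr₀)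
  set g : (Fin n → ℂ) × ℂ → ℂ := fun q => P q.1 q.2 with hg
  obtain ⟨-, hgf⟩ := same_ideal hfa (hPa0 0) hL (hPX.mono (by omega))
  have hLg : ∀ R, XPow 0 L R → InId (PD g) (0, 0) R := fun R hR => InId.trans hgf (hL R hR)
  -- critical points near the origin
  obtain ⟨ρ₁, hρ₁, hcrit⟩ : ∃ ρ₁ > 0, ∀ t ∈ ball (0 : ℂ) ρ₁, ∀ x ∈ ball (0 : Fin n → ℂ) ρ₁,
      (∀ k, pd k (fun y => P y t) x = 0) → x = 0 := by
    have h1 : ∀ᶠ p in 𝓝 ((0 : Fin n → ℂ), (0 : ℂ)), (∀ k, pd k (fun y => P y p.2) p.1 = 0) →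
        p.1 = 0 := by
      filter_upwards [crit_axis hLg, (hPa0 0).eventually_analyticAt] with p h2 h3 h4
      refine h2 fun k => ?_
      rw [hg, PD_eq_pd h3 k]
      exact h4 k
    obtain ⟨ρ₁, hρ₁, h2⟩ := Metric.eventually_nhds_iff_ball.1 h1
    refine ⟨ρ₁, hρ₁, fun t ht x hx h3 => h2 (x, t) ?_ h3⟩
    rw [mem_ball_zero_iff] at hx ht
    rw [mem_ball, dist_eq_norm, Prod.norm_def, max_lt_iff]
    simp only [Prod.fst_sub, Prod.snd_sub, sub_zero]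
    exact ⟨hx, ht⟩
  obtain ⟨R, κ, hR, hκ, hRκ⟩ := hPinf
  obtain ⟨ε₁, hε₁, hcs⟩ := crit_small hPa0 R (by
    filter_upwards [ball_mem_nhds (0 : ℂ) (half_pos hr₀)] with t ht x hx hfd
    have hn : Nonempty (Fin n) := by
      by_contra hn
      rw [not_nonempty_iff] at hn
      have : x = 0 := Subsingleton.elim _ _
      rw [this, norm_zero] at hx
      linarith
    obtain ⟨k, hk⟩ := Finite.exists_max fun i => ‖x i‖
    have hk' : ‖x k‖ = ‖x‖ := le_antisymm (norm_le_pi_norm _ _)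
      ((pi_norm_le_iff_of_nonneg (norm_nonneg _)).2 hk)
    have h1 := hRκ t ht x hx k hk'
    have h2 : pd k (fun y => P y t) x = 0 := by
      unfold pd
      rw [hfd]
      rfl
    rw [h2, norm_zero] at h1
    have h3 : 0 < ‖x‖ := hR.trans_le hx
    have h4 : 0 < κ * ‖x‖ ^ (d - 1) := by positivity
    linarith) (ball 0 ρ₁) isOpen_ball (fun x h1 h2 => by
      rw [hP0 x h1 h2]
      exact mem_ball_self hρ₁)
  -- the Milnor numbers and the value at the origin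
  obtain ⟨ε₂, hε₂, hmil⟩ := Metric.eventually_nhds_iff_ball.1
    (milnor_transfer (F := F) (G := P) (t₀ := 0) (L := L) (by rw [hf] at hfa; exact hfa)
      (hPa0 0) (by rw [hf] at hL; exact hL) (by rw [hf] at hPX; exact hPX.mono (by omega)))
  obtain ⟨ε₃, hε₃, hval⟩ := Metric.eventually_nhds_iff_ball.1
    (XPow.eq_zero_axis (K := 1 + (L + L)) (by
      have : 1 + (L + L) + 1 = 2 + (L + L) := by omega
      rw [this]; exact hPX))
  set ε := min (min (min r (r₀ / 2)) (min ρ₁ ε₁)) (min ε₂ ε₃) with hε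
  have hε0 : 0 < ε := by positivity
  have e1 : ε ≤ r := (min_le_left _ _).trans ((min_le_left _ _).trans (min_le_left _ _))
  have e2 : ε ≤ r₀ / 2 := (min_le_left _ _).trans ((min_le_left _ _).trans (min_le_right _ _))
  have e3 : ε ≤ ρ₁ := (min_le_left _ _).trans ((min_le_right _ _).trans (min_le_left _ _))
  have e4 : ε ≤ ε₁ := (min_le_left _ _).trans ((min_le_right _ _).trans (min_le_right _ _))
  have e5 : ε ≤ ε₂ := (min_le_right _ _).trans (min_le_left _ _)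
  have e6 : ε ≤ ε₃ := (min_le_right _ _).trans (min_le_right _ _)
  refine ⟨ε, e1, e2.trans (by linarith), ?_, ?_⟩
  · refine ⟨hε0, fun x t ht => hPa x t (ball_subset_ball (by linarith) ht), fun t ht => ⟨?_, ?_⟩,
      fun t ht => ?_, hLg, fun t ht x hx hPx => ?_, ?_, ?_⟩
    · exact hPa 0 t (ball_subset_ball (by linarith) ht)
    · have h1 := hval t (ball_subset_ball e6 ht)
      have h2 := (hF t (ball_subset_ball e1 ht)).2
      rw [hf] at h1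
      simp only [h2, sub_zero] at h1
      exact h1
    · exact hmil t (ball_subset_ball e5 ht) μ (hμ t (ball_subset_ball e1 ht))
    · have ht' : ‖t‖ < ε := by simpa using ht
      have h1 := hcs t (ht'.trans_le e4) x hx (hPx.trans_le e4)
      refine hcrit t (ball_subset_ball e3 ht) x h1 fun k => ?_
      unfold pd
      rw [hx]
      rfl
    · exact ⟨R, κ, hR, hκ, fun t ht => hRκ t (ball_subset_ball e2 ht)⟩
    · intro M hM
      refine kummer_fam (d := d) hPa0 hPd (ρ := min ρ₁ (r₀ / 2)) (by positivity)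
        (fun t ht x hx h => hcrit t (ball_subset_ball (min_le_left _ _) ht) x
          (ball_subset_ball (min_le_left _ _) hx) h) hP0 hR hκ
        (fun t ht => hRκ t (ball_subset_ball (min_le_right _ _) ht)) M hM
  · obtain ⟨Ψ, h0, hΨ⟩ := tougeron hfa hL hPX (fun _ => True) (Eventually.of_forall fun _ => trivial)
    refine ⟨Ψ, h0, fun q hq => ?_⟩
    obtain ⟨h1, h2, h3, -, h4, h5⟩ := hΨ q hq
    refine ⟨h1, h2, ?_, h4, h5⟩
    rw [hf] at h3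
    exact h3

/-- **Top level reduction** of the theorem, second form: the polynomial family of one sufficiently
large degree is the original family in other coordinates; the degree may be chosen depending
on the germ `F ( , 0)` and on the exponent `L`. -/
theorem top' {μ : ℕ} {r : ℝ} (hr : 0 < r) {F : (Fin 3 → ℂ) → ℂ → ℂ} (hF : IsHolFamily r F)
    (hμ : ∀ t ∈ ball (0 : ℂ) r, Milnor (fun x => F x t) μ)
    (H : ∀ L : ℕ, ∃ d₁ : ℕ, ∀ d, d₁ ≤ d → ∀ (ε : ℝ) (P : PFam d ε ε), ε ≤ r →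
      GoodFam μ L d ε (fun x t => P.f t x) → Straight F (fun x t => P.f t x) →
      ∃ r', TopRightTrivial r' fun x t => P.f t x) : TopRightTrivial r F := by
  obtain ⟨L, d₀, ι, hι, β, a, r₀, hr₀, hd₀, hβ, ha, h⟩ := red' hr hF hμ
  obtain ⟨d₁, hd₁⟩ := H L
  obtain ⟨c, ε, hc, hεr, hε, hG, hS⟩ := h (max (max d₀ d₁) 5)
    ((le_max_left _ _).trans (le_max_left _ _))
  obtain ⟨P, hP⟩ := exists_pfam hβ ((le_max_left _ _).trans (le_max_left _ _))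
    (le_max_right _ _) ha hε hc hG
  have h1 : (fun x t => P.f t x) = PF a β c (max (max d₀ d₁) 5) := by
    funext x t
    exact hP t x
  obtain ⟨r', h2⟩ := hd₁ _ ((le_max_right d₀ d₁).trans (le_max_left _ _)) ε P hεr
    (by rw [h1]; exact hG) (by rw [h1]; exact hS)
  rw [h1] at h2
  exact hS.trans_triv hr h2

/-- **Top level reduction** of the theorem, in the form asked for by helper77. -/
theorem top_germ
    (H : ∀ (μ : ℕ) (f : (Fin 3 → ℂ) → ℂ), Hol f → f 0 = 0 → Milnor f μ → ∀ L : ℕ,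
      ∃ d₁ : ℕ, ∀ d, d₁ ≤ d → ∀ (ε : ℝ) (P : PFam d ε ε),
        GoodFam μ L d ε (fun x t => P.f t x) →
        (∃ ψ φ : (Fin 3 → ℂ) → (Fin 3 → ℂ), AnalyticAt ℂ ψ 0 ∧ ψ 0 = 0 ∧ AnalyticAt ℂ φ 0 ∧
          φ 0 = 0 ∧ (∀ᶠ x in 𝓝 0, φ (ψ x) = x) ∧ (∀ᶠ x in 𝓝 0, ψ (φ x) = x) ∧
          (∃ A : (Fin 3 → ℂ) ≃L[ℂ] (Fin 3 → ℂ),
            HasFDerivAt ψ (A : (Fin 3 → ℂ) →L[ℂ] (Fin 3 → ℂ)) 0) ∧
          ∀ᶠ x in 𝓝 0, f (ψ x) = P.f 0 x) →
        ∃ r', TopRightTrivial r' fun x t => P.f t x)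
    {μ : ℕ} {r : ℝ} (hr : 0 < r) {F : (Fin 3 → ℂ) → ℂ → ℂ} (hF : IsHolFamily r F)
    (hμ : ∀ t ∈ ball (0 : ℂ) r, Milnor (fun x => F x t) μ) : TopRightTrivial r F := by
  refine top' hr hF hμ fun L => ?_
  have h0 : (0 : ℂ) ∈ ball (0 : ℂ) r := mem_ball_self hr
  have hf : Hol fun x => F x 0 := by
    have h1 : AnalyticAt ℂ (fun x : Fin 3 → ℂ => (x, (0 : ℂ))) 0 :=
      analyticAt_id.prod analyticAt_const
    exact AnalyticAt.comp (g := fun q : (Fin 3 → ℂ) × ℂ => F q.1 q.2)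
      (f := fun x : Fin 3 → ℂ => (x, (0 : ℂ))) (hF 0 h0).1 h1
  obtain ⟨d₁, hd₁⟩ := H μ (fun x => F x 0) hf (hF 0 h0).2 (hμ 0 h0) L
  exact ⟨d₁, fun d hd ε P _ hG hS => hd₁ d hd ε P hG hS.germ⟩

end Vale.Agent.P298.H752
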