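import Vale.Agent.P298.H752.Red2
import Vale.Agent.P298.H379.Geo

/-!
# P298 (helper752): from good polynomial families to the families `PFam` of helper379,
and the top level reduction of the theorem
-/

namespace Vale.Agent.P298.H752

open Filter Topology Metric

open Vale.Agent.P298.H379 (Mon Q ev PFam)

/-- the vector of the coefficients of a polynomial of degree less than `d` -/
noncomputable def toQ (d : ℕ) (p : MvPolynomial (Fin 3) ℂ) : Q d (d - 1) := fun α =>
  p.coeff (Finsupp.equivFunOnFinite.symm fun i => (α.1 i : ℕ))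

theorem ev_toQ {d : ℕ} (hd : 1 ≤ d) (p : MvPolynomial (Fin 3) ℂ) (hp : p.totalDegree < d)
    (x : Fin 3 → ℂ) : ev (toQ d p) x = MvPolynomial.eval x p := by
  classical
  rw [MvPolynomial.eval_eq', ev]
  symm
  refine Finset.sum_bij_ne_zero (fun s hs _ => (⟨fun i => ⟨s i, ?_⟩, ?_⟩ : Mon d (d - 1)))
    ?_ ?_ ?_ ?_
  · have h1 := MvPolynomial.le_totalDegree hs
    rw [Finsupp.sum_fintype _ _ (fun _ => rfl)] at h1
    have h2 : s i ≤ ∑ i, s i := Finset.single_le_sum (f := fun i => s i)
      (fun _ _ => Nat.zero_le _) (Finset.mem_univ i)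
    omega
  · have h1 := MvPolynomial.le_totalDegree hs
    rw [Finsupp.sum_fintype _ _ (fun _ => rfl), Fin.sum_univ_three] at h1
    constructor
    · change s 0 + s 1 + s 2 ≤ d - 1
      omega
    · change s 2 < d
      omega
  · intro s hs _
    exact Finset.mem_univ _
  · intro s hs _ s' hs' _ h
    ext i
    have h1 := congrArg (fun α : Mon d (d - 1) => ((α.1 i : Fin (d - 1 + 1)) : ℕ)) h
    exact h1
  · intro α _ hα
    set s : Fin 3 →₀ ℕ := Finsupp.equivFunOnFinite.symm fun i => (α.1 i : ℕ) with hs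
    have h1 : p.coeff s ≠ 0 := fun h => hα (by
      have : toQ d p α = 0 := h
      rw [this, zero_mul])
    have hsi : ∀ i, s i = (α.1 i : ℕ) := fun i => rfl
    refine ⟨s, MvPolynomial.mem_support_iff.2 h1, ?_, ?_⟩
    · intro h
      apply hα
      rw [← h]
      rfl
    · apply Subtype.ext
      funext i
      exact Fin.ext (hsi i)
  · intro s hs _
    have h1 : toQ d p ⟨fun i => ⟨s i, by
        have h1 := MvPolynomial.le_totalDegree hs
        rw [Finsupp.sum_fintype _ _ (fun _ => rfl)] at h1
        have h2 : s i ≤ ∑ i, s i := Finset.single_le_sum (f := fun i => s i)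
          (fun _ _ => Nat.zero_le _) (Finset.mem_univ i)
        omega⟩, by
        have h1 := MvPolynomial.le_totalDegree hs
        rw [Finsupp.sum_fintype _ _ (fun _ => rfl), Fin.sum_univ_three] at h1
        constructor
        · change s 0 + s 1 + s 2 ≤ d - 1
          omega
        · change s 2 < d
          omega⟩ = p.coeff s := by
      unfold toQ
      congr 1
      ext i
      rfl
    rw [h1]

/-- a good polynomial family as a family in the sense of helper379 -/
theorem exists_pfam {μ L d d₀ : ℕ} {ε r₀ : ℝ} {ι : Type} [Fintype ι]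
    {β : ι → MvPolynomial (Fin 3) ℂ} {a : ι → ℂ → ℂ} {c : Fin 3 → ℂ}
    (hβ : ∀ i, (β i).totalDegree < d₀) (hd : d₀ ≤ d) (h5 : 5 ≤ d)
    (ha : ∀ i, ∀ t ∈ ball (0 : ℂ) r₀, AnalyticAt ℂ (a i) t) (hε : ε ≤ r₀) (hc : ∀ k, c k ≠ 0)
    (hG : GoodFam μ L d ε (PF a β c d)) :
    ∃ F : PFam d ε ε, ∀ t x, F.f t x = PF a β c d x t := by
  have hev : ∀ t x, ev (∑ i, a i t • toQ d (β i)) x =
      ∑ i, a i t * MvPolynomial.eval x (β i) := by
    intro t x
    have h1 : ∀ i, MvPolynomial.eval x (β i) = ev (toQ d (β i)) x := fun i =>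
      (ev_toQ (by omega) (β i) ((hβ i).trans_le hd) x).symm
    simp only [h1]
    unfold ev
    simp only [Finset.sum_apply, Pi.smul_apply, smul_eq_mul, Finset.sum_mul, Finset.mul_sum]
    rw [Finset.sum_comm]
    refine Finset.sum_congr rfl fun i _ => Finset.sum_congr rfl fun α _ => by ring
  have hfun : ∀ t, (fun x : Fin 3 → ℂ => ∑ i, c i * x i ^ d + ev (∑ i, a i t • toQ d (β i)) x) =
      fun x => PF a β c d x t := by
    intro t
    funext x
    rw [hev]
    unfold PF
    ring
  refine ⟨{ c := c
            a := fun t => ∑ i, a i t • toQ d (β i)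
            hd := h5
            hR := hG.pos
            hδ := hG.pos
            hc := hc
            holo := ?_
            zero := ?_
            crit := ?_ }, ?_⟩
  · intro t ht
    refine DifferentiableAt.differentiableWithinAt ?_
    refine DifferentiableAt.fun_sum fun i _ => ?_
    exact ((ha i t (ball_subset_ball hε ht)).differentiableAt).smul_const _
  · intro t ht
    have h1 := congrFun (hfun t) 0
    have h2 : PF a β c d 0 t = 0 := (hG.hol t ht).2
    rw [h2] at h1
    simpa [show d ≠ 0 by omega] using h1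
  · intro t ht x h1 h2
    rw [hfun t] at h2
    have h3 : ∑ i, c i * x i ^ d + ev (∑ i, a i t • toQ d (β i)) x = PF a β c d x t :=
      congrFun (hfun t) x
    rw [h3] at h1
    refine hG.crit t ht x ?_ h1
    ext v
    have h4 : v = ∑ k, v k • (Pi.single k (1 : ℂ) : Fin 3 → ℂ) := by
      funext i
      simp [Finset.sum_apply, Pi.single_apply]
    rw [h4, map_sum]
    refine Finset.sum_eq_zero fun k _ => ?_
    rw [map_smul]
    have h5 : fderiv ℂ (fun y => PF a β c d y t) x (Pi.single k 1) = 0 := h2 k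
    rw [h5, smul_zero]
  · intro t x
    exact congrFun (hfun t) x

/-- **Top level reduction** of the theorem: it is enough to treat the polynomial families `PFam`
of one sufficiently large degree, depending on the Milnor number and on the exponent `L`. -/
theorem top
    (H : ∀ μ L : ℕ, ∃ d₁ : ℕ, ∀ d, d₁ ≤ d → ∀ (ε : ℝ) (F : PFam d ε ε),
      GoodFam μ L d ε (fun x t => F.f t x) → ∃ r', TopRightTrivial r' fun x t => F.f t x)
    {r : ℝ} (hr : 0 < r) {F : (Fin 3 → ℂ) → ℂ → ℂ} (hF : IsHolFamily r F) {μ : ℕ}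
    (hμ : ∀ t ∈ ball (0 : ℂ) r, Milnor (fun x => F x t) μ) : TopRightTrivial r F := by
  refine reduction ?_ hr hF hμ
  intro μ L d₀ ι _ β a r₀ hr₀ hd₀ hβ ha
  obtain ⟨d₁, hd₁⟩ := H μ L
  refine ⟨max (max d₀ d₁) 5, (le_max_left _ _).trans (le_max_left _ _), ?_⟩
  intro c ε hc hε hG
  obtain ⟨P, hP⟩ := exists_pfam hβ ((le_max_left _ _).trans (le_max_left _ _))
    (le_max_right _ _) ha hε hc hG
  have h1 : (fun x t => P.f t x) = PF a β c (max (max d₀ d₁) 5) := by
    funext x t
    exact hP t x
  have h2 := hd₁ _ ((le_max_right d₀ d₁).trans (le_max_left _ _)) ε P (by rw [h1]; exact hG)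
  rw [h1] at h2
  exact h2

end Vale.Agent.P298.H752
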