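import Vale.Agent.P298.H752.ParDiv

/-!
# P298 (helper752): finite determinacy with parameters, by holomorphic changes of coordinates
-/

namespace Vale.Agent.P298.H752

open Filter Topology Module

variable {n : ℕ} {Λ : Type*} [NormedAddCommGroup Λ] [NormedSpace ℂ Λ]

/-- derivatives lower the order by one -/
theorem XPow.deriv {l₀ : Λ} {K : ℕ} {R : (Fin n → ℂ) × Λ → ℂ} (h : XPow l₀ (K + 1) R)
    (j : Fin n) : XPow l₀ K (fun p => fderiv ℂ R p (Pi.single j 1, 0)) := by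
  induction K generalizing R with
  | zero =>
    have h1 : AnalyticAt ℂ (fderiv ℂ R) (0, l₀) := h.analytic.fderiv
    exact an_clm_apply h1 analyticAt_const
  | succ K ih =>
    obtain ⟨ψ, hψ, hR⟩ := h
    have key : ∀ᶠ p in 𝓝 ((0 : Fin n → ℂ), l₀), fderiv ℂ R p (Pi.single j 1, 0) =
        ψ j p + ∑ i, p.1 i * fderiv ℂ (ψ i) p (Pi.single j 1, 0) := by
      filter_upwards [hR.eventually_nhds,
        eventually_all.2 fun i => (hψ i).analytic.eventually_analyticAt] with p hp h2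
      have h3 : fderiv ℂ R p = fderiv ℂ (fun q => ∑ i, q.1 i * ψ i q) p :=
        Filter.EventuallyEq.fderiv_eq hp
      have h4 : ∀ i, HasFDerivAt (fun q : (Fin n → ℂ) × Λ => q.1 i * ψ i q)
          (p.1 i • fderiv ℂ (ψ i) p + ψ i p •
            ((ContinuousLinearMap.proj (R := ℂ) (φ := fun _ : Fin n => ℂ) i).comp
              (ContinuousLinearMap.fst ℂ (Fin n → ℂ) Λ))) p := by
        intro i
        have h5 : HasFDerivAt (fun q : (Fin n → ℂ) × Λ => q.1 i)
            ((ContinuousLinearMap.proj (R := ℂ) (φ := fun _ : Fin n => ℂ) i).comp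
              (ContinuousLinearMap.fst ℂ (Fin n → ℂ) Λ)) p :=
          ((ContinuousLinearMap.proj (R := ℂ) (φ := fun _ : Fin n => ℂ) i).comp
              (ContinuousLinearMap.fst ℂ (Fin n → ℂ) Λ)).hasFDerivAt
        exact h5.mul (h2 i).differentiableAt.hasFDerivAt
      have h5 := HasFDerivAt.fun_sum (u := Finset.univ) fun i _ => h4 i
      rw [h3, h5.fderiv]
      simp [Finset.sum_add_distrib, Pi.single_apply, add_comm]
    refine XPow.congr (XPow.add (hψ j) (XPow.sum Finset.univ fun i _ => ?_)) key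
    exact (ih (hψ i)).coord_mul i

/-- products of two elements of the ideal -/
theorem two_fold {J : Type*} [Fintype J] {l₀ : Λ} {φ : J → (Fin n → ℂ) × Λ → ℂ} {L : ℕ}
    (hL : ∀ R, XPow l₀ L R → InId φ (0, l₀) R) {R : (Fin n → ℂ) × Λ → ℂ}
    (hR : XPow l₀ (2 + (L + L)) R) :
    ∃ r : J → J → (Fin n → ℂ) × Λ → ℂ, (∀ k l, XPow l₀ 2 (r k l)) ∧
      ∀ᶠ p in 𝓝 ((0 : Fin n → ℂ), l₀), R p = ∑ k, ∑ l, r k l p * (φ k p * φ l p) := by
  have h2 : ∀ v, XPow l₀ (L + L) v → ∃ c : J → J → (Fin n → ℂ) × Λ → ℂ,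
      (∀ k l, AnalyticAt ℂ (c k l) (0, l₀)) ∧
      ∀ᶠ p in 𝓝 ((0 : Fin n → ℂ), l₀), v p = ∑ k, ∑ l, c k l p * (φ k p * φ l p) := by
    intro v hv
    obtain ⟨S, _, a, b, ha, hb, h3⟩ := hv.split
    choose c hc hc2 using fun s => hL _ (ha s)
    choose d hd hd2 using fun s => hL _ (hb s)
    refine ⟨fun k l p => ∑ s, c s k p * d s l p,
      fun k l => Finset.analyticAt_fun_sum _ fun s _ => (hc s k).fun_mul (hd s l), ?_⟩
    filter_upwards [h3, eventually_all.2 hc2, eventually_all.2 hd2] with p h4 h5 h6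
    rw [h4]
    have h7 : ∀ s, a s p * b s p = ∑ k, ∑ l, (c s k p * d s l p) * (φ k p * φ l p) := by
      intro s
      rw [h5 s, h6 s, Finset.sum_mul]
      refine Finset.sum_congr rfl fun k _ => ?_
      rw [Finset.mul_sum]
      exact Finset.sum_congr rfl fun l _ => by ring
    simp only [h7]
    rw [Finset.sum_comm]
    refine Finset.sum_congr rfl fun k _ => ?_
    rw [Finset.sum_comm]
    refine Finset.sum_congr rfl fun l _ => ?_
    rw [Finset.sum_mul]
  obtain ⟨S, _, a, b, ha, hb, h3⟩ := hR.split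
  choose c hc hc2 using fun s => h2 _ (hb s)
  refine ⟨fun k l p => ∑ s, a s p * c s k l p,
    fun k l => XPow.sum _ fun s _ => (ha s).mul_right (hc s k l), ?_⟩
  filter_upwards [h3, eventually_all.2 hc2] with p h4 h5
  rw [h4]
  have h7 : ∀ s, a s p * b s p = ∑ k, ∑ l, (a s p * c s k l p) * (φ k p * φ l p) := by
    intro s
    rw [h5 s, Finset.mul_sum]
    refine Finset.sum_congr rfl fun k _ => ?_
    rw [Finset.mul_sum]
    exact Finset.sum_congr rfl fun l _ => by ring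
  simp only [h7]
  rw [Finset.sum_comm]
  refine Finset.sum_congr rfl fun k _ => ?_
  rw [Finset.sum_comm]
  refine Finset.sum_congr rfl fun l _ => ?_
  rw [Finset.sum_mul]

/-- second order Taylor formula -/
theorem taylor_two (l₀ : Λ) {f : (Fin n → ℂ) × Λ → ℂ} (hf : AnalyticAt ℂ f (0, l₀)) :
    ∃ η : Fin n → Fin n → (Fin n → ℂ) × ((Fin n → ℂ) × Λ) → ℂ,
      (∀ i j, AnalyticAt ℂ (η i j) (0, (0, l₀))) ∧
      ∀ᶠ z in 𝓝 ((0 : Fin n → ℂ), ((0 : Fin n → ℂ), l₀)),
        f (z.2.1 + z.1, z.2.2) = f z.2 + ∑ i, z.1 i * fderiv ℂ f z.2 (Pi.single i 1, 0) +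
          ∑ i, ∑ j, z.1 i * z.1 j * η i j z := by
  set φ : (Fin n → ℂ) × ((Fin n → ℂ) × Λ) → ℂ := fun z => f (z.2.1 + z.1, z.2.2) with hφ
  have hφa : AnalyticAt ℂ φ (0, (0, l₀)) := by
    have h1 : AnalyticAt ℂ (fun z : (Fin n → ℂ) × ((Fin n → ℂ) × Λ) => (z.2.1 + z.1, z.2.2))
        (0, (0, l₀)) := by
      have e1 : AnalyticAt ℂ (fun z : (Fin n → ℂ) × ((Fin n → ℂ) × Λ) => z.2.1)
          (0, (0, l₀)) := ((ContinuousLinearMap.fst ℂ (Fin n → ℂ) Λ).comp
            (ContinuousLinearMap.snd ℂ (Fin n → ℂ) ((Fin n → ℂ) × Λ))).analyticAt _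
      have e2 : AnalyticAt ℂ (fun z : (Fin n → ℂ) × ((Fin n → ℂ) × Λ) => z.2.2)
          (0, (0, l₀)) := ((ContinuousLinearMap.snd ℂ (Fin n → ℂ) Λ).comp
            (ContinuousLinearMap.snd ℂ (Fin n → ℂ) ((Fin n → ℂ) × Λ))).analyticAt _
      have e3 : AnalyticAt ℂ (fun z : (Fin n → ℂ) × ((Fin n → ℂ) × Λ) => z.1)
          (0, (0, l₀)) := analyticAt_fst
      exact (e1.fun_add e3).prod e2
    have h2 : AnalyticAt ℂ f ((fun z : (Fin n → ℂ) × ((Fin n → ℂ) × Λ) =>
        (z.2.1 + z.1, z.2.2)) (0, (0, l₀))) := by simpa using hf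
    exact AnalyticAt.comp (g := f) h2 h1
  obtain ⟨ψ, hψ, h1⟩ := exists_hadamard _ hφa
  choose η hη h2 using fun i => exists_hadamard _ (hψ i)
  refine ⟨η, hη, ?_⟩
  -- the first derivatives
  have h3 : ∀ᶠ q in 𝓝 ((0 : Fin n → ℂ), l₀), ∀ i,
      ψ i (0, q) = fderiv ℂ f q (Pi.single i 1, 0) := by
    filter_upwards [slice_eventually h1, eventually_all.2 fun i => slice_analytic (hψ i),
      hf.eventually_analyticAt] with q h4 h5 h6 i
    -- left side
    have e1 : HasFDerivAt (fun y : Fin n → ℂ => φ (y, q))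
        ((fderiv ℂ f q).comp (ContinuousLinearMap.inl ℂ (Fin n → ℂ) Λ)) 0 := by
      have e2 : HasFDerivAt (fun y : Fin n → ℂ => (q.1 + y, q.2))
          (ContinuousLinearMap.inl ℂ (Fin n → ℂ) Λ) 0 := by
        have e3 : HasFDerivAt (fun y : Fin n → ℂ => q.1 + y)
            (ContinuousLinearMap.id ℂ (Fin n → ℂ)) 0 :=
          (hasFDerivAt_id _).const_add _
        have e4 := e3.prodMk (hasFDerivAt_const q.2 (0 : Fin n → ℂ))
        exact e4
      have e5 : HasFDerivAt f (fderiv ℂ f q) ((fun y : Fin n → ℂ => (q.1 + y, q.2)) 0) := by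
        have : (fun y : Fin n → ℂ => (q.1 + y, q.2)) 0 = q := by simp
        rw [this]
        exact h6.differentiableAt.hasFDerivAt
      exact e5.comp 0 e2
    -- right side
    have e6 : ∀ k, HasFDerivAt (fun y : Fin n → ℂ => y k * ψ k (y, q))
        ((0 : ℂ) • fderiv ℂ (fun y : Fin n → ℂ => ψ k (y, q)) 0 + ψ k (0, q) •
          (ContinuousLinearMap.proj (R := ℂ) (φ := fun _ : Fin n => ℂ) k)) 0 := by
      intro k
      have e7 : HasFDerivAt (fun y : Fin n → ℂ => y k)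
          (ContinuousLinearMap.proj (R := ℂ) (φ := fun _ : Fin n => ℂ) k) 0 :=
        (ContinuousLinearMap.proj (R := ℂ) (φ := fun _ : Fin n => ℂ) k).hasFDerivAt
      exact e7.mul (h5 k).differentiableAt.hasFDerivAt
    have e8 := (HasFDerivAt.fun_sum (u := Finset.univ) fun k _ => e6 k).const_add (φ (0, q))
    have e9 : HasFDerivAt (fun y : Fin n → ℂ => φ (y, q)) _ 0 :=
      e8.congr_of_eventuallyEq h4
    have e10 := congrArg (fun T : (Fin n → ℂ) →L[ℂ] ℂ => T (Pi.single i 1)) (e1.unique e9)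
    simp [Pi.single_apply] at e10
    exact e10.symm
  have t2 : Tendsto (fun z : (Fin n → ℂ) × ((Fin n → ℂ) × Λ) => z.2)
      (𝓝 ((0 : Fin n → ℂ), ((0 : Fin n → ℂ), l₀))) (𝓝 (0, l₀)) :=
    (continuous_snd (X := Fin n → ℂ) (Y := (Fin n → ℂ) × Λ)).tendsto _
  filter_upwards [h1, eventually_all.2 h2, t2.eventually h3] with z h4 h5 h6
  change φ z = _
  rw [h4]
  have h7 : φ (0, z.2) = f z.2 := by simp [hφ]
  rw [h7, add_assoc]
  congr 1
  rw [← Finset.sum_add_distrib]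
  refine Finset.sum_congr rfl fun i _ => ?_
  rw [h5 i, h6 i, mul_add, Finset.mul_sum]
  congr 1
  exact Finset.sum_congr rfl fun j _ => by ring

end Vale.Agent.P298.H752
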