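import Vale.Agent.P298.H752.Tougeron

/-!
# P298 (helper752): finite determinacy with parameters, the change of coordinates
-/

namespace Vale.Agent.P298.H752

open Filter Topology Module

/-- inverse function theorem for analytic maps with derivative the identity -/
theorem localHomeo {Q : Type*} [NormedAddCommGroup Q] [NormedSpace ℂ Q] [CompleteSpace Q]
    {Θ : Q → Q} {p₀ : Q} (hΘ : AnalyticAt ℂ Θ p₀)
    (hd : HasFDerivAt Θ (ContinuousLinearMap.id ℂ Q) p₀) (P : Q → Prop)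
    (hP : ∀ᶠ q in 𝓝 p₀, P q) :
    ∃ e : OpenPartialHomeomorph Q Q, p₀ ∈ e.source ∧ (∀ q, e q = Θ q) ∧
      ∀ q ∈ e.source, P q ∧ AnalyticAt ℂ e q ∧ AnalyticAt ℂ e.symm (e q) := by
  have hs : HasStrictFDerivAt Θ ((ContinuousLinearEquiv.refl ℂ Q : Q ≃L[ℂ] Q) : Q →L[ℂ] Q) p₀ := by
    have h1 := hΘ.hasStrictFDerivAt
    rw [hd.fderiv] at h1
    exact h1
  set e0 := hs.toOpenPartialHomeomorph Θ with he0
  have hcoe : ∀ q, e0 q = Θ q := fun q => rfl
  have hsrc : p₀ ∈ e0.source := hs.mem_toOpenPartialHomeomorph_source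
  have hsymm : AnalyticAt ℂ e0.symm (e0 p₀) :=
    e0.analyticAt_symm' (i := ContinuousLinearEquiv.refl ℂ Q) hsrc hΘ hd.fderiv
  have h1 : ∀ᶠ q in 𝓝 p₀, AnalyticAt ℂ e0.symm (Θ q) :=
    hΘ.continuousAt.eventually hsymm.eventually_analyticAt
  obtain ⟨s, hs1, hs2, hs3⟩ := eventually_nhds_iff.1
    ((h1.and hΘ.eventually_analyticAt).and hP)
  refine ⟨e0.restrOpen s hs2, ?_, hcoe, ?_⟩
  · rw [OpenPartialHomeomorph.restrOpen_source]
    exact ⟨hsrc, hs3⟩
  · intro q hq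
    rw [OpenPartialHomeomorph.restrOpen_source] at hq
    obtain ⟨⟨h2, h3⟩, h4⟩ := hs1 q hq.2
    exact ⟨h4, h3, h2⟩

/-- a product of two functions vanishing at a point has derivative zero there -/
theorem hasFDerivAt_mul_zero {Z : Type*} [NormedAddCommGroup Z] [NormedSpace ℂ Z]
    {a b : Z → ℂ} {z : Z} (ha : AnalyticAt ℂ a z) (hb : AnalyticAt ℂ b z) (ha0 : a z = 0)
    (hb0 : b z = 0) : HasFDerivAt (fun w => a w * b w) (0 : Z →L[ℂ] ℂ) z := by
  have h1 : HasFDerivAt (fun w => a w * b w) (a z • fderiv ℂ b z + b z • fderiv ℂ a z) z :=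
    ha.differentiableAt.hasFDerivAt.mul hb.differentiableAt.hasFDerivAt
  have h3 : a z • fderiv ℂ b z + b z • fderiv ℂ a z = 0 := by
    rw [ha0, hb0]
    ext v
    simp
  exact h3 ▸ h1

variable {n : ℕ} {Λ : Type*} [NormedAddCommGroup Λ] [NormedSpace ℂ Λ]

theorem XPow.hasFDerivAt_zero {l₀ : Λ} {r : (Fin n → ℂ) × Λ → ℂ} (h : XPow l₀ 2 r) :
    HasFDerivAt r (0 : ((Fin n → ℂ) × Λ) →L[ℂ] ℂ) (0, l₀) := by
  obtain ⟨ψ, hψ, h1⟩ := h
  have h2 : ∀ i, HasFDerivAt (fun p : (Fin n → ℂ) × Λ => p.1 i * ψ i p)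
      (0 : ((Fin n → ℂ) × Λ) →L[ℂ] ℂ) (0, l₀) := fun i =>
    hasFDerivAt_mul_zero (analyticAt_coord _ i) (hψ i).analytic (by simp)
      ((hψ i).eq_zero_axis.self_of_nhds)
  have h3 := HasFDerivAt.fun_sum (u := Finset.univ) fun i _ => h2 i
  rw [Finset.sum_const_zero] at h3
  exact h3.congr_of_eventuallyEq h1

/-- **Finite determinacy with parameters** (Tougeron): a perturbation of high order of `f` is
obtained from `f` by a holomorphic change of the coordinates `x`. -/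
theorem tougeron [CompleteSpace Λ] {l₀ : Λ} {f g : (Fin n → ℂ) × Λ → ℂ}
    (hf : AnalyticAt ℂ f (0, l₀)) {L : ℕ}
    (hL : ∀ R, XPow l₀ L R → InId (fun k p => fderiv ℂ f p (Pi.single k 1, 0)) (0, l₀) R)
    (hfg : XPow l₀ (2 + (L + L)) (fun p => g p - f p))
    (P : (Fin n → ℂ) × Λ → Prop) (hP : ∀ᶠ q in 𝓝 ((0 : Fin n → ℂ), l₀), P q) :
    ∃ Ψ : OpenPartialHomeomorph ((Fin n → ℂ) × Λ) ((Fin n → ℂ) × Λ), (0, l₀) ∈ Ψ.source ∧
      ∀ q ∈ Ψ.source, (Ψ q).2 = q.2 ∧ (q.1 = 0 → Ψ q = q) ∧ f (Ψ q) = g q ∧ P q ∧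
        AnalyticAt ℂ Ψ q ∧ AnalyticAt ℂ Ψ.symm (Ψ q) := by
  classical
  set D : Fin n → (Fin n → ℂ) × Λ → ℂ := fun k p => fderiv ℂ f p (Pi.single k 1, 0) with hD
  have hDa : ∀ k, AnalyticAt ℂ (D k) (0, l₀) := fun k => an_clm_apply hf.fderiv analyticAt_const
  obtain ⟨r, hr, hrfg⟩ := two_fold hL hfg
  obtain ⟨η, hη, htay⟩ := taylor_two l₀ hf
  let z₀ : ((Fin n → ℂ) × Λ) × (Fin n → Fin n → ℂ) := ((0, l₀), 0)
  have hentry : ∀ a b, AnalyticAt ℂ (fun z : ((Fin n → ℂ) × Λ) × (Fin n → Fin n → ℂ) => z.2 a b) z₀ := fun a b =>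
    ((ContinuousLinearMap.proj (R := ℂ) (φ := fun _ : Fin n => ℂ) b).comp
      ((ContinuousLinearMap.proj (R := ℂ) (φ := fun _ : Fin n => Fin n → ℂ) a).comp
        (ContinuousLinearMap.snd ℂ ((Fin n → ℂ) × Λ) (Fin n → Fin n → ℂ)))).analyticAt _
  let Y : ((Fin n → ℂ) × Λ) × (Fin n → Fin n → ℂ) → (Fin n → ℂ) := fun z k => ∑ l, z.2 k l * D l z.1
  have hY0 : ∀ q, Y (q, 0) = 0 := fun q => by
    funext k
    simp [Y]
  have hYa : AnalyticAt ℂ Y z₀ := by
    refine analyticAt_pi_iff.2 fun k => Finset.analyticAt_fun_sum _ fun l _ => ?_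
    have h1 : AnalyticAt ℂ (D l) (z₀).1 := hDa l
    exact (hentry k l).fun_mul (h1.comp analyticAt_fst)
  have hηa : ∀ a b, AnalyticAt ℂ
      (fun z : ((Fin n → ℂ) × Λ) × (Fin n → Fin n → ℂ) => η a b (Y z, z.1)) z₀ := by
    intro a b
    have h1 : AnalyticAt ℂ (fun z : ((Fin n → ℂ) × Λ) × (Fin n → Fin n → ℂ) => (Y z, z.1)) z₀ :=
      hYa.prod analyticAt_fst
    have h2 : AnalyticAt ℂ (η a b) ((fun z : ((Fin n → ℂ) × Λ) × (Fin n → Fin n → ℂ) => (Y z, z.1)) z₀) := by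
      change AnalyticAt ℂ (η a b) (Y z₀, z₀.1)
      rw [show Y z₀ = 0 from hY0 _]
      exact hη a b
    exact AnalyticAt.comp (g := η a b) h2 h1
  let N : ((Fin n → ℂ) × Λ) × (Fin n → Fin n → ℂ) → (Fin n → Fin n → ℂ) := fun z k l =>
    ∑ a, ∑ b, z.2 a k * (z.2 b l * η a b (Y z, z.1))
  have hNa : AnalyticAt ℂ N z₀ := by
    refine analyticAt_pi_iff.2 fun k => analyticAt_pi_iff.2 fun l => ?_
    exact Finset.analyticAt_fun_sum _ fun a _ => Finset.analyticAt_fun_sum _ fun b _ =>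
      (hentry a k).fun_mul ((hentry b l).fun_mul (hηa a b))
  have hNd : HasFDerivAt N (0 : (((Fin n → ℂ) × Λ) × (Fin n → Fin n → ℂ)) →L[ℂ] (Fin n → Fin n → ℂ)) z₀ := by
    refine hasFDerivAt_pi'' fun k => hasFDerivAt_pi'' fun l => ?_
    have h1 : ∀ a b, HasFDerivAt
        (fun z : ((Fin n → ℂ) × Λ) × (Fin n → Fin n → ℂ) => z.2 a k * (z.2 b l * η a b (Y z, z.1)))
        (0 : (((Fin n → ℂ) × Λ) × (Fin n → Fin n → ℂ)) →L[ℂ] ℂ) z₀ := fun a b =>
      hasFDerivAt_mul_zero (hentry a k) ((hentry b l).fun_mul (hηa a b)) (by simp [z₀])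
        (by simp [z₀])
    have h2 := HasFDerivAt.fun_sum (u := Finset.univ) fun a _ =>
      HasFDerivAt.fun_sum (u := Finset.univ) fun b _ => h1 a b
    simp only [Finset.sum_const_zero] at h2
    simpa using h2
  have hN0 : ∀ q, N (q, 0) = 0 := fun q => by
    funext k l
    simp [N]
  let Θ : ((Fin n → ℂ) × Λ) × (Fin n → Fin n → ℂ) → ((Fin n → ℂ) × Λ) × (Fin n → Fin n → ℂ) := fun z => (z.1, z.2 + N z)
  have hΘa : AnalyticAt ℂ Θ z₀ := analyticAt_fst.prod (analyticAt_snd.fun_add hNa)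
  have hΘd : HasFDerivAt Θ (ContinuousLinearMap.id ℂ (((Fin n → ℂ) × Λ) × (Fin n → Fin n → ℂ))) z₀ := by
    have h1 := (hasFDerivAt_fst (𝕜 := ℂ) (p := z₀)).prodMk
      ((hasFDerivAt_snd (𝕜 := ℂ) (p := z₀)).add hNd)
    rw [add_zero] at h1
    exact h1
  obtain ⟨e, he0, heΘ, he⟩ := localHomeo hΘa hΘd (fun _ => True) (by simp)
  have hez : e z₀ = z₀ := by
    rw [heΘ]
    change ((z₀).1, (z₀).2 + N z₀) = z₀
    rw [show N z₀ = 0 from hN0 _]
    simp
  let ρ : (Fin n → ℂ) × Λ → (Fin n → Fin n → ℂ) := fun q k l => r k l q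
  have hρa : AnalyticAt ℂ ρ (0, l₀) :=
    analyticAt_pi_iff.2 fun k => analyticAt_pi_iff.2 fun l => (hr k l).analytic
  have hρ0 : ∀ᶠ l in 𝓝 l₀, ρ (0, l) = 0 := by
    filter_upwards [eventually_all.2 fun k => eventually_all.2 fun l => (hr k l).eq_zero_axis]
      with l hl
    funext k j
    exact hl k j
  have hρd : HasFDerivAt ρ (0 : ((Fin n → ℂ) × Λ) →L[ℂ] (Fin n → Fin n → ℂ)) (0, l₀) := by
    refine hasFDerivAt_pi'' fun k => hasFDerivAt_pi'' fun l => ?_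
    simpa using (hr k l).hasFDerivAt_zero
  have hgr : AnalyticAt ℂ (fun q => (q, ρ q)) ((0 : Fin n → ℂ), l₀) := analyticAt_id.prod hρa
  have hgr0 : ((((0 : Fin n → ℂ), l₀) : (Fin n → ℂ) × Λ), ρ (0, l₀)) = z₀ := by
    rw [hρ0.self_of_nhds]
  have hsymm : AnalyticAt ℂ e.symm z₀ := by
    have := (he z₀ he0).2.2
    rwa [hez] at this
  have hesz : e.symm z₀ = z₀ := by
    conv_lhs => rw [← hez]
    exact e.left_inv he0
  let u : (Fin n → ℂ) × Λ → (Fin n → Fin n → ℂ) := fun q => (e.symm (q, ρ q)).2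
  have hsg : AnalyticAt ℂ (fun q => e.symm (q, ρ q)) ((0 : Fin n → ℂ), l₀) := by
    have h1 : AnalyticAt ℂ e.symm ((fun q => (q, ρ q)) ((0 : Fin n → ℂ), l₀)) := by
      change AnalyticAt ℂ e.symm ((((0 : Fin n → ℂ), l₀) : (Fin n → ℂ) × Λ), ρ (0, l₀))
      rw [hgr0]
      exact hsymm
    exact AnalyticAt.comp (g := e.symm) h1 hgr
  have hua : AnalyticAt ℂ u (0, l₀) := analyticAt_snd.comp hsg
  have hu0 : u (0, l₀) = 0 := by
    change (e.symm ((((0 : Fin n → ℂ), l₀) : (Fin n → ℂ) × Λ), ρ (0, l₀))).2 = 0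
    rw [hgr0, hesz]
  -- the equation
  have hgc : Tendsto (fun q => (q, ρ q)) (𝓝 ((0 : Fin n → ℂ), l₀)) (𝓝 z₀) := by
    have := hgr.continuousAt.tendsto
    change Tendsto (fun q => (q, ρ q)) (𝓝 ((0 : Fin n → ℂ), l₀))
      (𝓝 ((((0 : Fin n → ℂ), l₀) : (Fin n → ℂ) × Λ), ρ (0, l₀))) at this
    rwa [hgr0] at this
  have hz0t : z₀ ∈ e.target := by
    have := e.map_source he0
    rwa [hez] at this
  have hsol : ∀ᶠ q in 𝓝 ((0 : Fin n → ℂ), l₀), u q + N (q, u q) = ρ q := by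
    filter_upwards [hgc.eventually (e.open_target.mem_nhds hz0t)] with q hq
    have h1 : e (e.symm (q, ρ q)) = (q, ρ q) := e.right_inv hq
    rw [heΘ] at h1
    have h2 : (e.symm (q, ρ q)).1 = q := congrArg Prod.fst h1
    have h3 : (e.symm (q, ρ q)).2 + N (e.symm (q, ρ q)) = ρ q := congrArg Prod.snd h1
    have h4 : e.symm (q, ρ q) = (q, u q) := Prod.ext h2 rfl
    rw [h4] at h3
    exact h3
  have haxis : ∀ᶠ l in 𝓝 l₀, u (0, l) = 0 := by
    have ht : Tendsto (fun l : Λ => ((((0 : Fin n → ℂ), l) : (Fin n → ℂ) × Λ), (0 : Fin n → Fin n → ℂ)))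
        (𝓝 l₀) (𝓝 z₀) := Continuous.tendsto (by fun_prop) l₀
    filter_upwards [hρ0, ht.eventually (e.open_source.mem_nhds he0)] with l h1 h2
    change (e.symm ((0, l), ρ (0, l))).2 = 0
    rw [h1]
    have h3 : e ((((0 : Fin n → ℂ), l) : (Fin n → ℂ) × Λ), (0 : Fin n → Fin n → ℂ)) = ((0, l), 0) := by
      rw [heΘ]
      change (((0 : Fin n → ℂ), l), (0 : Fin n → Fin n → ℂ) + N ((0, l), 0)) = _
      rw [hN0, add_zero]
    have h4 := e.left_inv h2
    rw [h3] at h4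
    rw [h4]
  -- derivative of `u`
  have hud : HasFDerivAt u (0 : ((Fin n → ℂ) × Λ) →L[ℂ] (Fin n → Fin n → ℂ)) (0, l₀) := by
    have h1 : HasFDerivAt u (fderiv ℂ u (0, l₀)) (0, l₀) := hua.differentiableAt.hasFDerivAt
    have h2 : HasFDerivAt (fun q => (q, u q)) ((ContinuousLinearMap.id ℂ _).prod
        (fderiv ℂ u (0, l₀))) ((0 : Fin n → ℂ), l₀) := (hasFDerivAt_id _).prodMk h1
    have h3 : HasFDerivAt N (0 : (((Fin n → ℂ) × Λ) × (Fin n → Fin n → ℂ)) →L[ℂ] (Fin n → Fin n → ℂ))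
        ((fun q => (q, u q)) ((0 : Fin n → ℂ), l₀)) := by
      change HasFDerivAt N _ ((((0 : Fin n → ℂ), l₀) : (Fin n → ℂ) × Λ), u (0, l₀))
      rw [hu0]
      exact hNd
    have h4 := h1.add (h3.comp ((0 : Fin n → ℂ), l₀) h2)
    rw [ContinuousLinearMap.zero_comp, add_zero] at h4
    have h5 : HasFDerivAt ρ (fderiv ℂ u (0, l₀)) (0, l₀) :=
      h4.congr_of_eventuallyEq (hsol.mono fun q hq => hq.symm)
    rw [← h5.unique hρd]
    exact h1
  -- the change of coordinates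
  let ψ : (Fin n → ℂ) × Λ → (Fin n → ℂ) × Λ := fun q => (q.1 + Y (q, u q), q.2)
  have hYu : AnalyticAt ℂ (fun q => Y (q, u q)) ((0 : Fin n → ℂ), l₀) := by
    have h1 : AnalyticAt ℂ (fun q => (q, u q)) ((0 : Fin n → ℂ), l₀) := analyticAt_id.prod hua
    have h2 : AnalyticAt ℂ Y ((fun q => (q, u q)) ((0 : Fin n → ℂ), l₀)) := by
      change AnalyticAt ℂ Y ((((0 : Fin n → ℂ), l₀) : (Fin n → ℂ) × Λ), u (0, l₀))
      rw [hu0]
      exact hYa
    exact AnalyticAt.comp (g := Y) h2 h1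
  have hψa : AnalyticAt ℂ ψ (0, l₀) := (analyticAt_fst.fun_add hYu).prod analyticAt_snd
  have hYd : HasFDerivAt (fun q => Y (q, u q)) (0 : ((Fin n → ℂ) × Λ) →L[ℂ] (Fin n → ℂ))
      ((0 : Fin n → ℂ), l₀) := by
    refine hasFDerivAt_pi'' fun k => ?_
    have h1 : ∀ l, HasFDerivAt (fun q => u q k l * D l q)
        (0 : ((Fin n → ℂ) × Λ) →L[ℂ] ℂ) (0, l₀) := by
      intro l
      have h2 : HasFDerivAt (fun q => u q k l) (0 : ((Fin n → ℂ) × Λ) →L[ℂ] ℂ) (0, l₀) := by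
        have h4 := ((ContinuousLinearMap.proj (R := ℂ) (φ := fun _ : Fin n => ℂ) l).comp
          (ContinuousLinearMap.proj (R := ℂ) (φ := fun _ : Fin n => Fin n → ℂ) k)).hasFDerivAt.comp
          ((0 : Fin n → ℂ), l₀) hud
        rw [ContinuousLinearMap.comp_zero] at h4
        exact h4
      have h5 : HasFDerivAt (fun q => u q k l * D l q) (u (0, l₀) k l • fderiv ℂ (D l) (0, l₀) +
          D l (0, l₀) • (0 : ((Fin n → ℂ) × Λ) →L[ℂ] ℂ)) (0, l₀) :=
        h2.mul (hDa l).differentiableAt.hasFDerivAt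
      have h6 : u (0, l₀) k l = 0 := by rw [hu0]; rfl
      have h7 : u (0, l₀) k l • fderiv ℂ (D l) (0, l₀) +
          D l (0, l₀) • (0 : ((Fin n → ℂ) × Λ) →L[ℂ] ℂ) = 0 := by
        rw [h6]
        ext v <;> simp
      exact h7 ▸ h5
    have h2 := HasFDerivAt.fun_sum (u := Finset.univ) fun l _ => h1 l
    simp only [Finset.sum_const_zero] at h2
    simpa using h2
  have hψd : HasFDerivAt ψ (ContinuousLinearMap.id ℂ ((Fin n → ℂ) × Λ)) (0, l₀) := by
    have h1 := ((hasFDerivAt_fst (𝕜 := ℂ) (p := ((0 : Fin n → ℂ), l₀))).add hYd).prodMk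
      (hasFDerivAt_snd (𝕜 := ℂ) (p := ((0 : Fin n → ℂ), l₀)))
    rw [add_zero] at h1
    exact h1
  -- the main identity
  have hmain : ∀ᶠ q in 𝓝 ((0 : Fin n → ℂ), l₀), f (ψ q) = g q := by
    have ht : Tendsto (fun q => (Y (q, u q), q)) (𝓝 ((0 : Fin n → ℂ), l₀))
        (𝓝 ((0 : Fin n → ℂ), ((0 : Fin n → ℂ), l₀))) := by
      have h1 : ContinuousAt (fun q => (Y (q, u q), q)) ((0 : Fin n → ℂ), l₀) :=
        hYu.continuousAt.prodMk continuousAt_id
      have h2 : Y ((0, l₀), u (0, l₀)) = 0 := by rw [hu0, hY0]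
      have h3 := h1.tendsto
      rwa [h2] at h3
    filter_upwards [ht.eventually htay, hsol, hrfg] with q h1 h2 h3
    change f (q.1 + Y (q, u q), q.2) = g q
    have h1' : f (q.1 + Y (q, u q), q.2) = f q + ∑ i, Y (q, u q) i * D i q +
        ∑ i, ∑ j, Y (q, u q) i * Y (q, u q) j * η i j (Y (q, u q), q) := h1
    have h4 : ∀ k l, u q k l + N (q, u q) k l = r k l q := fun k l => by
      have := congrFun (congrFun h2 k) l
      exact this
    have h5 : ∑ i, Y (q, u q) i * D i q = ∑ k, ∑ l, u q k l * (D k q * D l q) := by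
      refine Finset.sum_congr rfl fun k _ => ?_
      change (∑ l, u q k l * D l q) * D k q = _
      rw [Finset.sum_mul]
      exact Finset.sum_congr rfl fun l _ => by ring
    have h6 : ∑ i, ∑ j, Y (q, u q) i * Y (q, u q) j * η i j (Y (q, u q), q) =
        ∑ k, ∑ l, N (q, u q) k l * (D k q * D l q) := by
      have e1 : ∀ i j, Y (q, u q) i * Y (q, u q) j * η i j (Y (q, u q), q) =
          ∑ k, ∑ l, (u q i k * (u q j l * η i j (Y (q, u q), q))) * (D k q * D l q) := by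
        intro i j
        change (∑ k, u q i k * D k q) * (∑ l, u q j l * D l q) * _ = _
        rw [Finset.sum_mul_sum, Finset.sum_mul]
        refine Finset.sum_congr rfl fun k _ => ?_
        rw [Finset.sum_mul]
        exact Finset.sum_congr rfl fun l _ => by ring
      simp only [e1]
      have e2 : ∀ k l, N (q, u q) k l * (D k q * D l q) =
          ∑ i, ∑ j, (u q i k * (u q j l * η i j (Y (q, u q), q))) * (D k q * D l q) := by
        intro k l
        change (∑ a, ∑ b, u q a k * (u q b l * η a b (Y (q, u q), q))) * _ = _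
        rw [Finset.sum_mul]
        refine Finset.sum_congr rfl fun a _ => ?_
        rw [Finset.sum_mul]
      simp only [e2]
      -- exchange of the sums
      calc ∑ i, ∑ j, ∑ k, ∑ l, (u q i k * (u q j l * η i j (Y (q, u q), q))) * (D k q * D l q)
          = ∑ i, ∑ k, ∑ j, ∑ l, (u q i k * (u q j l * η i j (Y (q, u q), q))) *
              (D k q * D l q) := Finset.sum_congr rfl fun i _ => Finset.sum_comm
        _ = ∑ k, ∑ i, ∑ j, ∑ l, (u q i k * (u q j l * η i j (Y (q, u q), q))) *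
              (D k q * D l q) := Finset.sum_comm
        _ = ∑ k, ∑ i, ∑ l, ∑ j, (u q i k * (u q j l * η i j (Y (q, u q), q))) *
              (D k q * D l q) := Finset.sum_congr rfl fun k _ =>
                Finset.sum_congr rfl fun i _ => Finset.sum_comm
        _ = ∑ k, ∑ l, ∑ i, ∑ j, (u q i k * (u q j l * η i j (Y (q, u q), q))) *
              (D k q * D l q) := Finset.sum_congr rfl fun k _ => Finset.sum_comm
    rw [h1', h5, h6, add_assoc, ← Finset.sum_add_distrib]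
    have h7 : ∑ k, (∑ l, u q k l * (D k q * D l q) + ∑ l, N (q, u q) k l * (D k q * D l q)) =
        ∑ k, ∑ l, r k l q * (D k q * D l q) := by
      refine Finset.sum_congr rfl fun k _ => ?_
      rw [← Finset.sum_add_distrib]
      refine Finset.sum_congr rfl fun l _ => ?_
      rw [← h4 k l]
      ring
    rw [h7, ← h3]
    ring
  have haxis2 : ∀ᶠ q in 𝓝 ((0 : Fin n → ℂ), l₀), q.1 = 0 → ψ q = q := by
    have ht : Tendsto (fun q : (Fin n → ℂ) × Λ => q.2) (𝓝 ((0 : Fin n → ℂ), l₀)) (𝓝 l₀) :=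
      (continuous_snd (X := Fin n → ℂ) (Y := Λ)).tendsto _
    filter_upwards [ht.eventually haxis] with q h1 h2
    obtain ⟨x, l⟩ := q
    simp only at h1 h2
    subst h2
    change (0 + Y ((0, l), u (0, l)), l) = _
    rw [h1, hY0, add_zero]
  obtain ⟨Ψ, h1, h2, h3⟩ := localHomeo hψa hψd (fun q => (q.1 = 0 → ψ q = q) ∧ f (ψ q) = g q ∧ P q)
    (haxis2.and (hmain.and hP))
  refine ⟨Ψ, h1, fun q hq => ?_⟩
  obtain ⟨⟨h4, h5, h6⟩, h7, h8⟩ := h3 q hq
  rw [h2 q]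
  refine ⟨rfl, h4, h5, h6, h7, ?_⟩
  rwa [h2 q] at h8

end Vale.Agent.P298.H752
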