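import Vale.Agent.P298.H752.Tougeron2

/-!
# P298 (helper752): transfer of the Milnor number and of topological triviality
-/

namespace Vale.Agent.P298.H752

open Filter Topology Module Metric

variable {n : ℕ}

/-- the partial derivative `∂f/∂x_k`, as a function of `(x, t)` -/
noncomputable def PD {n : ℕ} (f : (Fin n → ℂ) × ℂ → ℂ) (k : Fin n) (p : (Fin n → ℂ) × ℂ) : ℂ :=
  fderiv ℂ f p (Pi.single k 1, 0)

theorem PD_eq_pd {F : (Fin n → ℂ) → ℂ → ℂ} {p : (Fin n → ℂ) × ℂ}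
    (h : AnalyticAt ℂ (fun q : (Fin n → ℂ) × ℂ => F q.1 q.2) p) (k : Fin n) :
    PD (fun q => F q.1 q.2) k p = pd k (fun x => F x p.2) p.1 :=
  (pd_eq_dX h k).symm

/-- A perturbation of high order has the same ideal of partial derivatives. -/
theorem same_ideal {f g : (Fin n → ℂ) × ℂ → ℂ} {t₀ : ℂ} {L : ℕ}
    (hf : AnalyticAt ℂ f (0, t₀)) (hg : AnalyticAt ℂ g (0, t₀))
    (hL : ∀ R, XPow t₀ L R → InId (PD f) (0, t₀) R)
    (hfg : XPow t₀ (L + 2) (fun p => g p - f p)) :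
    (∀ k, InId (PD f) (0, t₀) (PD g k)) ∧ (∀ k, InId (PD g) (0, t₀) (PD f k)) := by
  classical
  have hD : ∀ k, ∃ A : Fin n → (Fin n → ℂ) × ℂ → ℂ, (∀ j, AnalyticAt ℂ (A j) (0, t₀)) ∧
      (∀ j, A j (0, t₀) = 0) ∧
      ∀ᶠ p in 𝓝 ((0 : Fin n → ℂ), t₀), PD g k p - PD f k p = ∑ j, A j p * PD f j p := by
    intro k
    have h1 : XPow t₀ (L + 1) (fun p => PD g k p - PD f k p) := by
      refine (hfg.deriv k).congr ?_
      filter_upwards [hf.eventually_analyticAt, hg.eventually_analyticAt] with p h2 h3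
      have h4 : fderiv ℂ (fun p => g p - f p) p = fderiv ℂ g p - fderiv ℂ f p :=
        fderiv_fun_sub h3.differentiableAt h2.differentiableAt
      rw [h4]
      rfl
    obtain ⟨ψ, hψ, h2⟩ := h1
    choose c hc hc2 using fun i => hL _ (hψ i)
    refine ⟨fun j p => ∑ i, p.1 i * c i j p, fun j => ?_, fun j => by simp, ?_⟩
    · exact Finset.analyticAt_fun_sum _ fun i _ => (analyticAt_coord _ i).fun_mul (hc i j)
    · filter_upwards [h2, eventually_all.2 hc2] with p h3 h4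
      rw [h3]
      simp only [Finset.sum_mul]
      rw [Finset.sum_comm]
      refine Finset.sum_congr rfl fun i _ => ?_
      rw [h4 i, Finset.mul_sum]
      exact Finset.sum_congr rfl fun j _ => by ring
  choose A hA hA0 hAg using hD
  constructor
  · intro k
    refine InId.congr (InId.add (InId.self k)
      (InId.sum Finset.univ (f := fun j p => A k j p * PD f j p)
        fun j _ => (InId.self j).mul_left (hA k j))) ?_
    filter_upwards [hAg k] with p hp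
    rw [← hp]
    ring
  · obtain ⟨d, hd, hd2⟩ := solve_system (PD f) (PD g) (fun k j p => -A k j p)
      (fun k j => (hA k j).fun_neg) (fun k j => by rw [hA0, neg_zero])
      (fun i j _ => if j = i then 1 else 0) (fun i j => analyticAt_const) (by
        filter_upwards [eventually_all.2 hAg] with p hp i
        have h1 : ∑ j, (if j = i then (1 : ℂ) else 0) * PD g j p = PD g i p := by simp
        rw [h1]
        have h2 : ∑ k, -A i k p * PD f k p = -(PD g i p - PD f i p) := by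
          rw [hp i, ← Finset.sum_neg_distrib]
          exact Finset.sum_congr rfl fun j _ => by ring
        rw [h2]
        ring)
    intro k
    refine ⟨d k, hd k, ?_⟩
    filter_upwards [hd2] with p hp
    exact hp k

/-- slices of `InId` -/
theorem InId.slice {J : Type*} [Fintype J] {φ : J → (Fin n → ℂ) × ℂ → ℂ} {t₀ : ℂ}
    {f : (Fin n → ℂ) × ℂ → ℂ} (h : InId φ (0, t₀) f) :
    ∀ᶠ t in 𝓝 t₀, InId (fun j x => φ j (x, t)) 0 (fun x => f (x, t)) := by
  obtain ⟨c, hc, h1⟩ := h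
  filter_upwards [eventually_all.2 fun j => slice_analytic (hc j), slice_eventually h1]
    with t h2 h3
  exact ⟨fun j x => c j (x, t), h2, h3⟩

theorem inIdeal_iff_inId {k : ℕ} (s : Fin k → (Fin n → ℂ) → ℂ) (f : (Fin n → ℂ) → ℂ) :
    InIdeal s f ↔ InId s 0 f := Iff.rfl

theorem colength_congr {k k' : ℕ} {s : Fin k → (Fin n → ℂ) → ℂ} {s' : Fin k' → (Fin n → ℂ) → ℂ}
    (h : ∀ j, InId s' 0 (s j)) (h' : ∀ j, InId s 0 (s' j)) {d : ℕ} (hd : Colength s d) :
    Colength s' d := by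
  obtain ⟨b, hb, H⟩ := hd
  refine ⟨b, hb, fun f hf => ?_⟩
  obtain ⟨c, hc, hu⟩ := H f hf
  exact ⟨c, InId.trans h hc, fun c' hc' => hu c' (InId.trans h' hc')⟩

/-- A perturbation of high order has the same Milnor numbers. -/
theorem milnor_transfer {F G : (Fin n → ℂ) → ℂ → ℂ} {t₀ : ℂ} {L : ℕ}
    (hF : AnalyticAt ℂ (fun q : (Fin n → ℂ) × ℂ => F q.1 q.2) (0, t₀))
    (hG : AnalyticAt ℂ (fun q : (Fin n → ℂ) × ℂ => G q.1 q.2) (0, t₀))
    (hL : ∀ R, XPow t₀ L R → InId (PD fun q => F q.1 q.2) (0, t₀) R)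
    (hfg : XPow t₀ (L + 2) (fun p => G p.1 p.2 - F p.1 p.2)) :
    ∀ᶠ t in 𝓝 t₀, ∀ μ, Milnor (fun x => F x t) μ → Milnor (fun x => G x t) μ := by
  obtain ⟨h1, h2⟩ := same_ideal hF hG hL hfg
  have hpd : ∀ {H : (Fin n → ℂ) → ℂ → ℂ},
      AnalyticAt ℂ (fun q : (Fin n → ℂ) × ℂ => H q.1 q.2) (0, t₀) →
      ∀ᶠ t in 𝓝 t₀, ∀ᶠ x in 𝓝 (0 : Fin n → ℂ), ∀ k,
        PD (fun q => H q.1 q.2) k (x, t) = pd k (fun x => H x t) x := by
    intro H hH
    have h3 : ∀ᶠ p in 𝓝 ((0 : Fin n → ℂ), t₀), ∀ k,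
        PD (fun q => H q.1 q.2) k p = pd k (fun x => H x p.2) p.1 := by
      filter_upwards [hH.eventually_analyticAt] with p hp k
      exact PD_eq_pd hp k
    exact slice_eventually h3
  have key : ∀ {φ φ' : Fin n → (Fin n → ℂ) → ℂ} {u u' : (Fin n → ℂ) → ℂ},
      (∀ᶠ x in 𝓝 (0 : Fin n → ℂ), ∀ k, φ' k x = φ k x) →
      (∀ᶠ x in 𝓝 (0 : Fin n → ℂ), u' x = u x) → InId φ' 0 u' → InId φ 0 u := by
    intro φ φ' u u' h3 h4 h5
    obtain ⟨c, hc, h6⟩ := h5
    refine ⟨c, hc, ?_⟩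
    filter_upwards [h3, h4, h6] with x e1 e2 e3
    rw [← e2, e3]
    exact Finset.sum_congr rfl fun j _ => by rw [e1 j]
  filter_upwards [eventually_all.2 fun k => (h1 k).slice, eventually_all.2 fun k => (h2 k).slice,
    hpd hF, hpd hG] with t e1 e2 e3 e4 μ hμ
  refine colength_congr (fun j => ?_) (fun j => ?_) hμ
  · exact key e4 (e3.mono fun x hx => hx j) (e2 j)
  · exact key e3 (e4.mono fun x hx => hx j) (e1 j)

/-- Transfer of topological triviality along a change of coordinates. -/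
theorem topRight_transfer {r r' : ℝ} (hr : 0 < r) {F G : (Fin n → ℂ) → ℂ → ℂ}
    (Ψ : OpenPartialHomeomorph ((Fin n → ℂ) × ℂ) ((Fin n → ℂ) × ℂ)) (h0 : (0, 0) ∈ Ψ.source)
    (h : ∀ q ∈ Ψ.source, (Ψ q).2 = q.2 ∧ (q.1 = 0 → Ψ q = q) ∧
      F (Ψ q).1 (Ψ q).2 = G q.1 q.2)
    (hG : TopRightTrivial r' G) : TopRightTrivial r F := by
  obtain ⟨δ, hδ, -, Φ, hΦ1, hΦ2, hΦ3⟩ := hG
  have hsymm2 : ∀ q ∈ Ψ.target, (Ψ.symm q).2 = q.2 := by
    intro q hq
    have h1 := (h _ (Ψ.map_target hq)).1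
    rw [Ψ.right_inv hq] at h1
    exact h1.symm
  have hcont0 : Continuous fun x : Fin n → ℂ => (x, (0 : ℂ)) := by fun_prop
  let s : OpenPartialHomeomorph (Fin n → ℂ) (Fin n → ℂ) :=
    { toFun := fun x => (Ψ (x, 0)).1
      invFun := fun y => (Ψ.symm (y, 0)).1
      source := {x | (x, (0 : ℂ)) ∈ Ψ.source}
      target := {y | (y, (0 : ℂ)) ∈ Ψ.target}
      map_source' := fun x hx => by
        have h1 := Ψ.map_source hx
        have h2 : Ψ (x, 0) = ((Ψ (x, 0)).1, 0) := Prod.ext rfl (h _ hx).1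
        rw [h2] at h1
        exact h1
      map_target' := fun y hy => by
        have h1 := Ψ.map_target hy
        have h2 : Ψ.symm (y, 0) = ((Ψ.symm (y, 0)).1, 0) := Prod.ext rfl (hsymm2 _ hy)
        rw [h2] at h1
        exact h1
      left_inv' := fun x hx => by
        have h2 : Ψ (x, 0) = ((Ψ (x, 0)).1, 0) := Prod.ext rfl (h _ hx).1
        have h3 := Ψ.left_inv hx
        rw [h2] at h3
        change (Ψ.symm ((Ψ (x, 0)).1, 0)).1 = x
        rw [h3]
      right_inv' := fun y hy => by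
        have h2 : Ψ.symm (y, 0) = ((Ψ.symm (y, 0)).1, 0) := Prod.ext rfl (hsymm2 _ hy)
        have h3 := Ψ.right_inv hy
        rw [h2] at h3
        change (Ψ ((Ψ.symm (y, 0)).1, 0)).1 = y
        rw [h3]
      open_source := Ψ.open_source.preimage hcont0
      open_target := Ψ.open_target.preimage hcont0
      continuousOn_toFun := continuous_fst.comp_continuousOn
        (Ψ.continuousOn.comp hcont0.continuousOn fun x hx => hx)
      continuousOn_invFun := continuous_fst.comp_continuousOn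
        (Ψ.continuousOn_symm.comp hcont0.continuousOn fun x hx => hx) }
  have hs0 : s.symm 0 = 0 := by
    change (Ψ.symm (0, 0)).1 = 0
    have h1 : Ψ ((0 : Fin n → ℂ), (0 : ℂ)) = (0, 0) := (h _ h0).2.1 rfl
    have h2 := Ψ.left_inv h0
    rw [h1] at h2
    rw [h2]
  have hs0t : (0 : Fin n → ℂ) ∈ s.target := by
    change ((0 : Fin n → ℂ), (0 : ℂ)) ∈ Ψ.target
    have h1 : Ψ ((0 : Fin n → ℂ), (0 : ℂ)) = (0, 0) := (h _ h0).2.1 rfl
    have h2 := Ψ.map_source h0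
    rwa [h1] at h2
  -- the axis near the origin lies in the source of `Ψ`
  obtain ⟨ε, hε, hεs⟩ : ∃ ε > 0, ∀ t ∈ ball (0 : ℂ) ε, ((0 : Fin n → ℂ), t) ∈ Ψ.source := by
    have h1 : ∀ᶠ t in 𝓝 (0 : ℂ), ((0 : Fin n → ℂ), t) ∈ Ψ.source := by
      have h2 : Continuous fun t : ℂ => ((0 : Fin n → ℂ), t) := by fun_prop
      exact (h2.tendsto 0) (Ψ.open_source.mem_nhds h0)
    obtain ⟨ε, hε, h3⟩ := Metric.eventually_nhds_iff_ball.1 h1
    exact ⟨ε, hε, h3⟩
  set δ' := min (min δ ε) r with hδ'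
  have hδ'0 : 0 < δ' := lt_min (lt_min hδ hε) hr
  have hopen : IsOpen {p : (Fin n → ℂ) × ℂ | p.2 ∈ ball (0 : ℂ) δ'} :=
    isOpen_ball.preimage continuous_snd
  let Ξ := (((s.prod (OpenPartialHomeomorph.refl ℂ)).symm.trans Φ).trans Ψ).restrOpen _ hopen
  have hsrc : ∀ p, p ∈ Ξ.source ↔ (((p.1 ∈ s.target ∧ (s.symm p.1, p.2) ∈ Φ.source) ∧
      Φ (s.symm p.1, p.2) ∈ Ψ.source) ∧ p.2 ∈ ball (0 : ℂ) δ') := by
    intro p
    rw [OpenPartialHomeomorph.restrOpen_source, OpenPartialHomeomorph.trans_source,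
      OpenPartialHomeomorph.trans_source]
    simp [OpenPartialHomeomorph.prod]
  have hval : ∀ p, Ξ p = Ψ (Φ (s.symm p.1, p.2)) := fun p => rfl
  refine ⟨δ', hδ'0, min_le_right _ _, Ξ, ?_, ?_, ?_⟩
  · intro p hp
    exact ((hsrc p).1 hp).2
  · intro t ht
    have ht1 : t ∈ ball (0 : ℂ) δ := ball_subset_ball
      ((min_le_left _ _).trans (min_le_left _ _)) ht
    have ht2 : t ∈ ball (0 : ℂ) ε := ball_subset_ball
      ((min_le_left _ _).trans (min_le_right _ _)) ht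
    obtain ⟨h3, h4⟩ := hΦ2 t ht1
    constructor
    · rw [hsrc]
      refine ⟨⟨⟨hs0t, ?_⟩, ?_⟩, ht⟩
      · change (s.symm 0, t) ∈ Φ.source
        rw [hs0]
        exact h3
      · change Φ (s.symm 0, t) ∈ Ψ.source
        rw [hs0, h4]
        exact hεs t ht2
    · rw [hval]
      change Ψ (Φ (s.symm 0, t)) = (0, t)
      rw [hs0, h4]
      exact (h _ (hεs t ht2)).2.1 rfl
  · intro p hp
    obtain ⟨⟨⟨h3, h4⟩, h5⟩, h6⟩ := (hsrc p).1 hp
    obtain ⟨h7, h8⟩ := hΦ3 _ h4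
    obtain ⟨h9, -, h10⟩ := h _ h5
    rw [hval]
    have h11 : (Ψ (Φ (s.symm p.1, p.2))).2 = p.2 := h9.trans h7
    refine ⟨h11, ?_⟩
    have h12 : F (Ψ (Φ (s.symm p.1, p.2))).1 p.2 =
        F (Ψ (Φ (s.symm p.1, p.2))).1 (Ψ (Φ (s.symm p.1, p.2))).2 := by rw [h11]
    rw [h12, h10]
    have h7' : (Φ (s.symm p.1, p.2)).2 = p.2 := h7
    have h8' : G (Φ (s.symm p.1, p.2)).1 p.2 = G (s.symm p.1) 0 := h8
    rw [h7', h8']
    -- the slice at `0`
    have h13 : (s.symm p.1, (0 : ℂ)) ∈ Ψ.source := s.map_target h3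
    obtain ⟨h14, -, h15⟩ := h _ h13
    have h16 : (Ψ (s.symm p.1, 0)).1 = p.1 := s.right_inv h3
    have h14' : (Ψ (s.symm p.1, 0)).2 = 0 := h14
    have h15' : F (Ψ (s.symm p.1, 0)).1 (Ψ (s.symm p.1, 0)).2 = G (s.symm p.1) 0 := h15
    rw [← h15', h16, h14']

end Vale.Agent.P298.H752
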