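import Vale.Agent.P298.H752.Lin

/-!
# P298 (helper752): powers of the ideal of the axis, Taylor expansion with parameters
-/

namespace Vale.Agent.P298.H752

open Filter Topology Module

variable {n : ℕ} {Λ : Type*} [NormedAddCommGroup Λ] [NormedSpace ℂ Λ]

/-- `R` lies in the `K`-th power of the ideal generated by the coordinates `x_i` in the ring of
germs at `(0, l₀)` -/
def XPow (l₀ : Λ) : ℕ → ((Fin n → ℂ) × Λ → ℂ) → Prop
  | 0, R => AnalyticAt ℂ R (0, l₀)
  | K + 1, R => ∃ ψ : Fin n → ((Fin n → ℂ) × Λ → ℂ), (∀ i, XPow l₀ K (ψ i)) ∧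
      ∀ᶠ p in 𝓝 ((0 : Fin n → ℂ), l₀), R p = ∑ i, p.1 i * ψ i p

theorem analyticAt_coord (p₀ : (Fin n → ℂ) × Λ) (i : Fin n) :
    AnalyticAt ℂ (fun p : (Fin n → ℂ) × Λ => p.1 i) p₀ :=
  ((ContinuousLinearMap.proj (R := ℂ) (φ := fun _ : Fin n => ℂ) i).comp
    (ContinuousLinearMap.fst ℂ (Fin n → ℂ) Λ)).analyticAt _

theorem XPow.analytic {l₀ : Λ} {K : ℕ} {R : (Fin n → ℂ) × Λ → ℂ} (h : XPow l₀ K R) :
    AnalyticAt ℂ R (0, l₀) := by
  induction K generalizing R with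
  | zero => exact h
  | succ K ih =>
    obtain ⟨ψ, hψ, hR⟩ := h
    have h1 : AnalyticAt ℂ (fun p : (Fin n → ℂ) × Λ => ∑ i, p.1 i * ψ i p) (0, l₀) :=
      Finset.analyticAt_fun_sum _ fun i _ => (analyticAt_coord _ i).mul (ih (hψ i))
    exact h1.congr (hR.mono fun p hp => hp.symm)

theorem XPow.congr {l₀ : Λ} {K : ℕ} {R R' : (Fin n → ℂ) × Λ → ℂ} (h : XPow l₀ K R)
    (hR : ∀ᶠ p in 𝓝 ((0 : Fin n → ℂ), l₀), R' p = R p) : XPow l₀ K R' := by
  cases K with
  | zero => exact AnalyticAt.congr h (hR.mono fun p hp => hp.symm)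
  | succ K =>
    obtain ⟨ψ, hψ, hR1⟩ := h
    refine ⟨ψ, hψ, ?_⟩
    filter_upwards [hR, hR1] with p h1 h2
    rw [h1, h2]

theorem XPow.zero (l₀ : Λ) (K : ℕ) : XPow (n := n) l₀ K (fun _ => 0) := by
  induction K with
  | zero => exact analyticAt_const
  | succ K ih => exact ⟨fun _ _ => 0, fun _ => ih, Eventually.of_forall fun p => by simp⟩

theorem XPow.add {l₀ : Λ} {K : ℕ} {R R' : (Fin n → ℂ) × Λ → ℂ} (h : XPow l₀ K R)
    (h' : XPow l₀ K R') : XPow l₀ K (fun p => R p + R' p) := by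
  induction K generalizing R R' with
  | zero => exact AnalyticAt.fun_add h h'
  | succ K ih =>
    obtain ⟨ψ, hψ, hR⟩ := h
    obtain ⟨ψ', hψ', hR'⟩ := h'
    refine ⟨fun i p => ψ i p + ψ' i p, fun i => ih (hψ i) (hψ' i), ?_⟩
    filter_upwards [hR, hR'] with p h1 h2
    rw [h1, h2, ← Finset.sum_add_distrib]
    exact Finset.sum_congr rfl fun i _ => by ring

theorem XPow.mul_left {l₀ : Λ} {K : ℕ} {R a : (Fin n → ℂ) × Λ → ℂ} (h : XPow l₀ K R)
    (ha : AnalyticAt ℂ a (0, l₀)) : XPow l₀ K (fun p => a p * R p) := by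
  induction K generalizing R with
  | zero => exact AnalyticAt.fun_mul ha h
  | succ K ih =>
    obtain ⟨ψ, hψ, hR⟩ := h
    refine ⟨fun i p => a p * ψ i p, fun i => ih (hψ i), ?_⟩
    filter_upwards [hR] with p h1
    rw [h1, Finset.mul_sum]
    exact Finset.sum_congr rfl fun i _ => by ring

theorem XPow.mul_right {l₀ : Λ} {K : ℕ} {R a : (Fin n → ℂ) × Λ → ℂ} (h : XPow l₀ K R)
    (ha : AnalyticAt ℂ a (0, l₀)) : XPow l₀ K (fun p => R p * a p) :=
  (h.mul_left ha).congr (Eventually.of_forall fun _ => mul_comm _ _)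

theorem XPow.neg {l₀ : Λ} {K : ℕ} {R : (Fin n → ℂ) × Λ → ℂ} (h : XPow l₀ K R) :
    XPow l₀ K (fun p => -R p) :=
  (h.mul_left (a := fun _ => -1) analyticAt_const).congr
    (Eventually.of_forall fun p => by ring)

theorem XPow.sub {l₀ : Λ} {K : ℕ} {R R' : (Fin n → ℂ) × Λ → ℂ} (h : XPow l₀ K R)
    (h' : XPow l₀ K R') : XPow l₀ K (fun p => R p - R' p) :=
  (h.add h'.neg).congr (Eventually.of_forall fun p => by ring)

theorem XPow.sum {l₀ : Λ} {K : ℕ} {ι : Type*} (s : Finset ι) {R : ι → (Fin n → ℂ) × Λ → ℂ}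
    (h : ∀ i ∈ s, XPow l₀ K (R i)) : XPow l₀ K (fun p => ∑ i ∈ s, R i p) := by
  classical
  induction s using Finset.induction_on with
  | empty => simpa using XPow.zero l₀ K
  | insert a s ha ih =>
    simp only [Finset.sum_insert ha]
    exact (h a (Finset.mem_insert_self _ _)).add
      (ih fun i hi => h i (Finset.mem_insert_of_mem hi))

theorem XPow.succ_le {l₀ : Λ} {K : ℕ} {R : (Fin n → ℂ) × Λ → ℂ} (h : XPow l₀ (K + 1) R) :
    XPow l₀ K R := by
  obtain ⟨ψ, hψ, hR⟩ := h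
  refine XPow.congr (XPow.sum Finset.univ (R := fun i p => p.1 i * ψ i p) fun i _ => ?_) hR
  exact (hψ i).mul_left (analyticAt_coord _ i)

theorem XPow.mono {l₀ : Λ} {K L : ℕ} (hKL : K ≤ L) {R : (Fin n → ℂ) × Λ → ℂ}
    (h : XPow l₀ L R) : XPow l₀ K R := by
  obtain ⟨j, rfl⟩ := Nat.exists_eq_add_of_le hKL
  induction j with
  | zero => exact h
  | succ j ih => exact ih (Nat.le_add_right _ _) h.succ_le

theorem XPow.coord_mul {l₀ : Λ} {K : ℕ} {R : (Fin n → ℂ) × Λ → ℂ} (h : XPow l₀ K R)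
    (i : Fin n) : XPow l₀ (K + 1) (fun p => p.1 i * R p) := by
  classical
  refine ⟨fun j p => (if j = i then 1 else 0) * R p,
    fun j => h.mul_left analyticAt_const, Eventually.of_forall fun p => ?_⟩
  rw [Finset.sum_eq_single i]
  · simp
  · intro j _ hj
    simp [hj]
  · intro hi
    exact absurd (Finset.mem_univ _) hi

theorem XPow.eq_zero_axis {l₀ : Λ} {K : ℕ} {R : (Fin n → ℂ) × Λ → ℂ} (h : XPow l₀ (K + 1) R) :
    ∀ᶠ l in 𝓝 l₀, R (0, l) = 0 := by
  obtain ⟨ψ, hψ, hR⟩ := h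
  have ht : Tendsto (fun l : Λ => ((0 : Fin n → ℂ), l)) (𝓝 l₀) (𝓝 (0, l₀)) :=
    Continuous.tendsto (by fun_prop) l₀
  filter_upwards [ht.eventually hR] with l hl
  rw [hl]
  simp

/-- a factorization -/
theorem XPow.split {l₀ : Λ} {A B : ℕ} {h : (Fin n → ℂ) × Λ → ℂ} (hh : XPow l₀ (A + B) h) :
    ∃ (S : Type) (_ : Fintype S) (u v : S → (Fin n → ℂ) × Λ → ℂ),
      (∀ s, XPow l₀ A (u s)) ∧ (∀ s, XPow l₀ B (v s)) ∧
      ∀ᶠ p in 𝓝 ((0 : Fin n → ℂ), l₀), h p = ∑ s, u s p * v s p := by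
  induction A generalizing h with
  | zero =>
    rw [zero_add] at hh
    exact ⟨Unit, inferInstance, fun _ _ => 1, fun _ => h, fun _ => analyticAt_const,
      fun _ => hh, Eventually.of_forall fun p => by simp⟩
  | succ A ih =>
    rw [Nat.succ_add] at hh
    obtain ⟨ψ, hψ, hR⟩ := hh
    choose S hS u v hu hv huv using fun i => ih (hψ i)
    refine ⟨Σ i, S i, inferInstance, fun s p => p.1 s.1 * u s.1 s.2 p, fun s => v s.1 s.2,
      fun s => (hu s.1 s.2).coord_mul s.1, fun s => hv s.1 s.2, ?_⟩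
    filter_upwards [hR, eventually_all.2 huv] with p h1 h2
    rw [h1, Fintype.sum_sigma]
    refine Finset.sum_congr rfl fun i _ => ?_
    rw [h2 i, Finset.mul_sum]
    exact Finset.sum_congr rfl fun s _ => by ring

theorem XPow.bound {l₀ : Λ} {K : ℕ} {R : (Fin n → ℂ) × Λ → ℂ} (h : XPow l₀ K R) :
    ∃ C : ℝ, ∀ᶠ p in 𝓝 ((0 : Fin n → ℂ), l₀), ‖R p‖ ≤ C * ‖p.1‖ ^ K := by
  induction K generalizing R with
  | zero =>
    refine ⟨‖R (0, l₀)‖ + 1, ?_⟩
    have h' : AnalyticAt ℂ R (0, l₀) := h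
    have := (h'.continuousAt.norm).eventually_lt (continuousAt_const (y := ‖R (0, l₀)‖ + 1))
      (by simp)
    filter_upwards [this] with p hp
    simpa using hp.le
  | succ K ih =>
    obtain ⟨ψ, hψ, hR⟩ := h
    choose C hC using fun i => ih (hψ i)
    refine ⟨∑ i, C i, ?_⟩
    filter_upwards [hR, eventually_all.mpr hC] with p h1 hp
    rw [h1]
    calc ‖∑ i, p.1 i * ψ i p‖ ≤ ∑ i, ‖p.1 i * ψ i p‖ := norm_sum_le _ _
      _ ≤ ∑ i, C i * ‖p.1‖ ^ (K + 1) := by
          refine Finset.sum_le_sum fun i _ => ?_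
          rw [norm_mul, pow_succ]
          calc ‖p.1 i‖ * ‖ψ i p‖ ≤ ‖p.1‖ * (C i * ‖p.1‖ ^ K) :=
                mul_le_mul (norm_le_pi_norm _ i) (hp i) (norm_nonneg _) (norm_nonneg _)
            _ = _ := by ring
      _ = _ := by rw [Finset.sum_mul]

/-- slices of analytic functions -/
theorem slice_analytic {l₀ : Λ} {φ : (Fin n → ℂ) × Λ → ℂ} (hφ : AnalyticAt ℂ φ (0, l₀)) :
    ∀ᶠ l in 𝓝 l₀, AnalyticAt ℂ (fun x : Fin n → ℂ => φ (x, l)) 0 := by
  have h5 := (Continuous.tendsto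
    (by fun_prop : Continuous fun l : Λ => ((0 : Fin n → ℂ), l)) l₀) hφ.eventually_analyticAt
  filter_upwards [h5] with l hl
  have hl' : AnalyticAt ℂ φ ((0 : Fin n → ℂ), l) := hl
  exact hl'.comp₂ analyticAt_id analyticAt_const

omit [NormedSpace ℂ Λ] in
/-- eventual statements on slices -/
theorem slice_eventually {l₀ : Λ} {P : (Fin n → ℂ) × Λ → Prop}
    (h : ∀ᶠ p in 𝓝 ((0 : Fin n → ℂ), l₀), P p) :
    ∀ᶠ l in 𝓝 l₀, ∀ᶠ x in 𝓝 (0 : Fin n → ℂ), P (x, l) := by
  rw [nhds_prod_eq] at h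
  have h6 := Filter.Eventually.curry (Filter.prod_comm (f := 𝓝 (0 : Fin n → ℂ)) ▸ h :
    ∀ᶠ p in Filter.map (fun p : Λ × (Fin n → ℂ) => (p.2, p.1))
      (𝓝 l₀ ×ˢ 𝓝 (0 : Fin n → ℂ)), _)
  exact h6

theorem XPow.slice {l₀ : Λ} {K : ℕ} {R : (Fin n → ℂ) × Λ → ℂ} (h : XPow l₀ K R) :
    ∀ᶠ l in 𝓝 l₀, SliceMem (qM n K) (fun x => R (x, l)) := by
  induction K generalizing R with
  | zero =>
    filter_upwards [slice_analytic h] with l hl
    exact ⟨hl, by simp [qM]⟩
  | succ K ih =>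
    have hRa := slice_analytic h.analytic
    obtain ⟨ψ, hψ, hR⟩ := h
    filter_upwards [eventually_all.2 fun i => ih (hψ i), hRa, slice_eventually hR] with l hl h2 h3
    choose h4 h5 using hl
    refine ⟨h2, ?_⟩
    have h6 : (⟨fun x => R (x, l), h2⟩ : AnFun n) -
        ∑ i, coordF n i * ⟨fun x => ψ i (x, l), h4 i⟩ ∈ nul n := by
      rw [mem_nul]
      filter_upwards [h3] with x hx
      have e1 : ((⟨fun x => R (x, l), h2⟩ -
          ∑ i, coordF n i * ⟨fun x => ψ i (x, l), h4 i⟩ : AnFun n) : (Fin n → ℂ) → ℂ) x =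
          R (x, l) - ∑ i, x i * ψ i (x, l) := by
        simp only [AddSubgroupClass.coe_sub, AddSubmonoidClass.coe_finsetSum, Pi.sub_apply,
          Finset.sum_apply]
        rfl
      rw [e1, hx]
      simp
    have h7 : ∑ i, coordF n i * (⟨fun x => ψ i (x, l), h4 i⟩ : AnFun n) ∈ qM n (K + 1) := by
      refine Ideal.sum_mem _ fun i _ => ?_
      have h5 := h5 i
      rw [qM, Submodule.mem_sup] at h5 ⊢
      obtain ⟨y, hy, z, hz, hyz⟩ := h5
      refine ⟨coordF n i * y, Ideal.mul_mem_left _ _ hy, coordF n i * z, ?_, ?_⟩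
      · rw [pow_succ']
        exact Ideal.mul_mem_mul (Ideal.subset_span ⟨i, rfl⟩) hz
      · rw [← mul_add, hyz]
    have h8 := (qM n (K + 1)).add_mem (Ideal.mem_sup_left h6) h7
    rwa [sub_add_cancel] at h8

/-- an element of `qM n K` gives an element of `XPow` independent of the parameter -/
theorem XPow.of_qM (l₀ : Λ) {K : ℕ} {h : AnFun n} (hh : h ∈ qM n K) :
    XPow l₀ K (fun p => (h : (Fin n → ℂ) → ℂ) p.1) := by
  have key : ∀ (K : ℕ) (z : AnFun n), z ∈ mX n ^ K →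
      XPow l₀ K (fun p => (z : (Fin n → ℂ) → ℂ) p.1) := by
    intro K
    induction K with
    | zero =>
      intro z _
      have h1 : AnalyticAt ℂ (z : (Fin n → ℂ) → ℂ) ((0 : Fin n → ℂ), l₀).1 := z.2
      exact h1.comp analyticAt_fst
    | succ K ih =>
      intro z hz
      rw [pow_succ'] at hz
      refine Submodule.mul_induction_on hz ?_ ?_
      · intro a ha c hc
        have h1 : ∃ s : Fin n → AnFun n, ∑ i, s i * coordF n i = a := by
          rw [mX, Ideal.mem_span_range_iff_exists_fun] at ha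
          exact ha
        obtain ⟨s, hs⟩ := h1
        refine ⟨fun i p => (s i : (Fin n → ℂ) → ℂ) p.1 * (c : (Fin n → ℂ) → ℂ) p.1, fun i => ?_,
          Eventually.of_forall fun p => ?_⟩
        · refine (ih c hc).mul_left ?_
          have h1 : AnalyticAt ℂ (s i : (Fin n → ℂ) → ℂ) ((0 : Fin n → ℂ), l₀).1 := (s i).2
          exact h1.comp analyticAt_fst
        · change (a : (Fin n → ℂ) → ℂ) p.1 * (c : (Fin n → ℂ) → ℂ) p.1 = _
          rw [← hs]
          have e1 : ((∑ i, s i * coordF n i : AnFun n) : (Fin n → ℂ) → ℂ) p.1 =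
              ∑ i, (s i : (Fin n → ℂ) → ℂ) p.1 * p.1 i := by
            simp only [AddSubmonoidClass.coe_finsetSum, Finset.sum_apply]
            rfl
          rw [e1, Finset.sum_mul]
          exact Finset.sum_congr rfl fun i _ => by ring
      · intro x y hx hy
        exact hx.add hy
  rw [qM, Submodule.mem_sup] at hh
  obtain ⟨y, hy, z, hz, rfl⟩ := hh
  refine (key K z hz).congr ?_
  have h1 : ∀ᶠ p in 𝓝 ((0 : Fin n → ℂ), l₀), (y : (Fin n → ℂ) → ℂ) p.1 = 0 := by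
    have tx : Tendsto (fun p : (Fin n → ℂ) × Λ => p.1) (𝓝 (0, l₀)) (𝓝 0) := by
      have := (continuous_fst (X := Fin n → ℂ) (Y := Λ)).tendsto (0, l₀)
      simpa using this
    exact tx.eventually (mem_nul.1 hy)
  filter_upwards [h1] with p hp
  change (y : (Fin n → ℂ) → ℂ) p.1 + (z : (Fin n → ℂ) → ℂ) p.1 = _
  rw [hp, zero_add]

/-- Taylor expansion in the variables `x` -/
theorem exists_taylorPoly (n M : ℕ) (Λ : Type*) [NormedAddCommGroup Λ] [NormedSpace ℂ Λ] :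
    ∃ (ι : Type) (_ : Fintype ι) (β : ι → MvPolynomial (Fin n) ℂ),
      (∀ i, (β i).totalDegree < M) ∧
      ∀ (l₀ : Λ) (φ : (Fin n → ℂ) × Λ → ℂ), AnalyticAt ℂ φ (0, l₀) →
        ∃ a : ι → Λ → ℂ, (∀ i, AnalyticAt ℂ (a i) l₀) ∧
          XPow l₀ M (fun p => φ p - ∑ i, a i p.2 * MvPolynomial.eval p.1 (β i)) := by
  induction M with
  | zero =>
    refine ⟨Empty, inferInstance, fun x => x.elim, fun x => x.elim, fun l₀ φ hφ =>
      ⟨fun x => x.elim, fun x => x.elim, ?_⟩⟩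
    change AnalyticAt ℂ _ _
    simpa using hφ
  | succ M ih =>
    obtain ⟨ι, hι, β, hβ, hb⟩ := ih
    refine ⟨Option (Fin n × ι), inferInstance,
      fun o => o.elim 1 fun q => MvPolynomial.X q.1 * β q.2, ?_, fun l₀ φ hφ => ?_⟩
    · rintro (_ | ⟨i, j⟩)
      · simp
      · change (MvPolynomial.X i * β j).totalDegree < M + 1
        have h1 := MvPolynomial.totalDegree_mul (MvPolynomial.X (R := ℂ) i) (β j)
        have h2 := MvPolynomial.totalDegree_X (R := ℂ) i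
        have h3 := hβ j
        omega
    · obtain ⟨ψ, hψ, hφψ⟩ := exists_hadamard l₀ hφ
      choose a ha hρ using fun i => hb l₀ (ψ i) (hψ i)
      refine ⟨fun o l => o.elim (φ (0, l)) fun q => a q.1 q.2 l, ?_, ?_⟩
      · rintro (_ | ⟨i, j⟩)
        · exact hφ.comp₂ analyticAt_const analyticAt_id
        · exact ha i j
      · refine ⟨fun i p => ψ i p - ∑ j, a i j p.2 * MvPolynomial.eval p.1 (β j), hρ, ?_⟩
        filter_upwards [hφψ] with p hp
        rw [hp, Fintype.sum_option, Fintype.sum_prod_type]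
        simp only [Option.elim, map_one, mul_one, map_mul, MvPolynomial.eval_X, mul_sub,
          Finset.sum_sub_distrib, Finset.mul_sum]
        rw [add_sub_add_left_eq_sub]
        congr 1
        exact Finset.sum_congr rfl fun i _ => Finset.sum_congr rfl fun j _ => by ring

end Vale.Agent.P298.H752
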